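import Crest.Agent.R178U.EF

/-!
# The finite-dimensional algebra `A` and the `A`-modules `col X a`

`A` = 5×5 matrices over `E` with `(i,j)` entry in `EF (i - j)`.
For a filtered `E`-module `X` the module `col X a` consists of the columns `y : Fin 5 → X.N` with
`y i ∈ X.F (i - a)`.

PIECE AALG: the sorries of this file.
* `A_finite`: `A` embeds linearly into `∀ i j, EF (i - j)` (`EF_finite`).
* `augE_neg`: from `EF_neg_form`.
-/

set_option autoImplicit false

namespace Crest.Agent.R178U

noncomputable section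

/-- integer value of an index -/
abbrev iz (i : Fin 5) : ℤ := ((i : ℕ) : ℤ)

/-- The algebra `A` as a subalgebra of `5×5` matrices over `E`. -/
def Asub : Subalgebra ℂ (Matrix (Fin 5) (Fin 5) E) where
  carrier := {B | ∀ i j, B i j ∈ EF (iz i - iz j)}
  zero_mem' := fun i j => Submodule.zero_mem _
  add_mem' := fun {a b} ha hb i j => Submodule.add_mem _ (ha i j) (hb i j)
  one_mem' := by
    intro i j
    by_cases h : i = j
    · subst h
      rw [Matrix.one_apply_eq, sub_self]; exact one_mem_EF
    · rw [Matrix.one_apply_ne h]; exact Submodule.zero_mem _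
  mul_mem' := by
    intro a b ha hb i j
    rw [Matrix.mul_apply]
    refine Submodule.sum_mem _ fun k _ => ?_
    have := EF_mul_mem (ha i k) (hb k j)
    rwa [sub_add_sub_cancel] at this
  algebraMap_mem' := by
    intro c i j
    by_cases h : i = j
    · subst h
      rw [Matrix.algebraMap_matrix_apply, if_pos rfl, sub_self, Algebra.algebraMap_eq_smul_one]
      exact Submodule.smul_mem _ c one_mem_EF
    · rw [Matrix.algebraMap_matrix_apply, if_neg h]; exact Submodule.zero_mem _

/-- The algebra `A`. -/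
def A : Type := ↥Asub

instance : Ring A := inferInstanceAs (Ring ↥Asub)
instance : Algebra ℂ A := inferInstanceAs (Algebra ℂ ↥Asub)

/-- matrix entries of an element of `A` -/
def ent (B : A) (i j : Fin 5) : E := (B : ↥Asub).1 i j

theorem ent_mem (B : A) (i j : Fin 5) : ent B i j ∈ EF (iz i - iz j) := B.2 i j

/-- construct an element of `A` from its entries -/
def mkA (M : Fin 5 → Fin 5 → E) (h : ∀ i j, M i j ∈ EF (iz i - iz j)) : A := ⟨M, h⟩

@[simp] theorem ent_mkA (M : Fin 5 → Fin 5 → E) (h : ∀ i j, M i j ∈ EF (iz i - iz j)) (i j : Fin 5) :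
    ent (mkA M h) i j = M i j := rfl

theorem A_ext {B C : A} (h : ∀ i j, ent B i j = ent C i j) : B = C :=
  Subtype.ext (Matrix.ext h)

theorem ent_add (B C : A) (i j : Fin 5) : ent (B + C) i j = ent B i j + ent C i j := rfl
theorem ent_zero (i j : Fin 5) : ent 0 i j = 0 := rfl
theorem ent_one (i j : Fin 5) : ent 1 i j = if i = j then 1 else 0 := Matrix.one_apply
theorem ent_mul (B C : A) (i j : Fin 5) : ent (B * C) i j = ∑ k, ent B i k * ent C k j :=
  Matrix.mul_apply
theorem ent_smul (c : ℂ) (B : A) (i j : Fin 5) : ent (c • B) i j = c • ent B i j := rfl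

theorem A_finite : FiniteDimensional ℂ A := by
  have h : ∀ i j : Fin 5, FiniteDimensional ℂ (EF (iz i - iz j)) := fun i j => EF_finite _
  let φ : A →ₗ[ℂ] ((i j : Fin 5) → EF (iz i - iz j)) :=
    { toFun := fun B i j => ⟨ent B i j, ent_mem B i j⟩
      map_add' := fun B C => rfl
      map_smul' := fun c B => rfl }
  refine Module.Finite.of_injective φ ?_
  intro B C hBC
  apply A_ext
  intro i j
  exact congrArg Subtype.val (congrFun (congrFun hBC i) j)

/-! ### filtered `E`-modules and columns -/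

/-- a filtered `E`-module -/
structure FMod where
  N : Type
  [i1 : AddCommGroup N]
  [i2 : Module ℂ N]
  [i3 : Module E N]
  [i4 : IsScalarTower ℂ E N]
  F : ℤ → Submodule ℂ N
  smul_mem : ∀ (d k : ℤ) (a : E) (x : N), a ∈ EF d → x ∈ F k → a • x ∈ F (d + k)

attribute [instance] FMod.i1 FMod.i2 FMod.i3 FMod.i4

/-- all columns with entries in `N` -/
def Col (N : Type) : Type := Fin 5 → N

instance (N : Type) [AddCommGroup N] : AddCommGroup (Col N) := inferInstanceAs (AddCommGroup (Fin 5 → N))
instance (N : Type) [AddCommGroup N] [Module ℂ N] : Module ℂ (Col N) :=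
  inferInstanceAs (Module ℂ (Fin 5 → N))

instance (N : Type) [AddCommGroup N] [Module E N] : Module A (Col N) where
  smul B y := fun i => ∑ j, ent B i j • y j
  one_smul y := by
    funext i
    show ∑ j, ent 1 i j • y j = y i
    rw [Finset.sum_eq_single i]
    · rw [ent_one, if_pos rfl, one_smul]
    · intro j _ hj
      rw [ent_one, if_neg (Ne.symm hj), zero_smul]
    · intro h; exact absurd (Finset.mem_univ i) h
  mul_smul B C y := by
    funext i
    show ∑ j, ent (B * C) i j • y j = ∑ k, ent B i k • ∑ j, ent C k j • y j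
    simp only [ent_mul, Finset.sum_smul, Finset.smul_sum, mul_smul]
    rw [Finset.sum_comm]
  smul_zero B := by
    funext i
    show ∑ j, ent B i j • (0 : N) = 0
    simp
  smul_add B x y := by
    funext i
    show ∑ j, ent B i j • (x j + y j) = (∑ j, ent B i j • x j) + ∑ j, ent B i j • y j
    simp [smul_add, Finset.sum_add_distrib]
  add_smul B C y := by
    funext i
    show ∑ j, ent (B + C) i j • y j = (∑ j, ent B i j • y j) + ∑ j, ent C i j • y j
    simp [ent_add, add_smul, Finset.sum_add_distrib]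
  zero_smul y := by
    funext i
    show ∑ j, ent 0 i j • y j = 0
    simp [ent_zero]

theorem Col_smul_apply {N : Type} [AddCommGroup N] [Module E N] (B : A) (y : Col N) (i : Fin 5) :
    (B • y) i = ∑ j, ent B i j • y j := rfl

instance (N : Type) [AddCommGroup N] [Module ℂ N] [Module E N] [IsScalarTower ℂ E N] :
    IsScalarTower ℂ A (Col N) where
  smul_assoc c B y := by
    funext i
    show ∑ j, ent (c • B) i j • y j = c • ∑ j, ent B i j • y j
    simp [ent_smul, Finset.smul_sum]

/-- the columns `y` with `y i ∈ F (i - a)` -/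
def FMod.col (X : FMod) (a : ℤ) : Submodule A (Col X.N) where
  carrier := {y | ∀ i, y i ∈ X.F (iz i - a)}
  zero_mem' := fun i => Submodule.zero_mem _
  add_mem' := fun {x y} hx hy i => Submodule.add_mem _ (hx i) (hy i)
  smul_mem' := by
    intro B y hy i
    rw [Col_smul_apply]
    refine Submodule.sum_mem _ fun j _ => ?_
    have := X.smul_mem _ _ _ _ (ent_mem B i j) (hy j)
    rwa [sub_add_sub_cancel] at this

theorem mem_col {X : FMod} {a : ℤ} {y : Col X.N} : y ∈ X.col a ↔ ∀ i, y i ∈ X.F (iz i - a) :=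
  Iff.rfl

/-- `NN Y` as filtered `E`-module -/
def NNF (Y : Type) [AddCommGroup Y] [Module ℂ Y] [Sl2 Y] [FSl2 Y] : FMod where
  N := NN Y
  F := NF
  smul_mem _ _ _ _ ha hx := EF_smul_mem ha hx

/-- map between column modules induced by an `E`-linear map compatible with filtrations in the
relevant degrees -/
def colMap {X Z : FMod} {a b : ℤ} (φ : X.N →ₗ[E] Z.N)
    (hφ : ∀ (i : Fin 5) (x : X.N), x ∈ X.F (iz i - a) → φ x ∈ Z.F (iz i - b)) :
    X.col a →ₗ[A] Z.col b where
  toFun y := ⟨fun i => φ (y.1 i), fun i => hφ i _ (y.2 i)⟩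
  map_add' x y := by
    apply Subtype.ext
    funext i
    exact map_add φ _ _
  map_smul' B y := by
    apply Subtype.ext
    funext i
    show φ ((B • y.1) i) = ∑ j, ent B i j • φ (y.1 j)
    rw [Col_smul_apply, map_sum]
    simp only [map_smul]

theorem colMap_apply {X Z : FMod} {a b : ℤ} (φ : X.N →ₗ[E] Z.N)
    (hφ : ∀ (i : Fin 5) (x : X.N), x ∈ X.F (iz i - a) → φ x ∈ Z.F (iz i - b)) (y : X.col a)
    (i : Fin 5) : (colMap φ hφ y).1 i = φ (y.1 i) := rfl

theorem colMap_injective {X Z : FMod} {a b : ℤ} (φ : X.N →ₗ[E] Z.N)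
    (hφ : ∀ (i : Fin 5) (x : X.N), x ∈ X.F (iz i - a) → φ x ∈ Z.F (iz i - b))
    (h : ∀ (i : Fin 5) (x : X.N), x ∈ X.F (iz i - a) → φ x = 0 → x = 0) :
    Function.Injective (colMap (a := a) (b := b) φ hφ) := by
  rw [injective_iff_map_eq_zero]
  intro y hy
  apply Subtype.ext
  funext i
  refine h i _ (y.2 i) ?_
  have := congrArg (fun z => z.1 i) hy
  exact this

theorem colMap_surjective {X Z : FMod} {a b : ℤ} (φ : X.N →ₗ[E] Z.N)
    (hφ : ∀ (i : Fin 5) (x : X.N), x ∈ X.F (iz i - a) → φ x ∈ Z.F (iz i - b))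
    (h : ∀ (i : Fin 5) (z : Z.N), z ∈ Z.F (iz i - b) → ∃ x, x ∈ X.F (iz i - a) ∧ φ x = z) :
    Function.Surjective (colMap (a := a) (b := b) φ hφ) := by
  intro z
  choose x hx hxz using fun i => h i _ (z.2 i)
  exact ⟨⟨x, hx⟩, Subtype.ext (funext hxz)⟩

theorem colMap_exact {X Z V : FMod} {a b c : ℤ} (φ : X.N →ₗ[E] Z.N) (ψ : Z.N →ₗ[E] V.N)
    (hφ : ∀ (i : Fin 5) (x : X.N), x ∈ X.F (iz i - a) → φ x ∈ Z.F (iz i - b))
    (hψ : ∀ (i : Fin 5) (x : Z.N), x ∈ Z.F (iz i - b) → ψ x ∈ V.F (iz i - c))
    (h0 : ∀ x, ψ (φ x) = 0)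
    (h : ∀ (i : Fin 5) (z : Z.N), z ∈ Z.F (iz i - b) → ψ z = 0 →
      ∃ x, x ∈ X.F (iz i - a) ∧ φ x = z) :
    Function.Exact (colMap (a := a) (b := b) φ hφ) (colMap (a := b) (b := c) ψ hψ) := by
  intro z
  constructor
  · intro hz
    have hz' : ∀ i, ψ (z.1 i) = 0 := fun i => congrArg (fun u => u.1 i) hz
    choose x hx hxz using fun i => h i _ (z.2 i) (hz' i)
    exact ⟨⟨x, hx⟩, Subtype.ext (funext hxz)⟩
  · rintro ⟨x, rfl⟩
    apply Subtype.ext
    funext i
    exact h0 _

/-! ### the simple module at the last vertex -/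

/-- the zero tuple -/
def zeroTuple : ETuple ℂ where
  t := 0
  e := 0
  f := 0
  h := 0
  v := 0
  w := 0
  he := by simp
  hf := by simp
  ef := by simp
  te := by simp
  tf := by simp
  th := by simp
  tv := by simp
  tw := by simp
  ev := by simp
  ew := by simp
  fv := by simp
  fw := by simp
  hv := by simp
  hw := by simp
  vt := by simp
  wt := by simp
  vv := by simp
  vw := by simp
  wv := by simp
  ww := by simp

/-- the augmentation `E → ℂ` -/
def augE : E →ₐ[ℂ] ℂ := zeroTuple.lift

/-- the trivial `E`-module -/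
def Tr : Type := ℂ

instance : AddCommGroup Tr := inferInstanceAs (AddCommGroup ℂ)
instance : Module ℂ Tr := inferInstanceAs (Module ℂ ℂ)
instance : Module E Tr := Module.compHom ℂ augE.toRingHom

theorem Tr_smul (a : E) (x : Tr) : a • x = augE a • x := rfl

instance : IsScalarTower ℂ E Tr where
  smul_assoc c a x := by
    rw [Tr_smul, Tr_smul, map_smul, smul_assoc]

/-- `augE` vanishes on `EF d`, `d < 0` (`EF_neg_form`) -/
theorem augE_neg {d : ℤ} (hd : d < 0) {a : E} (ha : a ∈ EF d) : augE a = 0 := by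
  obtain ⟨z₁, z₂, rfl⟩ := EF_neg_form hd ha
  have hv : augE (gen .v) = 0 := by
    unfold augE
    rw [lift_gen]; rfl
  have hw : augE (gen .w) = 0 := by
    unfold augE
    rw [lift_gen]; rfl
  rw [map_add, map_mul, map_mul, hv, hw]
  simp

/-- the trivial module with filtration concentrated in degrees `≥ 0` -/
def triv : FMod where
  N := Tr
  F d := if 0 ≤ d then ⊤ else ⊥
  smul_mem := by
    intro d k a x ha hx
    by_cases hk : 0 ≤ k
    · by_cases hd : 0 ≤ d + k
      · rw [if_pos hd]; trivial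
      · rw [if_neg hd, Submodule.mem_bot, Tr_smul, augE_neg (by lia) ha, zero_smul]
    · rw [if_neg hk, Submodule.mem_bot] at hx
      rw [hx, smul_zero]; exact Submodule.zero_mem _

end

end Crest.Agent.R178U
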