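import Crest.Agent.R178U.Koszul

/-!
# The filtered Chevalley–Eilenberg complex of a finite-dimensional `sl₂`-representation

PIECE CE.  `J` finite, `ρ` the matrices of a representation in a basis `b : J → M`
(`x • b i = ∑ j, ρx i j • b j`).  On row vectors `s : J → S` (to be thought of as
`∑ s_j ⊗ b_j ∈ U(sl₂) ⊗ M`) the operators `δx s = Rx s - s ᵥ* ρx` are
`u ⊗ m ↦ u x ⊗ m - u ⊗ x m`.

Complex: `(J → S) --D3--> (Fin 3 → J → S) --D2--> (Fin 3 → J → S) --D1--> (J → S)`.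

Proof of exactness (`exact1`): Induction on `n` with `d ≤ n` (for `d < 0`, `x = 0`).  For
`x ∈ F d` with `D1 x = 0`, componentwise (for each `j : J`)
`X2 * x 0 j + X0 * x 1 j + X1 * x 2 j ∈ SF d` (because `δx s j - X * s j ∈ SF d`, `Rf_low`, `Rh_low`),
so `koszul1` gives `t ∈ F (d-1)` with `x - D2 t ∈ F (d-1)` (again by `Rf_low`, `Rh_low`), and
`D1 (x - D2 t) = 0`; apply the induction hypothesis to `x - D2 t`.  Same for `exact2`, `exact3`,
`exact0`.
-/

set_option autoImplicit false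

namespace Crest.Agent.R178U

open MvPolynomial

noncomputable section

/-- matrices (acting on row vectors) of an `sl₂`-representation -/
structure RMat (J : Type) [Fintype J] where
  e : Matrix J J ℂ
  f : Matrix J J ℂ
  h : Matrix J J ℂ
  he : e * h = h * e + (2 : ℂ) • e
  hf : f * h = h * f - (2 : ℂ) • f
  ef : f * e = e * f + h

/-- `s ↦ R s - s ᵥ* ρ` -/
def twist {J : Type} [Fintype J] (R : S →ₗ[ℂ] S) (A : Matrix J J ℂ) :
    (J → S) →ₗ[ℂ] (J → S) :=
  LinearMap.compLeft R J -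
    LinearMap.pi (fun j => ∑ i, A i j • (LinearMap.proj i : (J → S) →ₗ[ℂ] S))

theorem twist_apply {J : Type} [Fintype J] (R : S →ₗ[ℂ] S) (A : Matrix J J ℂ) (s : J → S)
    (j : J) : twist R A s j = R (s j) - ∑ i, A i j • s i := by
  simp [twist, LinearMap.sum_apply]

namespace CEaux

theorem twist_comp {J : Type} [Fintype J] (R R' : S →ₗ[ℂ] S) (A A' : Matrix J J ℂ) (s : J → S)
    (j : J) : twist R A (twist R' A' s) j =
      R (R' (s j)) - ∑ i, A' i j • R (s i) - ∑ i, A i j • R' (s i) +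
        ∑ k, (A' * A) k j • s k := by
  have h1 : ∑ k, (A' * A) k j • s k = ∑ i, A i j • ∑ k, A' k i • s k := by
    simp only [Matrix.mul_apply, Finset.sum_smul, Finset.smul_sum, smul_smul]
    rw [Finset.sum_comm]
    refine Finset.sum_congr rfl fun i _ => Finset.sum_congr rfl fun k _ => ?_
    rw [mul_comm]
  rw [h1]
  simp only [twist_apply, map_sub, map_sum, map_smul, smul_sub, Finset.sum_sub_distrib]
  abel

theorem twist_comm {J : Type} [Fintype J] {R R' R'' : S →ₗ[ℂ] S} {A A' A'' : Matrix J J ℂ}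
    (hR : ∀ s, R (R' s) = R' (R s) + R'' s) (hA : A * A' = A' * A + A'') (s : J → S) :
    twist R A (twist R' A' s) = twist R' A' (twist R A s) + twist R'' A'' s := by
  ext1 j
  rw [Pi.add_apply, twist_comp, twist_comp, twist_apply, hR, hA]
  have h1 : ∑ k, (A' * A + A'') k j • s k = ∑ k, (A' * A) k j • s k + ∑ k, A'' k j • s k := by
    rw [← Finset.sum_add_distrib]
    refine Finset.sum_congr rfl fun k _ => ?_
    rw [Matrix.add_apply, add_smul]
  rw [h1]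
  abel

theorem twist_smul {J : Type} [Fintype J] (c : ℂ) (R : S →ₗ[ℂ] S) (A : Matrix J J ℂ)
    (s : J → S) : twist (c • R) (c • A) s = c • twist R A s := by
  ext1 j
  rw [Pi.smul_apply, twist_apply, twist_apply, smul_sub, Finset.smul_sum]
  congr 1
  refine Finset.sum_congr rfl fun k _ => ?_
  rw [Matrix.smul_apply, smul_eq_mul, mul_smul]

theorem twist_L {J : Type} [Fintype J] {R L : S →ₗ[ℂ] S} (A : Matrix J J ℂ)
    (hL : ∀ s, L (R s) = R (L s)) (s : J → S) :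
    twist R A (LinearMap.compLeft L J s) = LinearMap.compLeft L J (twist R A s) := by
  ext1 j
  rw [LinearMap.compLeft_apply, Function.comp_apply, twist_apply, twist_apply, map_sub, map_sum,
    hL]
  congr 1
  refine Finset.sum_congr rfl fun k _ => ?_
  rw [map_smul]
  rfl

theorem twist_low {J : Type} [Fintype J] {R : S →ₗ[ℂ] S} (A : Matrix J J ℂ) (i : Fin 3) {d : ℤ}
    {s : J → S} (hs : ∀ j, s j ∈ SF d) (hR : ∀ j, R (s j) - X i * s j ∈ SF d) (j : J) :
    twist R A s j - X i * s j ∈ SF d := by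
  rw [twist_apply]
  have h1 : R (s j) - ∑ k, A k j • s k - X i * s j =
      (R (s j) - X i * s j) - ∑ k, A k j • s k := by abel
  rw [h1]
  exact Submodule.sub_mem _ (hR j) (Submodule.sum_mem _ fun k _ => Submodule.smul_mem _ _ (hs k))

theorem twist_mem {J : Type} [Fintype J] {R : S →ₗ[ℂ] S} (A : Matrix J J ℂ) {d : ℤ}
    {s : J → S} (hs : ∀ j, s j ∈ SF d) (hR : ∀ j, R (s j) ∈ SF (d + 1)) (j : J) :
    twist R A s j ∈ SF (d + 1) := by
  rw [twist_apply]
  exact Submodule.sub_mem _ (hR j) (Submodule.sum_mem _ fun k _ => Submodule.smul_mem _ _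
    (SF_mono (by omega) (hs k)))

theorem exists_bound {J : Type} [Fintype J] (r : J → S) : ∃ n : ℕ, ∀ j, r j ∈ SF n := by
  refine ⟨Finset.univ.sup (fun j => (r j).support.sup (fun m => m.degree)), fun j => ?_⟩
  rw [mem_SF]
  intro m hm
  have h1 : m.degree ≤ (r j).support.sup (fun m => m.degree) :=
    Finset.le_sup (f := fun m : Fin 3 →₀ ℕ => m.degree) hm
  have h2 : (r j).support.sup (fun m => m.degree) ≤
      Finset.univ.sup (fun j => (r j).support.sup (fun m => m.degree)) :=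
    Finset.le_sup (f := fun j => (r j).support.sup (fun m : Fin 3 →₀ ℕ => m.degree))
      (Finset.mem_univ j)
  exact_mod_cast h1.trans h2

end CEaux

open CEaux

variable {J : Type} [Fintype J] (ρ : RMat J)

/-- `δe` -/
abbrev de : (J → S) →ₗ[ℂ] (J → S) := twist Re ρ.e
/-- `δf` -/
abbrev df : (J → S) →ₗ[ℂ] (J → S) := twist Rf ρ.f
/-- `δh` -/
abbrev dh : (J → S) →ₗ[ℂ] (J → S) := twist Rh ρ.h

theorem d_he (s : J → S) : de ρ (dh ρ s) = dh ρ (de ρ s) + (2 : ℂ) • de ρ s := by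
  have h := twist_comm (R'' := (2 : ℂ) • Re) R_he ρ.he s
  rw [twist_smul] at h
  exact h

theorem d_hf (s : J → S) : df ρ (dh ρ s) = dh ρ (df ρ s) - (2 : ℂ) • df ρ s := by
  have h := twist_comm (R := Rf) (R' := Rh) (R'' := (-2 : ℂ) • Rf) (A := ρ.f) (A' := ρ.h)
    (A'' := (-2 : ℂ) • ρ.f)
    (fun s => by rw [R_hf, LinearMap.smul_apply, neg_smul, sub_eq_add_neg])
    (by rw [ρ.hf, neg_smul, sub_eq_add_neg]) s
  rw [twist_smul, neg_smul, ← sub_eq_add_neg] at h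
  exact h

theorem d_ef (s : J → S) : df ρ (de ρ s) = de ρ (df ρ s) + dh ρ s :=
  twist_comm R_ef ρ.ef s

/-- projection -/
abbrev pr (J : Type) (i : Fin 3) : (Fin 3 → J → S) →ₗ[ℂ] (J → S) := LinearMap.proj i

/-- `D1 x = δe (x 0) + δf (x 1) + δh (x 2)` -/
def D1 : (Fin 3 → J → S) →ₗ[ℂ] (J → S) :=
  de ρ ∘ₗ pr J 0 + df ρ ∘ₗ pr J 1 + dh ρ ∘ₗ pr J 2

theorem D1_apply (x : Fin 3 → J → S) : D1 ρ x = de ρ (x 0) + df ρ (x 1) + dh ρ (x 2) := rfl

/-- `D2 t = (δf t₀ + δh t₁ - 2 t₁, -δe t₀ + δh t₂ + 2 t₂, t₀ - δe t₁ - δf t₂)` -/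
def D2 : (Fin 3 → J → S) →ₗ[ℂ] (Fin 3 → J → S) :=
  LinearMap.pi ![df ρ ∘ₗ pr J 0 + dh ρ ∘ₗ pr J 1 - (2 : ℂ) • pr J 1,
    -(de ρ ∘ₗ pr J 0) + dh ρ ∘ₗ pr J 2 + (2 : ℂ) • pr J 2,
    pr J 0 - de ρ ∘ₗ pr J 1 - df ρ ∘ₗ pr J 2]

theorem D2_apply0 (t : Fin 3 → J → S) :
    D2 ρ t 0 = df ρ (t 0) + dh ρ (t 1) - (2 : ℂ) • t 1 := rfl
theorem D2_apply1 (t : Fin 3 → J → S) :
    D2 ρ t 1 = -(de ρ (t 0)) + dh ρ (t 2) + (2 : ℂ) • t 2 := rfl
theorem D2_apply2 (t : Fin 3 → J → S) :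
    D2 ρ t 2 = t 0 - de ρ (t 1) - df ρ (t 2) := rfl

/-- `D3 r = (δh r, -δf r, δe r)` -/
def D3 : (J → S) →ₗ[ℂ] (Fin 3 → J → S) := LinearMap.pi ![dh ρ, -df ρ, de ρ]

theorem D3_apply0 (r : J → S) : D3 ρ r 0 = dh ρ r := rfl
theorem D3_apply1 (r : J → S) : D3 ρ r 1 = -df ρ r := rfl
theorem D3_apply2 (r : J → S) : D3 ρ r 2 = de ρ r := rfl

theorem D1_D2 (t : Fin 3 → J → S) : D1 ρ (D2 ρ t) = 0 := by
  rw [D1_apply, D2_apply0, D2_apply1, D2_apply2]
  simp only [map_add, map_sub, map_neg, map_smul, d_he, d_hf, d_ef]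
  abel

theorem D2_D3 (r : J → S) : D2 ρ (D3 ρ r) = 0 := by
  funext i
  rw [Pi.zero_apply]
  fin_cases i
  · show D2 ρ (D3 ρ r) 0 = 0
    rw [D2_apply0, D3_apply0, D3_apply1, d_hf, map_neg, smul_neg]
    abel
  · show D2 ρ (D3 ρ r) 1 = 0
    rw [D2_apply1, D3_apply0, D3_apply2, d_he]
    abel
  · show D2 ρ (D3 ρ r) 2 = 0
    rw [D2_apply2, D3_apply0, D3_apply1, D3_apply2, d_ef, map_neg]
    abel

/-! ### filtered maps, `sl₂`-homomorphisms -/

namespace CEaux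

theorem mem1 {d : ℤ} {s : J → S} : s ∈ FSl2.F d ↔ ∀ j, s j ∈ SF d := mem_piF

theorem mem3 {d : ℤ} {x : Fin 3 → J → S} : x ∈ FSl2.F d ↔ ∀ i j, x i j ∈ SF d := by
  rw [mem_piF]
  exact forall_congr' fun i => mem_piF

theorem de_mem {d : ℤ} {s : J → S} (hs : ∀ j, s j ∈ SF d) (j : J) : de ρ s j ∈ SF (d + 1) :=
  twist_mem _ hs (fun j => Re_mem (hs j)) j

theorem df_mem {d : ℤ} {s : J → S} (hs : ∀ j, s j ∈ SF d) (j : J) : df ρ s j ∈ SF (d + 1) :=
  twist_mem _ hs (fun j => Rf_mem (hs j)) j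

theorem dh_mem {d : ℤ} {s : J → S} (hs : ∀ j, s j ∈ SF d) (j : J) : dh ρ s j ∈ SF (d + 1) :=
  twist_mem _ hs (fun j => Rh_mem (hs j)) j

theorem de_low {d : ℤ} {s : J → S} (hs : ∀ j, s j ∈ SF d) (j : J) :
    de ρ s j - X 2 * s j ∈ SF d :=
  twist_low _ 2 hs (fun j => by rw [Re_apply, sub_self]; exact Submodule.zero_mem _) j

theorem df_low {d : ℤ} {s : J → S} (hs : ∀ j, s j ∈ SF d) (j : J) :
    df ρ s j - X 0 * s j ∈ SF d :=
  twist_low _ 0 hs (fun j => Rf_low (hs j)) j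

theorem dh_low {d : ℤ} {s : J → S} (hs : ∀ j, s j ∈ SF d) (j : J) :
    dh ρ s j - X 1 * s j ∈ SF d :=
  twist_low _ 1 hs (fun j => Rh_low (hs j)) j

end CEaux

theorem D1_mem {d : ℤ} {x : Fin 3 → J → S} (hx : x ∈ FSl2.F d) : D1 ρ x ∈ FSl2.F (d + 1) := by
  rw [mem3] at hx
  rw [mem1]
  intro j
  rw [D1_apply]
  exact Submodule.add_mem _ (Submodule.add_mem _ (de_mem ρ (hx 0) j) (df_mem ρ (hx 1) j))
    (dh_mem ρ (hx 2) j)

theorem D2_mem {d : ℤ} {x : Fin 3 → J → S} (hx : x ∈ FSl2.F d) : D2 ρ x ∈ FSl2.F (d + 1) := by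
  rw [mem3] at hx
  have hx' : ∀ i j, x i j ∈ SF (d + 1) := fun i j => SF_mono (by omega) (hx i j)
  rw [mem3]
  intro i j
  fin_cases i
  · show D2 ρ x 0 j ∈ SF (d + 1)
    rw [D2_apply0]
    exact Submodule.sub_mem _ (Submodule.add_mem _ (df_mem ρ (hx 0) j) (dh_mem ρ (hx 1) j))
      (Submodule.smul_mem _ _ (hx' 1 j))
  · show D2 ρ x 1 j ∈ SF (d + 1)
    rw [D2_apply1]
    exact Submodule.add_mem _ (Submodule.add_mem _ (Submodule.neg_mem _ (de_mem ρ (hx 0) j))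
      (dh_mem ρ (hx 2) j)) (Submodule.smul_mem _ _ (hx' 2 j))
  · show D2 ρ x 2 j ∈ SF (d + 1)
    rw [D2_apply2]
    exact Submodule.sub_mem _ (Submodule.sub_mem _ (hx' 0 j) (de_mem ρ (hx 1) j))
      (df_mem ρ (hx 2) j)

theorem D3_mem {d : ℤ} {x : J → S} (hx : x ∈ FSl2.F d) : D3 ρ x ∈ FSl2.F (d + 1) := by
  rw [mem1] at hx
  rw [mem3]
  intro i j
  fin_cases i
  · exact dh_mem ρ hx j
  · exact Submodule.neg_mem _ (df_mem ρ hx j)
  · exact de_mem ρ hx j

namespace CEaux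

theorem D1_L {L : S →ₗ[ℂ] S} (he : ∀ s, L (Re s) = Re (L s)) (hf : ∀ s, L (Rf s) = Rf (L s))
    (hh : ∀ s, L (Rh s) = Rh (L s)) (x : Fin 3 → J → S) :
    D1 ρ (LinearMap.compLeft (LinearMap.compLeft L J) (Fin 3) x) =
      LinearMap.compLeft L J (D1 ρ x) := by
  rw [D1_apply, D1_apply, map_add, map_add]
  congr 1
  · congr 1
    · exact twist_L ρ.e he (x 0)
    · exact twist_L ρ.f hf (x 1)
  · exact twist_L ρ.h hh (x 2)

theorem D2_L {L : S →ₗ[ℂ] S} (he : ∀ s, L (Re s) = Re (L s)) (hf : ∀ s, L (Rf s) = Rf (L s))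
    (hh : ∀ s, L (Rh s) = Rh (L s)) (x : Fin 3 → J → S) :
    D2 ρ (LinearMap.compLeft (LinearMap.compLeft L J) (Fin 3) x) =
      LinearMap.compLeft (LinearMap.compLeft L J) (Fin 3) (D2 ρ x) := by
  funext i
  fin_cases i
  · show D2 ρ _ 0 = LinearMap.compLeft L J (D2 ρ x 0)
    rw [D2_apply0, D2_apply0, map_sub, map_add, map_smul]
    congr 1
    congr 1
    · exact twist_L ρ.f hf (x 0)
    · exact twist_L ρ.h hh (x 1)
  · show D2 ρ _ 1 = LinearMap.compLeft L J (D2 ρ x 1)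
    rw [D2_apply1, D2_apply1, map_add, map_add, map_neg, map_smul]
    congr 1
    congr 1
    · congr 1
      exact twist_L ρ.e he (x 0)
    · exact twist_L ρ.h hh (x 2)
  · show D2 ρ _ 2 = LinearMap.compLeft L J (D2 ρ x 2)
    rw [D2_apply2, D2_apply2, map_sub, map_sub]
    congr 1
    · congr 1
      exact twist_L ρ.e he (x 1)
    · exact twist_L ρ.f hf (x 2)

theorem D3_L {L : S →ₗ[ℂ] S} (he : ∀ s, L (Re s) = Re (L s)) (hf : ∀ s, L (Rf s) = Rf (L s))
    (hh : ∀ s, L (Rh s) = Rh (L s)) (x : J → S) :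
    D3 ρ (LinearMap.compLeft L J x) =
      LinearMap.compLeft (LinearMap.compLeft L J) (Fin 3) (D3 ρ x) := by
  funext i
  fin_cases i
  · exact twist_L ρ.h hh x
  · show D3 ρ _ 1 = LinearMap.compLeft L J (D3 ρ x 1)
    rw [D3_apply1, D3_apply1, map_neg]
    congr 1
    exact twist_L ρ.f hf x
  · exact twist_L ρ.e he x

end CEaux

/-- `D1` as homomorphism of representations (for the left operators) -/
def D1hom : SHom (Fin 3 → J → S) (J → S) where
  toLinearMap := D1 ρ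
  map_e := D1_L ρ Le_Re Le_Rf Le_Rh
  map_f := D1_L ρ Lf_Re Lf_Rf Lf_Rh
  map_h := D1_L ρ Lh_Re Lh_Rf Lh_Rh

/-- `D2` as homomorphism of representations -/
def D2hom : SHom (Fin 3 → J → S) (Fin 3 → J → S) where
  toLinearMap := D2 ρ
  map_e := D2_L ρ Le_Re Le_Rf Le_Rh
  map_f := D2_L ρ Lf_Re Lf_Rf Lf_Rh
  map_h := D2_L ρ Lh_Re Lh_Rf Lh_Rh

/-- `D3` as homomorphism of representations -/
def D3hom : SHom (J → S) (Fin 3 → J → S) where
  toLinearMap := D3 ρ
  map_e := D3_L ρ Le_Re Le_Rf Le_Rh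
  map_f := D3_L ρ Lf_Re Lf_Rf Lf_Rh
  map_h := D3_L ρ Lh_Re Lh_Rf Lh_Rh

/-! ### exactness -/

theorem exact3 {r : J → S} (h : D3 ρ r = 0) : r = 0 := by
  have hh : dh ρ r = 0 := congrFun h 0
  obtain ⟨n, hn⟩ := exists_bound r
  have key : ∀ n : ℕ, (∀ j, r j ∈ SF ((n : ℤ) - 1)) → r = 0 := by
    intro n
    induction n with
    | zero =>
      intro hr
      funext j
      exact SF_neg (by omega) (hr j)
    | succ n ih =>
      intro hr
      refine ih fun j => ?_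
      have hr' : ∀ j, r j ∈ SF (n : ℤ) := fun j => by
        have := hr j
        push_cast at this
        rwa [add_sub_cancel_right] at this
      refine koszul3 (hr' j) ?_
      have h1 := dh_low ρ hr' j
      rw [hh, Pi.zero_apply, zero_sub] at h1
      exact (Submodule.neg_mem_iff _).1 h1
  exact key (n + 1) (fun j => by push_cast; rw [add_sub_cancel_right]; exact hn j)

theorem exact2 {d : ℤ} {t : Fin 3 → J → S} (ht : t ∈ FSl2.F d) (h : D2 ρ t = 0) :
    ∃ r : J → S, r ∈ FSl2.F (d - 1) ∧ D3 ρ r = t := by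
  obtain ⟨n, hn⟩ : ∃ n : ℕ, d < n := ⟨(d + 1).toNat, by omega⟩
  induction n generalizing d t with
  | zero =>
    rw [mem3] at ht
    have ht0 : t = 0 := by
      funext i j
      exact SF_neg (by exact_mod_cast hn) (ht i j)
    exact ⟨0, Submodule.zero_mem _, by rw [ht0, map_zero]⟩
  | succ n ih =>
    have ht' := mem3.1 ht
    have h0 : ∀ j, df ρ (t 0) j + dh ρ (t 1) j - (2 : ℂ) • t 1 j = 0 := fun j =>
      congrFun (congrFun h 0) j
    have h1 : ∀ j, -(de ρ (t 0) j) + dh ρ (t 2) j + (2 : ℂ) • t 2 j = 0 := fun j =>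
      congrFun (congrFun h 1) j
    have h2 : ∀ j, t 0 j - de ρ (t 1) j - df ρ (t 2) j = 0 := fun j =>
      congrFun (congrFun h 2) j
    have key : ∀ j, ∃ r : S, r ∈ SF (d - 1) ∧ t 0 j - X 1 * r ∈ SF (d - 1) ∧
        t 1 j + X 0 * r ∈ SF (d - 1) ∧ t 2 j - X 2 * r ∈ SF (d - 1) := by
      intro j
      refine koszul2 (ht' 0 j) (ht' 1 j) (ht' 2 j) ?_ ?_ ?_
      · have e : X 0 * t 0 j + X 1 * t 1 j = (2 : ℂ) • t 1 j - (df ρ (t 0) j - X 0 * t 0 j) -
            (dh ρ (t 1) j - X 1 * t 1 j) +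
            (df ρ (t 0) j + dh ρ (t 1) j - (2 : ℂ) • t 1 j) := by abel
        rw [e, h0 j, add_zero]
        exact Submodule.sub_mem _ (Submodule.sub_mem _ (Submodule.smul_mem _ _ (ht' 1 j))
          (df_low ρ (ht' 0) j)) (dh_low ρ (ht' 1) j)
      · have e : -(X 2 * t 0 j) + X 1 * t 2 j = -((2 : ℂ) • t 2 j) +
            (de ρ (t 0) j - X 2 * t 0 j) - (dh ρ (t 2) j - X 1 * t 2 j) +
            (-(de ρ (t 0) j) + dh ρ (t 2) j + (2 : ℂ) • t 2 j) := by abel
        rw [e, h1 j, add_zero]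
        exact Submodule.sub_mem _ (Submodule.add_mem _ (Submodule.neg_mem _
          (Submodule.smul_mem _ _ (ht' 2 j))) (de_low ρ (ht' 0) j)) (dh_low ρ (ht' 2) j)
      · have e : -(X 2 * t 1 j) - X 0 * t 2 j = -(t 0 j) + (de ρ (t 1) j - X 2 * t 1 j) +
            (df ρ (t 2) j - X 0 * t 2 j) + (t 0 j - de ρ (t 1) j - df ρ (t 2) j) := by abel
        rw [e, h2 j, add_zero]
        exact Submodule.add_mem _ (Submodule.add_mem _ (Submodule.neg_mem _ (ht' 0 j))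
          (de_low ρ (ht' 1) j)) (df_low ρ (ht' 2) j)
    choose r hr0 hr1 hr2 hr3 using key
    have hsub : t - D3 ρ r ∈ FSl2.F (d - 1) := by
      rw [mem3]
      intro i j
      fin_cases i
      · show t 0 j - dh ρ r j ∈ SF (d - 1)
        have e : t 0 j - dh ρ r j = (t 0 j - X 1 * r j) - (dh ρ r j - X 1 * r j) := by abel
        rw [e]
        exact Submodule.sub_mem _ (hr1 j) (dh_low ρ hr0 j)
      · show t 1 j - -(df ρ r j) ∈ SF (d - 1)
        have e : t 1 j - -(df ρ r j) = (t 1 j + X 0 * r j) + (df ρ r j - X 0 * r j) := by abel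
        rw [e]
        exact Submodule.add_mem _ (hr2 j) (df_low ρ hr0 j)
      · show t 2 j - de ρ r j ∈ SF (d - 1)
        have e : t 2 j - de ρ r j = (t 2 j - X 2 * r j) - (de ρ r j - X 2 * r j) := by abel
        rw [e]
        exact Submodule.sub_mem _ (hr3 j) (de_low ρ hr0 j)
    obtain ⟨r', hr', hr'2⟩ := ih hsub (by rw [map_sub, h, D2_D3, sub_zero])
      (by push_cast at hn; omega)
    refine ⟨r + r', ?_, ?_⟩
    · rw [mem1] at hr' ⊢
      intro j
      exact Submodule.add_mem _ (hr0 j) (SF_mono (by omega) (hr' j))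
    · rw [map_add, hr'2]; abel

theorem exact1 {d : ℤ} {x : Fin 3 → J → S} (hx : x ∈ FSl2.F d) (h : D1 ρ x = 0) :
    ∃ t : Fin 3 → J → S, t ∈ FSl2.F (d - 1) ∧ D2 ρ t = x := by
  obtain ⟨n, hn⟩ : ∃ n : ℕ, d < n := ⟨(d + 1).toNat, by omega⟩
  induction n generalizing d x with
  | zero =>
    rw [mem3] at hx
    have ht0 : x = 0 := by
      funext i j
      exact SF_neg (by exact_mod_cast hn) (hx i j)
    exact ⟨0, Submodule.zero_mem _, by rw [ht0, map_zero]⟩
  | succ n ih =>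
    have hx' := mem3.1 hx
    have h0 : ∀ j, de ρ (x 0) j + df ρ (x 1) j + dh ρ (x 2) j = 0 := fun j => congrFun h j
    have key : ∀ j, ∃ t1 t2 t3 : S, t1 ∈ SF (d - 1) ∧ t2 ∈ SF (d - 1) ∧ t3 ∈ SF (d - 1) ∧
        x 0 j - (X 0 * t1 + X 1 * t2) ∈ SF (d - 1) ∧
        x 1 j - (-(X 2 * t1) + X 1 * t3) ∈ SF (d - 1) ∧
        x 2 j - (-(X 2 * t2) - X 0 * t3) ∈ SF (d - 1) := by
      intro j
      refine koszul1 (hx' 0 j) (hx' 1 j) (hx' 2 j) ?_
      have e : X 2 * x 0 j + X 0 * x 1 j + X 1 * x 2 j = -(de ρ (x 0) j - X 2 * x 0 j) -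
          (df ρ (x 1) j - X 0 * x 1 j) - (dh ρ (x 2) j - X 1 * x 2 j) +
          (de ρ (x 0) j + df ρ (x 1) j + dh ρ (x 2) j) := by abel
      rw [e, h0 j, add_zero]
      exact Submodule.sub_mem _ (Submodule.sub_mem _ (Submodule.neg_mem _ (de_low ρ (hx' 0) j))
        (df_low ρ (hx' 1) j)) (dh_low ρ (hx' 2) j)
    choose t1 t2 t3 ht1 ht2 ht3 hr1 hr2 hr3 using key
    have htm : (![t1, t2, t3] : Fin 3 → J → S) ∈ FSl2.F (d - 1) := by
      rw [mem3]
      intro i j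
      fin_cases i
      · exact ht1 j
      · exact ht2 j
      · exact ht3 j
    have hsub : x - D2 ρ ![t1, t2, t3] ∈ FSl2.F (d - 1) := by
      rw [mem3]
      intro i j
      fin_cases i
      · show x 0 j - (df ρ t1 j + dh ρ t2 j - (2 : ℂ) • t2 j) ∈ SF (d - 1)
        have e : x 0 j - (df ρ t1 j + dh ρ t2 j - (2 : ℂ) • t2 j) =
            (x 0 j - (X 0 * t1 j + X 1 * t2 j)) - (df ρ t1 j - X 0 * t1 j) -
              (dh ρ t2 j - X 1 * t2 j) + (2 : ℂ) • t2 j := by abel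
        rw [e]
        exact Submodule.add_mem _ (Submodule.sub_mem _ (Submodule.sub_mem _ (hr1 j)
          (df_low ρ ht1 j)) (dh_low ρ ht2 j)) (Submodule.smul_mem _ _ (ht2 j))
      · show x 1 j - (-(de ρ t1 j) + dh ρ t3 j + (2 : ℂ) • t3 j) ∈ SF (d - 1)
        have e : x 1 j - (-(de ρ t1 j) + dh ρ t3 j + (2 : ℂ) • t3 j) =
            (x 1 j - (-(X 2 * t1 j) + X 1 * t3 j)) + (de ρ t1 j - X 2 * t1 j) -
              (dh ρ t3 j - X 1 * t3 j) - (2 : ℂ) • t3 j := by abel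
        rw [e]
        exact Submodule.sub_mem _ (Submodule.sub_mem _ (Submodule.add_mem _ (hr2 j)
          (de_low ρ ht1 j)) (dh_low ρ ht3 j)) (Submodule.smul_mem _ _ (ht3 j))
      · show x 2 j - (t1 j - de ρ t2 j - df ρ t3 j) ∈ SF (d - 1)
        have e : x 2 j - (t1 j - de ρ t2 j - df ρ t3 j) =
            (x 2 j - (-(X 2 * t2 j) - X 0 * t3 j)) + (de ρ t2 j - X 2 * t2 j) +
              (df ρ t3 j - X 0 * t3 j) - t1 j := by abel
        rw [e]
        exact Submodule.sub_mem _ (Submodule.add_mem _ (Submodule.add_mem _ (hr3 j)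
          (de_low ρ ht2 j)) (df_low ρ ht3 j)) (ht1 j)
    obtain ⟨t', ht', ht'2⟩ := ih hsub (by rw [map_sub, h, D1_D2, sub_zero])
      (by push_cast at hn; omega)
    refine ⟨![t1, t2, t3] + t', ?_, ?_⟩
    · rw [mem3] at ht' htm ⊢
      intro i j
      exact Submodule.add_mem _ (htm i j) (SF_mono (by omega) (ht' i j))
    · rw [map_add, ht'2]; abel

theorem exact0 {d : ℤ} {s : J → S} (hs : s ∈ FSl2.F d) :
    ∃ (x : Fin 3 → J → S) (c : J → ℂ), x ∈ FSl2.F (d - 1) ∧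
      s = D1 ρ x + fun j => (C (c j) : S) := by
  obtain ⟨n, hn⟩ : ∃ n : ℕ, d < n := ⟨(d + 1).toNat, by omega⟩
  induction n generalizing d s with
  | zero =>
    rw [mem1] at hs
    refine ⟨0, 0, Submodule.zero_mem _, ?_⟩
    rw [map_zero, zero_add]
    funext j
    rw [Pi.zero_apply, map_zero]
    exact SF_neg (by exact_mod_cast hn) (hs j)
  | succ n ih =>
    have hs' := mem1.1 hs
    choose a b c z ha hb hc hz using fun j => koszul0 (hs' j)
    have hxm : (![a, b, c] : Fin 3 → J → S) ∈ FSl2.F (d - 1) := by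
      rw [mem3]
      intro i j
      fin_cases i
      · exact ha j
      · exact hb j
      · exact hc j
    have hsub : s - D1 ρ ![a, b, c] - (fun j => (C (z j) : S)) ∈ FSl2.F (d - 1) := by
      rw [mem1]
      intro j
      show s j - (de ρ a j + df ρ b j + dh ρ c j) - C (z j) ∈ SF (d - 1)
      have e : s j - (de ρ a j + df ρ b j + dh ρ c j) - C (z j) =
          -(de ρ a j - X 2 * a j) - (df ρ b j - X 0 * b j) - (dh ρ c j - X 1 * c j) := by
        rw [hz j]; abel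
      rw [e]
      exact Submodule.sub_mem _ (Submodule.sub_mem _ (Submodule.neg_mem _ (de_low ρ ha j))
        (df_low ρ hb j)) (dh_low ρ hc j)
    obtain ⟨x', c', hx', hx'2⟩ := ih hsub (by push_cast at hn; omega)
    refine ⟨![a, b, c] + x', fun j => z j + c' j, ?_, ?_⟩
    · rw [mem3] at hx' hxm ⊢
      intro i j
      exact Submodule.add_mem _ (hxm i j) (SF_mono (by omega) (hx' i j))
    · funext j
      have e := congrFun hx'2 j
      rw [Pi.add_apply, Pi.sub_apply, Pi.sub_apply] at e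
      rw [Pi.add_apply, map_add, Pi.add_apply, C_add]
      rw [sub_sub, sub_eq_iff_eq_add] at e
      rw [e]
      abel

end

end Crest.Agent.R178U
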