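import Mathlib

/-!
# Row 178 (S0268): counterexample to the finitistic dimension conjecture — definitions

`S = ℂ[f,h,e]` is the PBW model of `U(sl₂)` (basis `f^a h^b e^c`), with left operators
`Lf, Lh, Le` and right operators `Rf, Rh, Re` (left and right multiplication by the generators).

`E` is the algebra on `t,e,f,h,v,w` with the 20 relations below:
`E = U(gl₂) ⋉ (weight -1 part of the Weyl algebra A₂)`, `v = ∂_x`, `w = ∂_y`.

For an `sl₂`-representation `Y` the vector space `NN Y = (ℕ →₀ Y) × (Y × Y)` is the induced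
`E`-module `E ⊗_{U(sl₂)} Y = Y[t] ⊕ v⊗Y ⊕ w⊗Y`.
-/

set_option autoImplicit false

namespace Crest.Agent.R178U

noncomputable section

/-! ## sl₂-representations -/

/-- An `sl₂`-representation. -/
class Sl2 (Y : Type) [AddCommGroup Y] [Module ℂ Y] where
  e : Y →ₗ[ℂ] Y
  f : Y →ₗ[ℂ] Y
  h : Y →ₗ[ℂ] Y
  he : ∀ y, h (e y) = e (h y) + (2 : ℂ) • e y
  hf : ∀ y, h (f y) = f (h y) - (2 : ℂ) • f y
  ef : ∀ y, e (f y) = f (e y) + h y

/-- A filtered `sl₂`-representation. -/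
class FSl2 (Y : Type) [AddCommGroup Y] [Module ℂ Y] [Sl2 Y] where
  F : ℤ → Submodule ℂ Y
  mono : ∀ d, F d ≤ F (d + 1)
  e_mem : ∀ d y, y ∈ F d → Sl2.e y ∈ F (d + 1)
  f_mem : ∀ d y, y ∈ F d → Sl2.f y ∈ F (d + 1)
  h_mem : ∀ d y, y ∈ F d → Sl2.h y ∈ F (d + 1)

/-- homomorphisms of `sl₂`-representations -/
structure SHom (Y Z : Type) [AddCommGroup Y] [Module ℂ Y] [Sl2 Y]
    [AddCommGroup Z] [Module ℂ Z] [Sl2 Z] extends Y →ₗ[ℂ] Z where
  map_e : ∀ y, toLinearMap (Sl2.e y) = Sl2.e (toLinearMap y)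
  map_f : ∀ y, toLinearMap (Sl2.f y) = Sl2.f (toLinearMap y)
  map_h : ∀ y, toLinearMap (Sl2.h y) = Sl2.h (toLinearMap y)

/-! ## The algebra E -/

/-- generators of `E` -/
inductive EGen
  | t | e | f | h | v | w

open FreeAlgebra in
/-- the 20 relations of `E` -/
inductive ERel : FreeAlgebra ℂ EGen → FreeAlgebra ℂ EGen → Prop
  | he : ERel (ι ℂ .h * ι ℂ .e) (ι ℂ .e * ι ℂ .h + (2 : ℂ) • ι ℂ .e)
  | hf : ERel (ι ℂ .h * ι ℂ .f) (ι ℂ .f * ι ℂ .h - (2 : ℂ) • ι ℂ .f)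
  | ef : ERel (ι ℂ .e * ι ℂ .f) (ι ℂ .f * ι ℂ .e + ι ℂ .h)
  | te : ERel (ι ℂ .t * ι ℂ .e) (ι ℂ .e * ι ℂ .t)
  | tf : ERel (ι ℂ .t * ι ℂ .f) (ι ℂ .f * ι ℂ .t)
  | th : ERel (ι ℂ .t * ι ℂ .h) (ι ℂ .h * ι ℂ .t)
  | tv : ERel (ι ℂ .t * ι ℂ .v) (ι ℂ .v * ι ℂ .t - ι ℂ .v)
  | tw : ERel (ι ℂ .t * ι ℂ .w) (ι ℂ .w * ι ℂ .t - ι ℂ .w)
  | ev : ERel (ι ℂ .e * ι ℂ .v) (ι ℂ .v * ι ℂ .e - ι ℂ .w)
  | ew : ERel (ι ℂ .e * ι ℂ .w) (ι ℂ .w * ι ℂ .e)
  | fv : ERel (ι ℂ .f * ι ℂ .v) (ι ℂ .v * ι ℂ .f)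
  | fw : ERel (ι ℂ .f * ι ℂ .w) (ι ℂ .w * ι ℂ .f - ι ℂ .v)
  | hv : ERel (ι ℂ .h * ι ℂ .v) (ι ℂ .v * ι ℂ .h - ι ℂ .v)
  | hw : ERel (ι ℂ .h * ι ℂ .w) (ι ℂ .w * ι ℂ .h + ι ℂ .w)
  | vt : ERel (ι ℂ .v * ι ℂ .t)
      (ι ℂ .v * ι ℂ .h - (2 : ℂ) • ι ℂ .v + (2 : ℂ) • (ι ℂ .w * ι ℂ .f))
  | wt : ERel (ι ℂ .w * ι ℂ .t)
      ((2 : ℂ) • (ι ℂ .v * ι ℂ .e) - ι ℂ .w * ι ℂ .h - (2 : ℂ) • ι ℂ .w)
  | vv : ERel (ι ℂ .v * ι ℂ .v) 0
  | vw : ERel (ι ℂ .v * ι ℂ .w) 0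
  | wv : ERel (ι ℂ .w * ι ℂ .v) 0
  | ww : ERel (ι ℂ .w * ι ℂ .w) 0

/-- The algebra `E`. -/
def E : Type := RingQuot ERel

instance : Ring E := inferInstanceAs (Ring (RingQuot ERel))
instance : Algebra ℂ E := inferInstanceAs (Algebra ℂ (RingQuot ERel))

/-- The data of six elements of a `ℂ`-algebra satisfying the 20 relations of `E`. -/
structure ETuple (B : Type) [Ring B] [Algebra ℂ B] where
  t : B
  e : B
  f : B
  h : B
  v : B
  w : B
  he : h * e = e * h + (2 : ℂ) • e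
  hf : h * f = f * h - (2 : ℂ) • f
  ef : e * f = f * e + h
  te : t * e = e * t
  tf : t * f = f * t
  th : t * h = h * t
  tv : t * v = v * t - v
  tw : t * w = w * t - w
  ev : e * v = v * e - w
  ew : e * w = w * e
  fv : f * v = v * f
  fw : f * w = w * f - v
  hv : h * v = v * h - v
  hw : h * w = w * h + w
  vt : v * t = v * h - (2 : ℂ) • v + (2 : ℂ) • (w * f)
  wt : w * t = (2 : ℂ) • (v * e) - w * h - (2 : ℂ) • w
  vv : v * v = 0
  vw : v * w = 0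
  wv : w * v = 0
  ww : w * w = 0

/-- the assignment of generators -/
def ETuple.assign {B : Type} [Ring B] [Algebra ℂ B] (T : ETuple B) : EGen → B
  | .t => T.t
  | .e => T.e
  | .f => T.f
  | .h => T.h
  | .v => T.v
  | .w => T.w

/-- the algebra homomorphism `E → B` given by six elements satisfying the relations -/
def ETuple.lift {B : Type} [Ring B] [Algebra ℂ B] (T : ETuple B) : E →ₐ[ℂ] B :=
  RingQuot.liftAlgHom ℂ (s := ERel) ⟨FreeAlgebra.lift ℂ T.assign, by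
    intro x y hxy
    induction hxy <;>
      simp [ETuple.assign, T.he, T.hf, T.ef, T.te, T.tf, T.th, T.tv, T.tw, T.ev, T.ew, T.fv, T.fw,
        T.hv, T.hw, T.vt, T.wt, T.vv, T.vw, T.wv, T.ww]⟩

/-- the image in `E` of a generator -/
def gen (g : EGen) : E := RingQuot.mkAlgHom ℂ ERel (FreeAlgebra.ι ℂ g)

theorem gen_rel {x y : FreeAlgebra ℂ EGen} (hxy : ERel x y) :
    RingQuot.mkAlgHom ℂ ERel x = RingQuot.mkAlgHom ℂ ERel y :=
  RingQuot.mkAlgHom_rel ℂ hxy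

/-- the universal tuple -/
def univ : ETuple E where
  t := gen .t
  e := gen .e
  f := gen .f
  h := gen .h
  v := gen .v
  w := gen .w
  he := by simpa [gen] using! gen_rel ERel.he
  hf := by simpa [gen] using! gen_rel ERel.hf
  ef := by simpa [gen] using! gen_rel ERel.ef
  te := by simpa [gen] using! gen_rel ERel.te
  tf := by simpa [gen] using! gen_rel ERel.tf
  th := by simpa [gen] using! gen_rel ERel.th
  tv := by simpa [gen] using! gen_rel ERel.tv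
  tw := by simpa [gen] using! gen_rel ERel.tw
  ev := by simpa [gen] using! gen_rel ERel.ev
  ew := by simpa [gen] using! gen_rel ERel.ew
  fv := by simpa [gen] using! gen_rel ERel.fv
  fw := by simpa [gen] using! gen_rel ERel.fw
  hv := by simpa [gen] using! gen_rel ERel.hv
  hw := by simpa [gen] using! gen_rel ERel.hw
  vt := by simpa [gen] using! gen_rel ERel.vt
  wt := by simpa [gen] using! gen_rel ERel.wt
  vv := by simpa [gen] using! gen_rel ERel.vv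
  vw := by simpa [gen] using! gen_rel ERel.vw
  wv := by simpa [gen] using! gen_rel ERel.wv
  ww := by simpa [gen] using! gen_rel ERel.ww

@[simp] theorem lift_gen {B : Type} [Ring B] [Algebra ℂ B] (T : ETuple B) (g : EGen) :
    T.lift (gen g) = T.assign g := by
  simp only [ETuple.lift, gen]
  erw [RingQuot.liftAlgHom_mkAlgHom_apply]
  simp

/-- two algebra homomorphisms from `E` agreeing on generators are equal -/
theorem E_hom_ext {B : Type} [Ring B] [Algebra ℂ B] {φ ψ : E →ₐ[ℂ] B}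
    (H : ∀ g, φ (gen g) = ψ (gen g)) : φ = ψ := by
  refine RingQuot.ringQuot_ext' ℂ (s := ERel) φ ψ ?_
  apply FreeAlgebra.hom_ext
  funext g
  exact H g

/-- induction principle for `E` -/
theorem E_induction {p : E → Prop} (hc : ∀ c : ℂ, p (algebraMap ℂ E c)) (hg : ∀ g, p (gen g))
    (hadd : ∀ a b, p a → p b → p (a + b)) (hmul : ∀ a b, p a → p b → p (a * b)) (a : E) : p a := by
  obtain ⟨x, rfl⟩ := RingQuot.mkAlgHom_surjective ℂ ERel a
  induction x using FreeAlgebra.induction with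
  | grade0 r =>
    have h1 : RingQuot.mkAlgHom ℂ ERel (algebraMap ℂ (FreeAlgebra ℂ EGen) r) =
        algebraMap ℂ E r := AlgHom.commutes _ r
    rw [h1]; exact hc r
  | grade1 g => exact hg g
  | mul a b ha hb => rw [map_mul]; exact hmul _ _ ha hb
  | add a b ha hb => rw [map_add]; exact hadd _ _ ha hb

end

end Crest.Agent.R178U
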