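import Crest.Agent.R178U.EV

/-!
# The filtration `EF` of `E`

PIECE EF.

* `EF_smul_mem`: write `a = theta (ev a)`, `ev a = (∑ s_j t^j, (z₁, z₂))` with `s_j ∈ SF (d - j)`,
  `z_i ∈ SF (d+1)`; `NN Y` is a filtered `sl₂`-representation with
  filtration `NF` (instance in `NFilt.lean`), `PBW ETriple s • x = PBW (repTriple (NN Y)) s x`
  (`PBW_map` for `NNhom Y`), so `PBW_rep_mem` applies; `t` raises the filtration by one,
  `v, w` lower it by one.
* `EF_finite`: `ev` is injective (`theta_ev`) and `NF (Y := S) d` is finite-dimensional: it embeds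
  into `(Fin (d+1) → SF d) × SF (d+1) × SF (d+1)` (components of `p` vanish for `j > d`).
-/

set_option autoImplicit false

namespace Crest.Agent.R178U

open MvPolynomial

noncomputable section

/-! ### the filtration of `E` -/

/-- filtration of `E` -/
def EF (d : ℤ) : Submodule ℂ E := (NF (Y := S) d).comap ev

theorem mem_EF {d : ℤ} {a : E} : a ∈ EF d ↔ ev a ∈ NF (Y := S) d := Iff.rfl

theorem theta_mem_EF {d : ℤ} {x : NN S} (hx : x ∈ NF d) : theta x ∈ EF d := by
  rw [mem_EF, ev_theta]; exact hx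

theorem theta_apply (x : NN S) :
    theta x = (NN.pol x).sum (fun j s => PBW ETriple s * gen .t ^ j)
      + gen .v * PBW ETriple (NN.vec x).1 + gen .w * PBW ETriple (NN.vec x).2 := by
  simp only [theta, LinearMap.add_apply, LinearMap.comp_apply, Finsupp.lsum_apply,
    LinearMap.mulLeft_apply, LinearMap.fst_apply, LinearMap.snd_apply]
  rfl

theorem PBW_smul_NF {Y : Type} [AddCommGroup Y] [Module ℂ Y] [Sl2 Y] [FSl2 Y] {c k : ℤ} {s : S}
    (hs : s ∈ SF c) {x : NN Y} (hx : x ∈ NF k) : PBW ETriple s • x ∈ NF (Y := Y) (c + k) := by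
  have h1 : PBW ETriple s • x = PBW (repTriple (NN Y)) s x := by
    rw [NN_smul_def, PBW_map]; rfl
  rw [h1]
  exact PBW_rep_mem (Y := NN Y) hs hx

theorem tpow_smul_NF {Y : Type} [AddCommGroup Y] [Module ℂ Y] [Sl2 Y] [FSl2 Y] {k : ℤ} (j : ℕ)
    {x : NN Y} (hx : x ∈ NF k) : gen .t ^ j • x ∈ NF (Y := Y) (k + j) := by
  induction j with
  | zero => simpa using hx
  | succ j ih =>
    rw [pow_succ', mul_smul]
    have := gen_t_NF ih
    have e : k + ((j + 1 : ℕ) : ℤ) = k + j + 1 := by push_cast; ring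
    rw [e]; exact this

theorem EF_smul_mem {Y : Type} [AddCommGroup Y] [Module ℂ Y] [Sl2 Y] [FSl2 Y] {d k : ℤ} {a : E}
    (ha : a ∈ EF d) {x : NN Y} (hx : x ∈ NF k) : a • x ∈ NF (Y := Y) (d + k) := by
  rw [mem_EF, mem_NF] at ha
  obtain ⟨h1, h2, h3⟩ := ha
  rw [← theta_ev a, theta_apply, add_smul, add_smul, Finsupp.sum, Finset.sum_smul]
  refine Submodule.add_mem _ (Submodule.add_mem _ (Submodule.sum_mem _ fun j _ => ?_) ?_) ?_
  · rw [mul_smul]
    have := PBW_smul_NF (Y := Y) (h1 j) (tpow_smul_NF j hx)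
    have e : d - (j : ℤ) + (k + (j : ℤ)) = d + k := by ring
    rwa [e] at this
  · rw [mul_smul]
    have := gen_v_NF (PBW_smul_NF (Y := Y) h2 hx)
    have e : d + 1 + k - 1 = d + k := by ring
    rwa [e] at this
  · rw [mul_smul]
    have := gen_w_NF (PBW_smul_NF (Y := Y) h3 hx)
    have e : d + 1 + k - 1 = d + k := by ring
    rwa [e] at this

theorem EF_mul_mem {d k : ℤ} {a b : E} (ha : a ∈ EF d) (hb : b ∈ EF k) : a * b ∈ EF (d + k) := by
  rw [mem_EF, ev_mul]; exact EF_smul_mem ha hb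

theorem one_mem_EF : (1 : E) ∈ EF 0 := by
  rw [mem_EF, ev_apply, one_smul, one0, mem_NF]
  refine ⟨fun j => ?_, ?_, ?_⟩
  · rw [NN.pol_mk, S_F]
    by_cases hj : j = 0
    · subst hj
      rw [Finsupp.single_eq_same]
      have := C_mem_SF (d := 0 - ((0 : ℕ) : ℤ)) (by simp) 1
      simpa using this
    · rw [Finsupp.single_eq_of_ne (by simpa using hj)]
      exact Submodule.zero_mem _
  · exact Submodule.zero_mem _
  · exact Submodule.zero_mem _

theorem EF_pol_zero {d : ℤ} {a : E} (ha : a ∈ EF d) {j : ℕ} (hj : d < j) :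
    NN.pol (ev a) j = 0 := by
  rw [mem_EF, mem_NF] at ha
  exact SF_neg (d := d - j) (by lia) (ha.1 j)

theorem EF_neg {d : ℤ} (hd : d < -1) {a : E} (ha : a ∈ EF d) : a = 0 := by
  have h0 : ev a = 0 := by
    apply NN.ext
    · rw [map_zero]
      ext1 j
      rw [EF_pol_zero ha (j := j) (by lia)]; rfl
    · rw [map_zero]
      rw [mem_EF, mem_NF] at ha
      exact Prod.ext (SF_neg (d := d + 1) (by lia) ha.2.1) (SF_neg (d := d + 1) (by lia) ha.2.2)
  rw [← theta_ev a, h0, map_zero]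

/-- the linear map used for finite-dimensionality -/
def EFmap (d : ℤ) : EF d →ₗ[ℂ] (Fin (d.toNat + 1) → SF d) × (SF (d + 1) × SF (d + 1)) :=
  LinearMap.prod
    (LinearMap.pi fun j => LinearMap.codRestrict (SF d)
      (Finsupp.lapply (j : ℕ) ∘ₗ NN.pol ∘ₗ ev ∘ₗ (EF d).subtype)
      (fun a => SF_mono (by lia) ((mem_NF.1 (mem_EF.1 a.2)).1 (j : ℕ))))
    (LinearMap.prod
      (LinearMap.codRestrict (SF (d + 1)) (LinearMap.fst ℂ S S ∘ₗ NN.vec ∘ₗ ev ∘ₗ (EF d).subtype)
        (fun a => (mem_NF.1 (mem_EF.1 a.2)).2.1))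
      (LinearMap.codRestrict (SF (d + 1)) (LinearMap.snd ℂ S S ∘ₗ NN.vec ∘ₗ ev ∘ₗ (EF d).subtype)
        (fun a => (mem_NF.1 (mem_EF.1 a.2)).2.2)))

theorem EF_finite (d : ℤ) : FiniteDimensional ℂ (EF d) := by
  have := SF_finite d
  have := SF_finite (d + 1)
  refine Module.Finite.of_injective (EFmap d) ?_
  rw [injective_iff_map_eq_zero]
  intro a ha
  have h1 := congrArg Prod.fst ha
  have h2 := congrArg Prod.snd ha
  have h0 : ev (a : E) = 0 := by
    apply NN.ext
    · rw [map_zero]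
      ext1 j
      by_cases hj : j < d.toNat + 1
      · have := congrFun h1 ⟨j, hj⟩
        exact congrArg Subtype.val this
      · rw [EF_pol_zero a.2 (j := j) (by lia)]; rfl
    · rw [map_zero]
      exact Prod.ext (congrArg Subtype.val (congrArg Prod.fst h2))
        (congrArg Subtype.val (congrArg Prod.snd h2))
  apply Subtype.ext
  rw [← theta_ev (a : E), h0, map_zero]; rfl

/-- an element of `EF d`, `d < 0`, is of the form `v * PBW z₁ + w * PBW z₂` -/
theorem EF_neg_form {d : ℤ} (hd : d < 0) {a : E} (ha : a ∈ EF d) :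
    ∃ z₁ z₂ : S, a = gen .v * PBW ETriple z₁ + gen .w * PBW ETriple z₂ := by
  refine ⟨(NN.vec (ev a)).1, (NN.vec (ev a)).2, ?_⟩
  rw [← theta_vec]
  have h0 : ev a = NN.mk 0 (NN.vec (ev a)) := by
    apply NN.ext
    · rw [NN.pol_mk]
      ext1 j
      rw [EF_pol_zero ha (j := j) (by lia)]; rfl
    · rw [NN.vec_mk]
  conv_lhs => rw [← theta_ev a, h0]

end

end Crest.Agent.R178U
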