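import Crest.Agent.R178U.Defs

/-!
# The PBW model `S = ℂ[f,h,e]` of `U(sl₂)` (basis `f^a h^b e^c`)
with left multiplication operators `Lf, Lh, Le` and right multiplication operators `Rf, Rh, Re`.
-/

set_option autoImplicit false

namespace Crest.Agent.R178U

open MvPolynomial

noncomputable section

/-- `S = ℂ[f,h,e]`, `X 0 = f`, `X 1 = h`, `X 2 = e`. -/
abbrev S : Type := MvPolynomial (Fin 3) ℂ

/-- the automorphism `h ↦ h - 2` -/
def tau : S →ₐ[ℂ] S := aeval ![X 0, X 1 - C 2, X 2]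

@[simp] theorem tau_X0 : tau (X 0) = X 0 := by simp [tau]
@[simp] theorem tau_X1 : tau (X 1) = X 1 - C 2 := by simp [tau]
@[simp] theorem tau_X2 : tau (X 2) = X 2 := by simp [tau]

theorem pderiv0_tau (s : S) : pderiv 0 (tau s) = tau (pderiv 0 s) := by
  induction s using MvPolynomial.induction_on with
  | C a => simp [tau]
  | add p q hp hq => simp [hp, hq]
  | mul_X p i hp =>
    fin_cases i <;> simp [Derivation.leibniz, hp, pderiv_X]

theorem pderiv2_tau (s : S) : pderiv 2 (tau s) = tau (pderiv 2 s) := by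
  induction s using MvPolynomial.induction_on with
  | C a => simp [tau]
  | add p q hp hq => simp [hp, hq]
  | mul_X p i hp =>
    fin_cases i <;> simp [Derivation.leibniz, hp, pderiv_X]

theorem pderiv_comm02 (s : S) : pderiv 0 (pderiv 2 s) = pderiv 2 (pderiv 0 s) := by
  induction s using MvPolynomial.induction_on with
  | C a => simp
  | add p q hp hq => simp [hp, hq]
  | mul_X p i hp =>
    fin_cases i <;> simp [Derivation.leibniz, hp, pderiv_X, add_comm]

/-- multiplication by a polynomial -/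
abbrev mulS (a : S) : S →ₗ[ℂ] S := LinearMap.mulLeft ℂ a

/-- partial derivative as a linear map -/
abbrev dS (i : Fin 3) : S →ₗ[ℂ] S := (pderiv i : Derivation ℂ S S).toLinearMap

/-- left multiplication by `f` -/
def Lf : S →ₗ[ℂ] S := mulS (X 0)
/-- left multiplication by `h` -/
def Lh : S →ₗ[ℂ] S := mulS (X 1) - (2 : ℂ) • (mulS (X 0) ∘ₗ dS 0)
/-- left multiplication by `e` -/
def Le : S →ₗ[ℂ] S :=
  mulS (X 2) ∘ₗ tau.toLinearMap + mulS (X 1) ∘ₗ dS 0 - mulS (X 0) ∘ₗ dS 0 ∘ₗ dS 0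
/-- right multiplication by `e` -/
def Re : S →ₗ[ℂ] S := mulS (X 2)
/-- right multiplication by `h` -/
def Rh : S →ₗ[ℂ] S := mulS (X 1) - (2 : ℂ) • (mulS (X 2) ∘ₗ dS 2)
/-- right multiplication by `f` -/
def Rf : S →ₗ[ℂ] S :=
  mulS (X 0) ∘ₗ tau.toLinearMap + mulS (X 1) ∘ₗ dS 2 - mulS (X 2) ∘ₗ dS 2 ∘ₗ dS 2

theorem Lf_apply (s : S) : Lf s = X 0 * s := rfl
theorem two_smul' (s : S) : (2 : ℂ) • s = 2 * s := by
  rw [MvPolynomial.smul_eq_C_mul]; rfl
theorem Lh_apply (s : S) : Lh s = X 1 * s - 2 * (X 0 * pderiv 0 s) := by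
  rw [← two_smul']; rfl
theorem Le_apply (s : S) :
    Le s = X 2 * tau s + X 1 * pderiv 0 s - X 0 * pderiv 0 (pderiv 0 s) := rfl
theorem Re_apply (s : S) : Re s = X 2 * s := rfl
theorem Rh_apply (s : S) : Rh s = X 1 * s - 2 * (X 2 * pderiv 2 s) := by
  rw [← two_smul']; rfl
theorem Rf_apply (s : S) :
    Rf s = X 0 * tau s + X 1 * pderiv 2 s - X 2 * pderiv 2 (pderiv 2 s) := rfl

theorem d0_X0 (s : S) : pderiv 0 (X 0 * s) = s + X 0 * pderiv 0 s := by
  simp [Derivation.leibniz, pderiv_X]; ring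
theorem d0_X1 (s : S) : pderiv 0 (X 1 * s) = X 1 * pderiv 0 s := by
  simp [Derivation.leibniz, pderiv_X]
theorem d0_X2 (s : S) : pderiv 0 (X 2 * s) = X 2 * pderiv 0 s := by
  simp [Derivation.leibniz, pderiv_X]
theorem d2_X0 (s : S) : pderiv 2 (X 0 * s) = X 0 * pderiv 2 s := by
  simp [Derivation.leibniz, pderiv_X]
theorem d2_X1 (s : S) : pderiv 2 (X 1 * s) = X 1 * pderiv 2 s := by
  simp [Derivation.leibniz, pderiv_X]
theorem d2_X2 (s : S) : pderiv 2 (X 2 * s) = s + X 2 * pderiv 2 s := by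
  simp [Derivation.leibniz, pderiv_X]; ring
theorem d0_two (s : S) : pderiv 0 (2 * s) = 2 * pderiv 0 s := by
  rw [← two_smul', ← two_smul', Derivation.map_smul]
theorem d2_two (s : S) : pderiv 2 (2 * s) = 2 * pderiv 2 s := by
  rw [← two_smul', ← two_smul', Derivation.map_smul]
theorem tau_two : tau (2 : S) = 2 := map_ofNat tau 2
theorem C2_eq : (C 2 : S) = 2 := rfl

theorem L_he (s : S) : Lh (Le s) = Le (Lh s) + (2 : ℂ) • Le s := by
  simp only [Lh_apply, Le_apply, map_add, map_sub, tau_two, map_mul, tau_X0, tau_X1, d0_X0, d0_X1,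
    d0_X2, d0_two, pderiv0_tau, two_smul', C2_eq]
  ring

theorem L_hf (s : S) : Lh (Lf s) = Lf (Lh s) - (2 : ℂ) • Lf s := by
  simp only [Lh_apply, Lf_apply, d0_X0, two_smul']
  ring

theorem L_ef (s : S) : Le (Lf s) = Lf (Le s) + Lh s := by
  simp only [Lh_apply, Lf_apply, Le_apply, map_add, map_mul, tau_X0, d0_X0]
  ring

theorem R_he (s : S) : Re (Rh s) = Rh (Re s) + (2 : ℂ) • Re s := by
  simp only [Rh_apply, Re_apply, d2_X2, two_smul']
  ring

theorem R_hf (s : S) : Rf (Rh s) = Rh (Rf s) - (2 : ℂ) • Rf s := by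
  simp only [Rh_apply, Rf_apply, map_add, map_sub, tau_two, map_mul, tau_X1, tau_X2, d2_X0, d2_X1,
    d2_X2, d2_two, pderiv2_tau, two_smul', C2_eq]
  ring

theorem R_ef (s : S) : Rf (Re s) = Re (Rf s) + Rh s := by
  simp only [Rh_apply, Rf_apply, Re_apply, map_add, map_mul, tau_X2, d2_X2]
  ring

/-! ### commutation of left and right operators -/

theorem Lf_Re (s : S) : Lf (Re s) = Re (Lf s) := by
  simp only [Lf_apply, Re_apply]; ring
theorem Lf_Rh (s : S) : Lf (Rh s) = Rh (Lf s) := by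
  simp only [Lf_apply, Rh_apply, d2_X0]; ring
theorem Lf_Rf (s : S) : Lf (Rf s) = Rf (Lf s) := by
  simp only [Lf_apply, Rf_apply, map_mul, tau_X0, d2_X0]; ring
theorem Lh_Re (s : S) : Lh (Re s) = Re (Lh s) := by
  simp only [Lh_apply, Re_apply, d0_X2]; ring
theorem Lh_Rh (s : S) : Lh (Rh s) = Rh (Lh s) := by
  simp only [Lh_apply, Rh_apply, map_sub, d2_X0, d2_X1, d0_X1, d0_X2, d0_two, d2_two,
    pderiv_comm02]; ring
theorem Lh_Rf (s : S) : Lh (Rf s) = Rf (Lh s) := by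
  simp only [Lh_apply, Rf_apply, map_sub, map_add, map_mul, tau_two, tau_X0, tau_X1, d2_X0, d2_X1,
    d0_X0, d0_X1, d0_X2, d0_two, d2_two, pderiv_comm02, pderiv0_tau, C2_eq]; ring
theorem Le_Re (s : S) : Le (Re s) = Re (Le s) := by
  simp only [Le_apply, Re_apply, map_mul, tau_X2, d0_X2]; ring
theorem Le_Rh (s : S) : Le (Rh s) = Rh (Le s) := by
  simp only [Le_apply, Rh_apply, map_sub, map_add, map_mul, tau_two, tau_X1, tau_X2, d2_X0, d2_X1,
    d2_X2, d0_X1, d0_X2, d0_two, d2_two, pderiv_comm02, pderiv2_tau, C2_eq]; ring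
theorem Le_Rf (s : S) : Le (Rf s) = Rf (Le s) := by
  simp only [Le_apply, Rf_apply, map_sub, map_add, map_mul, tau_two, tau_X0, tau_X1, tau_X2, d2_X0,
    d2_X1, d2_X2, d0_X0, d0_X1, d0_X2, d0_two, d2_two, pderiv_comm02, pderiv2_tau, pderiv0_tau,
    C2_eq]; ring

instance : Sl2 S where
  e := Le
  f := Lf
  h := Lh
  he := L_he
  hf := L_hf
  ef := L_ef

end

end Crest.Agent.R178U
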