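import Crest.Agent.R178U.NN
import Crest.Agent.R178U.SModel

/-!
# `E`-modules: the type `NN Y` with its `E`-module structure, filtrations
-/

set_option autoImplicit false

namespace Crest.Agent.R178U

open MvPolynomial

noncomputable section

/-- the `E`-module `E ⊗_{U(sl₂)} Y = Y[t] ⊕ v⊗Y ⊕ w⊗Y` -/
def NN (Y : Type) [AddCommGroup Y] [Module ℂ Y] : Type := (ℕ →₀ Y) × (Y × Y)

section
variable {Y : Type} [AddCommGroup Y] [Module ℂ Y]

instance : AddCommGroup (NN Y) := inferInstanceAs (AddCommGroup ((ℕ →₀ Y) × (Y × Y)))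
instance : Module ℂ (NN Y) := inferInstanceAs (Module ℂ ((ℕ →₀ Y) × (Y × Y)))

/-- the element `(p, z)` of `NN Y` -/
def NN.mk (p : ℕ →₀ Y) (z : Y × Y) : NN Y := ((p, z) : (ℕ →₀ Y) × (Y × Y))

/-- polynomial part -/
def NN.pol : NN Y →ₗ[ℂ] (ℕ →₀ Y) := LinearMap.fst ℂ (ℕ →₀ Y) (Y × Y)
/-- `v,w`-part -/
def NN.vec : NN Y →ₗ[ℂ] (Y × Y) := LinearMap.snd ℂ (ℕ →₀ Y) (Y × Y)

@[simp] theorem NN.pol_mk (p : ℕ →₀ Y) (z : Y × Y) : NN.pol (NN.mk p z) = p := rfl
@[simp] theorem NN.vec_mk (p : ℕ →₀ Y) (z : Y × Y) : NN.vec (NN.mk p z) = z := rfl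
@[simp] theorem NN.mk_pol_vec (x : NN Y) : NN.mk (NN.pol x) (NN.vec x) = x := rfl
theorem NN.ext {x y : NN Y} (h1 : NN.pol x = NN.pol y) (h2 : NN.vec x = NN.vec y) : x = y :=
  Prod.ext h1 h2
theorem NN.mk_add (p p' : ℕ →₀ Y) (z z' : Y × Y) :
    NN.mk p z + NN.mk p' z' = NN.mk (p + p') (z + z') := rfl

end

section
variable (Y : Type) [AddCommGroup Y] [Module ℂ Y] [Sl2 Y]

/-- the six operators on `NN Y` -/
def NNtuple : ETuple (Module.End ℂ (NN Y)) := PPtuple Y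

/-- structure homomorphism of the `E`-module `NN Y` -/
def NNhom : E →ₐ[ℂ] Module.End ℂ (NN Y) := (NNtuple Y).lift

instance : Module E (NN Y) := Module.compHom (NN Y) (NNhom Y).toRingHom

variable {Y}

theorem NN_smul_def (a : E) (x : NN Y) : a • x = NNhom Y a x := rfl

instance : IsScalarTower ℂ E (NN Y) where
  smul_assoc c a x := by
    rw [NN_smul_def, NN_smul_def, map_smul]; rfl

instance : SMulCommClass E ℂ (NN Y) where
  smul_comm a c x := by
    rw [NN_smul_def, NN_smul_def, map_smul]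

theorem gen_t_smul (p : ℕ →₀ Y) (z : Y × Y) :
    gen .t • NN.mk p z = NN.mk (shift Y p) (Th Y z - z) := by
  rw [NN_smul_def, NNhom, lift_gen]; rfl
theorem gen_e_smul (p : ℕ →₀ Y) (z : Y × Y) :
    gen .e • NN.mk p z = NN.mk (cmap Sl2.e p) (De Y z) := by
  rw [NN_smul_def, NNhom, lift_gen]; rfl
theorem gen_f_smul (p : ℕ →₀ Y) (z : Y × Y) :
    gen .f • NN.mk p z = NN.mk (cmap Sl2.f p) (Df Y z) := by
  rw [NN_smul_def, NNhom, lift_gen]; rfl
theorem gen_h_smul (p : ℕ →₀ Y) (z : Y × Y) :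
    gen .h • NN.mk p z = NN.mk (cmap Sl2.h p) (Dh Y z) := by
  rw [NN_smul_def, NNhom, lift_gen]; rfl
theorem gen_v_smul (p : ℕ →₀ Y) (z : Y × Y) :
    gen .v • NN.mk p z = NN.mk 0 (V1 Y p) := by
  rw [NN_smul_def, NNhom, lift_gen]; rfl
theorem gen_w_smul (p : ℕ →₀ Y) (z : Y × Y) :
    gen .w • NN.mk p z = NN.mk 0 (V2 Y p) := by
  rw [NN_smul_def, NNhom, lift_gen]; rfl

end

/-! ### linear maps between `E`-modules: it suffices to check generators -/

/-- An `ℂ`-linear map between `E`-modules (with `ℂ`-compatible structure) commuting with the six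
generators is `E`-linear. -/
theorem E_linear_of_gen {M N : Type} [AddCommGroup M] [Module ℂ M] [Module E M]
    [IsScalarTower ℂ E M] [AddCommGroup N] [Module ℂ N] [Module E N] [IsScalarTower ℂ E N]
    (φ : M →ₗ[ℂ] N) (hφ : ∀ (g : EGen) (x : M), φ (gen g • x) = gen g • φ x) (a : E) (x : M) :
    φ (a • x) = a • φ x := by
  induction a using E_induction generalizing x with
  | hc c => rw [algebraMap_smul, algebraMap_smul, map_smul]
  | hg g => exact hφ g x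
  | hadd a b ha hb => rw [add_smul, add_smul, map_add, ha, hb]
  | hmul a b ha hb => rw [mul_smul, mul_smul, ha, hb]

/-- bundled version of `E_linear_of_gen` -/
def ELin {M N : Type} [AddCommGroup M] [Module ℂ M] [Module E M]
    [IsScalarTower ℂ E M] [AddCommGroup N] [Module ℂ N] [Module E N] [IsScalarTower ℂ E N]
    (φ : M →ₗ[ℂ] N) (hφ : ∀ (g : EGen) (x : M), φ (gen g • x) = gen g • φ x) : M →ₗ[E] N where
  toFun := φ
  map_add' := map_add φ
  map_smul' a x := E_linear_of_gen φ hφ a x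

@[simp] theorem ELin_apply {M N : Type} [AddCommGroup M] [Module ℂ M] [Module E M]
    [IsScalarTower ℂ E M] [AddCommGroup N] [Module ℂ N] [Module E N] [IsScalarTower ℂ E N]
    (φ : M →ₗ[ℂ] N) (hφ : ∀ (g : EGen) (x : M), φ (gen g • x) = gen g • φ x) (x : M) :
    ELin φ hφ x = φ x := rfl

/-! ### product representations -/

instance {K Y : Type} [AddCommGroup Y] [Module ℂ Y] [Sl2 Y] : Sl2 (K → Y) where
  e := LinearMap.compLeft Sl2.e K
  f := LinearMap.compLeft Sl2.f K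
  h := LinearMap.compLeft Sl2.h K
  he y := by ext k; simp [Sl2.he]
  hf y := by ext k; simp [Sl2.hf]
  ef y := by ext k; simp [Sl2.ef]

theorem pi_e_apply {K Y : Type} [AddCommGroup Y] [Module ℂ Y] [Sl2 Y] (y : K → Y) (k : K) :
    (Sl2.e y : K → Y) k = Sl2.e (y k) := rfl
theorem pi_f_apply {K Y : Type} [AddCommGroup Y] [Module ℂ Y] [Sl2 Y] (y : K → Y) (k : K) :
    (Sl2.f y : K → Y) k = Sl2.f (y k) := rfl
theorem pi_h_apply {K Y : Type} [AddCommGroup Y] [Module ℂ Y] [Sl2 Y] (y : K → Y) (k : K) :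
    (Sl2.h y : K → Y) k = Sl2.h (y k) := rfl

instance {K Y : Type} [AddCommGroup Y] [Module ℂ Y] [Sl2 Y] [FSl2 Y] : FSl2 (K → Y) where
  F d := Submodule.pi Set.univ (fun _ => FSl2.F d)
  mono d y hy := fun k _ => FSl2.mono d (hy k trivial)
  e_mem d y hy := fun k _ => FSl2.e_mem d _ (hy k trivial)
  f_mem d y hy := fun k _ => FSl2.f_mem d _ (hy k trivial)
  h_mem d y hy := fun k _ => FSl2.h_mem d _ (hy k trivial)

theorem mem_piF {K Y : Type} [AddCommGroup Y] [Module ℂ Y] [Sl2 Y] [FSl2 Y] {d : ℤ} {y : K → Y} :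
    y ∈ FSl2.F (Y := K → Y) d ↔ ∀ k, y k ∈ FSl2.F (Y := Y) d := by
  simp [FSl2.F, Submodule.mem_pi]

/-! ### the filtration of `S` by degree -/

/-- degree filtration of `S` -/
def SF (d : ℤ) : Submodule ℂ S := restrictSupport ℂ {m | (m.degree : ℤ) ≤ d}

theorem mem_SF {d : ℤ} {s : S} : s ∈ SF d ↔ ∀ m ∈ s.support, (m.degree : ℤ) ≤ d := by
  rw [SF, MvPolynomial.mem_restrictSupport_iff]
  exact Iff.rfl

/-! ### the filtration of `NN Y` -/

/-- filtration of `NN Y`: `(p, (z₁,z₂))` with `p_j ∈ F (d - j)` and `z_i ∈ F (d+1)` -/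
def NF {Y : Type} [AddCommGroup Y] [Module ℂ Y] [Sl2 Y] [FSl2 Y] (d : ℤ) :
    Submodule ℂ (NN Y) where
  carrier := {x | (∀ j : ℕ, NN.pol x j ∈ FSl2.F (Y := Y) (d - j)) ∧
    (NN.vec x).1 ∈ FSl2.F (Y := Y) (d + 1) ∧ (NN.vec x).2 ∈ FSl2.F (Y := Y) (d + 1)}
  zero_mem' := by
    refine ⟨fun j => ?_, ?_, ?_⟩ <;> simp [Submodule.zero_mem]
  add_mem' := by
    rintro x y ⟨h1, h2, h3⟩ ⟨h1', h2', h3'⟩
    refine ⟨fun j => ?_, ?_, ?_⟩
    · rw [map_add]; exact Submodule.add_mem _ (h1 j) (h1' j)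
    · rw [map_add]; exact Submodule.add_mem _ h2 h2'
    · rw [map_add]; exact Submodule.add_mem _ h3 h3'
  smul_mem' := by
    rintro c x ⟨h1, h2, h3⟩
    refine ⟨fun j => ?_, ?_, ?_⟩
    · rw [map_smul]; exact Submodule.smul_mem _ c (h1 j)
    · rw [map_smul]; exact Submodule.smul_mem _ c h2
    · rw [map_smul]; exact Submodule.smul_mem _ c h3

theorem mem_NF {Y : Type} [AddCommGroup Y] [Module ℂ Y] [Sl2 Y] [FSl2 Y] {d : ℤ} {x : NN Y} :
    x ∈ NF d ↔ (∀ j : ℕ, NN.pol x j ∈ FSl2.F (Y := Y) (d - j)) ∧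
    (NN.vec x).1 ∈ FSl2.F (Y := Y) (d + 1) ∧ (NN.vec x).2 ∈ FSl2.F (Y := Y) (d + 1) := Iff.rfl

end

end Crest.Agent.R178U
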