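import Crest.Agent.R178U.NFilt

/-!
# `E ≅ NN S` as left `E`-module

PIECE EV.

* `theta_smul`: `theta (a • x) = a * theta x`.  By `E_linear_of_gen` (`E` is an `E`-module over
  itself) it suffices to treat `a = gen g`, and by linearity `x = mk (single j s) 0` and
  `x = mk 0 (z₁, z₂)`.  Use `PBW_Lf, PBW_Lh, PBW_Le` (with `ETriple`, `Sl2.e = Le` on `S`),
  the relations `univ.he, ...`, the fact that `gen .t` commutes with `PBW ETriple s`
  (`t` commutes with `e,f,h`: induction `S_induction_L`), and for `v`:
  `v * PBW s * t^j = v * PBW (Θ^j (s,0)).1 + w * PBW (Θ^j (s,0)).2` by induction on `j` using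
  `univ.vt`, `univ.wt` (first: `v * PBW a * t + w * PBW b * t = v * PBW c + w * PBW d` with
  `(c,d) = Th S (a,b)`).
* `theta_ev`: `theta (a • one0) = a * theta one0 = a`.
* `ev_theta`: `PBW ETriple s • mk (single j s') z`; use `PBW_map` with the algebra homomorphism
  `NNhom S` and prove by `S_induction_L` in the first variable that
  `PBW ETriple s • one0 = mk (single 0 s) 0`; then
  `theta x • one0 = x` for `x = mk (single j s) 0` (here
  `gen .t ^ j • one0 = mk (single j 1) 0`, and
  `PBW ETriple s • mk (single j 1) 0 = mk (single j s) 0` by `S_induction_L`) and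
  `x = mk 0 (z₁, z₂)` (`v • mk (single 0 z₁) 0 = mk 0 (z₁, 0)`).
-/

set_option autoImplicit false

namespace Crest.Agent.R178U

open MvPolynomial

noncomputable section

/-! ### `ev` and `theta` -/

/-- the generator `1 ⊗ 1` -/
def one0 : NN S := NN.mk (Finsupp.single 0 1) 0

/-- `ev a = a • one0` -/
def ev : E →ₗ[ℂ] NN S where
  toFun a := a • one0
  map_add' a b := add_smul a b one0
  map_smul' c a := smul_assoc c a one0

theorem ev_apply (a : E) : ev a = a • one0 := rfl

theorem ev_mul (a b : E) : ev (a * b) = a • ev b := mul_smul a b one0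

/-- `theta (∑ s_j t^j, (z₁, z₂)) = ∑ PBW s_j * t^j + v * PBW z₁ + w * PBW z₂` -/
def theta : NN S →ₗ[ℂ] E :=
  Finsupp.lsum ℂ (fun j => LinearMap.mulRight ℂ (gen .t ^ j) ∘ₗ PBW ETriple) ∘ₗ NN.pol
  + LinearMap.mulLeft ℂ (gen .v) ∘ₗ PBW ETriple ∘ₗ LinearMap.fst ℂ S S ∘ₗ NN.vec
  + LinearMap.mulLeft ℂ (gen .w) ∘ₗ PBW ETriple ∘ₗ LinearMap.snd ℂ S S ∘ₗ NN.vec

theorem NN_ext' {Z : Type} [AddCommGroup Z] [Module ℂ Z] {φ ψ : NN S →ₗ[ℂ] Z}
    (h1 : ∀ (j : ℕ) (y : S), φ (NN.mk (Finsupp.single j y) 0) = ψ (NN.mk (Finsupp.single j y) 0))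
    (h2 : ∀ z : S × S, φ (NN.mk 0 z) = ψ (NN.mk 0 z)) : φ = ψ :=
  PP_ext (Y := S) (φ := φ) (ψ := ψ) h1 h2

theorem theta_single (j : ℕ) (s : S) :
    theta (NN.mk (Finsupp.single j s) 0) = PBW ETriple s * gen .t ^ j := by
  simp [theta]

theorem theta_vec (z : S × S) :
    theta (NN.mk 0 z) = gen .v * PBW ETriple z.1 + gen .w * PBW ETriple z.2 := by
  simp [theta]

namespace EVaux

theorem r_te : gen .t * gen .e = gen .e * gen .t := univ.te
theorem r_tf : gen .t * gen .f = gen .f * gen .t := univ.tf
theorem r_th : gen .t * gen .h = gen .h * gen .t := univ.th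
theorem r_tv : gen .t * gen .v = gen .v * gen .t - gen .v := univ.tv
theorem r_tw : gen .t * gen .w = gen .w * gen .t - gen .w := univ.tw
theorem r_ev : gen .e * gen .v = gen .v * gen .e - gen .w := univ.ev
theorem r_ew : gen .e * gen .w = gen .w * gen .e := univ.ew
theorem r_fv : gen .f * gen .v = gen .v * gen .f := univ.fv
theorem r_fw : gen .f * gen .w = gen .w * gen .f - gen .v := univ.fw
theorem r_hv : gen .h * gen .v = gen .v * gen .h - gen .v := univ.hv
theorem r_hw : gen .h * gen .w = gen .w * gen .h + gen .w := univ.hw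
theorem r_vt : gen .v * gen .t =
    gen .v * gen .h - (2 : ℂ) • gen .v + (2 : ℂ) • (gen .w * gen .f) := univ.vt
theorem r_wt : gen .w * gen .t =
    (2 : ℂ) • (gen .v * gen .e) - gen .w * gen .h - (2 : ℂ) • gen .w := univ.wt
theorem r_vv : gen .v * gen .v = 0 := univ.vv
theorem r_vw : gen .v * gen .w = 0 := univ.vw
theorem r_wv : gen .w * gen .v = 0 := univ.wv
theorem r_ww : gen .w * gen .w = 0 := univ.ww

theorem p_f (s : S) : PBW ETriple (Sl2.f s) = gen .f * PBW ETriple s := PBW_Lf ETriple s
theorem p_h (s : S) : PBW ETriple (Sl2.h s) = gen .h * PBW ETriple s := PBW_Lh ETriple s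
theorem p_e (s : S) : PBW ETriple (Sl2.e s) = gen .e * PBW ETriple s := PBW_Le ETriple s

theorem t_comm (s : S) : gen .t * PBW ETriple s = PBW ETriple s * gen .t := by
  induction s using S_induction_L with
  | h1 => rw [PBW_one, mul_one, one_mul]
  | hadd a b ha hb => rw [map_add, mul_add, add_mul, ha, hb]
  | hsmul c a ha => rw [map_smul, mul_smul_comm, smul_mul_assoc, ha]
  | hf a ha =>
    have h := p_f a
    have h' : PBW ETriple (Lf a) = gen .f * PBW ETriple a := h
    rw [h', ← mul_assoc, r_tf, mul_assoc, ha, mul_assoc]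
  | hh a ha =>
    have h' : PBW ETriple (Lh a) = gen .h * PBW ETriple a := p_h a
    rw [h', ← mul_assoc, r_th, mul_assoc, ha, mul_assoc]
  | he a ha =>
    have h' : PBW ETriple (Le a) = gen .e * PBW ETriple a := p_e a
    rw [h', ← mul_assoc, r_te, mul_assoc, ha, mul_assoc]

theorem vt_comb (z : S × S) :
    (gen .v * PBW ETriple z.1 + gen .w * PBW ETriple z.2) * gen .t =
      gen .v * PBW ETriple (Th S z).1 + gen .w * PBW ETriple (Th S z).2 := by
  rw [add_mul, mul_assoc, mul_assoc, ← t_comm, ← t_comm, ← mul_assoc, ← mul_assoc, r_vt, r_wt,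
    Th_apply]
  simp only [map_add, map_sub, map_smul, p_f, p_h, p_e, add_mul, sub_mul, mul_add, mul_sub,
    smul_mul_assoc, mul_smul_comm, mul_assoc]
  abel

theorem vt_pow (j : ℕ) (z : S × S) :
    (gen .v * PBW ETriple z.1 + gen .w * PBW ETriple z.2) * gen .t ^ j =
      gen .v * PBW ETriple (((Th S) ^ j : Module.End ℂ (S × S)) z).1 +
        gen .w * PBW ETriple (((Th S) ^ j : Module.End ℂ (S × S)) z).2 := by
  induction j with
  | zero => simp
  | succ j ih => rw [pow_succ, ← mul_assoc, ih, vt_comb, Thpow_succ']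

theorem smul_lin (g : EGen)
    (h1 : ∀ (j : ℕ) (s : S), theta (gen g • NN.mk (Finsupp.single j s) 0) =
      gen g * theta (NN.mk (Finsupp.single j s) 0))
    (h2 : ∀ z : S × S, theta (gen g • NN.mk 0 z) = gen g * theta (NN.mk 0 z)) (x : NN S) :
    theta (gen g • x) = gen g * theta x := by
  have h : theta ∘ₗ NNhom S (gen g) = LinearMap.mulLeft ℂ (gen g) ∘ₗ theta :=
    NN_ext' (fun j s => h1 j s) (fun z => h2 z)
  exact congrArg (fun φ : NN S →ₗ[ℂ] E => φ x) h

end EVaux

open EVaux

theorem theta_smul (a : E) (x : NN S) : theta (a • x) = a * theta x := by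
  have key : ∀ (g : EGen) (x : NN S), theta (gen g • x) = gen g • theta x := by
    intro g x
    rw [smul_eq_mul]
    refine smul_lin g ?_ ?_ x
    · intro j s
      cases g with
      | t =>
        rw [gen_t_smul, shift_single, map_zero, sub_zero, theta_single, theta_single, ← mul_assoc,
          t_comm, mul_assoc, ← pow_succ']
      | e =>
        rw [gen_e_smul, map_zero, Finsupp.mapRange.linearMap_apply, Finsupp.mapRange_single,
          theta_single, theta_single, p_e, mul_assoc]
      | f =>
        rw [gen_f_smul, map_zero, Finsupp.mapRange.linearMap_apply, Finsupp.mapRange_single,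
          theta_single, theta_single, p_f, mul_assoc]
      | h =>
        rw [gen_h_smul, map_zero, Finsupp.mapRange.linearMap_apply, Finsupp.mapRange_single,
          theta_single, theta_single, p_h, mul_assoc]
      | v =>
        rw [gen_v_smul, V1_single, theta_vec, theta_single, ← vt_pow]
        simp [mul_assoc]
      | w =>
        rw [gen_w_smul, V2_single, theta_vec, theta_single, ← vt_pow]
        simp [mul_assoc]
    · intro z
      cases g with
      | t =>
        rw [gen_t_smul, map_zero, theta_vec, theta_vec]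
        have h := vt_comb z
        rw [mul_add, ← mul_assoc, ← mul_assoc, r_tv, r_tw, Prod.fst_sub, Prod.snd_sub, map_sub,
          map_sub, mul_sub, mul_sub]
        have h2 : (gen .v * PBW ETriple z.1 + gen .w * PBW ETriple z.2) * gen .t =
            gen .v * gen .t * PBW ETriple z.1 + gen .w * gen .t * PBW ETriple z.2 := by
          rw [add_mul, mul_assoc, mul_assoc, ← t_comm, ← t_comm, ← mul_assoc, ← mul_assoc]
        rw [h2] at h
        rw [sub_mul, sub_mul]
        have h3 : gen .v * PBW ETriple (Th S z).1 - gen .v * PBW ETriple z.1 +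
            (gen .w * PBW ETriple (Th S z).2 - gen .w * PBW ETriple z.2) =
            (gen .v * PBW ETriple (Th S z).1 + gen .w * PBW ETriple (Th S z).2) -
            gen .v * PBW ETriple z.1 - gen .w * PBW ETriple z.2 := by abel
        rw [h3, ← h]
        abel
      | e =>
        rw [gen_e_smul, map_zero, theta_vec, theta_vec, De_apply]
        simp only [map_sub, p_e, mul_sub, mul_add]
        rw [← mul_assoc (gen .e), ← mul_assoc (gen .e), r_ev, r_ew, sub_mul]
        simp only [mul_assoc]
        abel
      | f =>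
        rw [gen_f_smul, map_zero, theta_vec, theta_vec, Df_apply]
        simp only [map_sub, p_f, mul_sub, mul_add]
        rw [← mul_assoc (gen .f), ← mul_assoc (gen .f), r_fv, r_fw, sub_mul]
        simp only [mul_assoc]
        abel
      | h =>
        rw [gen_h_smul, map_zero, theta_vec, theta_vec, Dh_apply]
        simp only [map_sub, map_add, p_h, mul_sub, mul_add]
        rw [← mul_assoc (gen .h), ← mul_assoc (gen .h), r_hv, r_hw, sub_mul, add_mul]
        simp only [mul_assoc]
      | v =>
        rw [gen_v_smul, map_zero, theta_vec, theta_vec, mul_add, ← mul_assoc, ← mul_assoc, r_vv,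
          r_vw]
        simp
      | w =>
        rw [gen_w_smul, map_zero, theta_vec, theta_vec, mul_add, ← mul_assoc, ← mul_assoc, r_wv,
          r_ww]
        simp
  have h := E_linear_of_gen theta key a x
  rwa [smul_eq_mul] at h

theorem theta_ev (a : E) : theta (ev a) = a := by
  rw [ev_apply, theta_smul, one0, theta_single, PBW_one, pow_zero, mul_one, mul_one]

namespace EVaux

theorem t_pow_one0 (j : ℕ) : gen .t ^ j • one0 = NN.mk (Finsupp.single j (1 : S)) 0 := by
  induction j with
  | zero => rw [pow_zero, one_smul]; rfl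
  | succ j ih => rw [pow_succ', mul_smul, ih, gen_t_smul, shift_single, map_zero, sub_zero]

theorem PBW_smul_single (j : ℕ) (s : S) :
    PBW ETriple s • NN.mk (Finsupp.single j (1 : S)) 0 = NN.mk (Finsupp.single j s) 0 := by
  induction s using S_induction_L with
  | h1 => rw [PBW_one, one_smul]
  | hadd a b ha hb =>
    rw [map_add, add_smul, ha, hb, NN.mk_add, ← Finsupp.single_add, add_zero]
  | hsmul c a ha =>
    rw [map_smul, smul_assoc, ha]
    have h1 : Finsupp.single j (c • a) = c • Finsupp.single j a := (Finsupp.smul_single c j a).symm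
    rw [h1]
    have h2 : c • (NN.mk (Finsupp.single j a) 0 : NN S) =
        NN.mk (c • Finsupp.single j a) (c • (0 : S × S)) := rfl
    rw [h2, smul_zero]
  | hf a ha =>
    have h' : PBW ETriple (Lf a) = gen .f * PBW ETriple a := p_f a
    rw [h', mul_smul, ha, gen_f_smul, map_zero, Finsupp.mapRange.linearMap_apply,
      Finsupp.mapRange_single]
    rfl
  | hh a ha =>
    have h' : PBW ETriple (Lh a) = gen .h * PBW ETriple a := p_h a
    rw [h', mul_smul, ha, gen_h_smul, map_zero, Finsupp.mapRange.linearMap_apply,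
      Finsupp.mapRange_single]
    rfl
  | he a ha =>
    have h' : PBW ETriple (Le a) = gen .e * PBW ETriple a := p_e a
    rw [h', mul_smul, ha, gen_e_smul, map_zero, Finsupp.mapRange.linearMap_apply,
      Finsupp.mapRange_single]
    rfl

end EVaux

theorem ev_theta (x : NN S) : ev (theta x) = x := by
  have h : ev ∘ₗ theta = LinearMap.id := by
    refine NN_ext' ?_ ?_
    · intro j s
      show ev (theta (NN.mk (Finsupp.single j s) 0)) = NN.mk (Finsupp.single j s) 0
      rw [theta_single, ev_mul, ev_apply, t_pow_one0, PBW_smul_single]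
    · intro z
      show ev (theta (NN.mk 0 z)) = NN.mk 0 z
      rw [theta_vec, map_add, ev_mul, ev_mul, ev_apply, ev_apply]
      have h1 := PBW_smul_single 0 z.1
      have h2 := PBW_smul_single 0 z.2
      have h1' : PBW ETriple z.1 • one0 = NN.mk (Finsupp.single 0 z.1) 0 := h1
      have h2' : PBW ETriple z.2 • one0 = NN.mk (Finsupp.single 0 z.2) 0 := h2
      rw [h1', h2', gen_v_smul, gen_w_smul, V1_single, V2_single, NN.mk_add]
      simp
  exact congrArg (fun φ : NN S →ₗ[ℂ] NN S => φ x) h

end

end Crest.Agent.R178U
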