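import Crest.Agent.R178U.Res

/-!
# The finitistic dimension of `A` is infinite
-/

set_option autoImplicit false

namespace Crest.Agent.R178U

noncomputable section

open CategoryTheory

/-- an `E`-module with the constant filtration `⊤` -/
def topF (N : Type) [AddCommGroup N] [Module ℂ N] [Module E N] [IsScalarTower ℂ E N] : FMod where
  N := N
  F _ := ⊤
  smul_mem _ _ _ _ _ _ := trivial

/-- `M n` = columns with entries in `Inf n` -/
abbrev Mm (n : ℕ) : ModuleCat.{0} A := ModuleCat.of A ((topF (Inf n)).col 0)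

/-- `X n` -/
abbrev Xm (n : ℕ) : ModuleCat.{0} A := ModuleCat.of A ((topF (XN n)).col 0)

def ic (n : ℕ) : (topF (Inf n)).col 0 →ₗ[A] (NNF (Pn (n + 1))).col 1 :=
  colMap (X := topF (Inf n)) (Z := NNF (Pn (n + 1))) (iota n)
    (fun i q _ => iota_mem n q (by have : (0 : ℤ) ≤ iz i := Int.natCast_nonneg _; omega))

def mc (n : ℕ) : (NNF (Pn (n + 1))).col 1 →ₗ[A] (NNF (Pn (n + 1))).col 0 :=
  colMap (X := NNF (Pn (n + 1))) (Z := NNF (Pn (n + 1))) (mu (Pn (n + 1)) (n : ℂ))
    (fun i x hx => mu_mem n x (by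
      have h : x ∈ NF (iz i - 1) := hx
      rwa [show iz i - 1 = iz i - 0 - 1 by ring] at h))

def kc (n : ℕ) : (NNF (Pn (n + 1))).col 0 →ₗ[A] (topF (XN n)).col 0 :=
  colMap (X := NNF (Pn (n + 1))) (Z := topF (XN n)) (kappa n) (fun _ _ _ => trivial)

def jc (n : ℕ) : (topF (Inf n)).col 0 →ₗ[A] (topF (XN n)).col 0 :=
  colMap (X := topF (Inf n)) (Z := topF (XN n)) (jm n) (fun _ _ _ => trivial)

def qc (n : ℕ) : (topF (XN n)).col 0 →ₗ[A] (topF (Inf (n + 1))).col 0 :=
  colMap (X := topF (XN n)) (Z := topF (Inf (n + 1))) (qm n) (fun _ _ _ => trivial)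

theorem iz_nonneg (i : Fin 5) : 0 ≤ iz i := Int.natCast_nonneg _

theorem ic_inj (n : ℕ) : Function.Injective (ic n) :=
  colMap_injective _ _ (fun _ x _ hx => iota_inj n x hx)

theorem icmc (n : ℕ) : Function.Exact (ic n) (mc n) := by
  apply colMap_exact
  · intro x; exact mu_iota n x
  · intro i z _ hz0
    obtain ⟨q, hq⟩ := mu_ker n z hz0
    exact ⟨q, trivial, hq⟩

theorem mckc (n : ℕ) : Function.Exact (mc n) (kc n) := by
  apply colMap_exact
  · intro x; exact kappa_mu n x
  · intro i z hz hz0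
    have h0 := iz_nonneg i
    obtain ⟨x', hx', hx⟩ := kappa_ker n z (d := iz i - 0) (by omega) hz hz0
    refine ⟨x', ?_, hx⟩
    have h : x' ∈ NF (iz i - 0 - 1) := hx'
    rw [show iz i - 0 - 1 = iz i - 1 by ring] at h
    exact h

theorem kc_surj (n : ℕ) : Function.Surjective (kc n) := by
  apply colMap_surjective
  intro i z _
  have h0 := iz_nonneg i
  obtain ⟨x, hx, hxz⟩ := kappa_surj n z (d := iz i - 0) (by omega)
  exact ⟨x, hx, hxz⟩

theorem jc_inj (n : ℕ) : Function.Injective (jc n) :=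
  colMap_injective _ _ (fun _ x _ hx => jm_inj n x hx)

theorem jcqc (n : ℕ) : Function.Exact (jc n) (qc n) := by
  apply colMap_exact
  · intro x; exact qm_jm n x
  · intro i z _ hz0
    obtain ⟨q, hq⟩ := qm_ker n z hz0
    exact ⟨q, trivial, hq⟩

theorem qc_surj (n : ℕ) : Function.Surjective (qc n) := by
  apply colMap_surjective
  intro i z _
  obtain ⟨x, hx⟩ := qm_surj n z
  exact ⟨x, trivial, hx⟩

instance : Subsingleton (Pn 0) := by
  refine ⟨fun p q => Subtype.ext ?_⟩
  have hp := Polynomial.mem_degreeLT.1 p.2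
  have hq := Polynomial.mem_degreeLT.1 q.2
  rw [Nat.cast_zero, Nat.WithBot.lt_zero_iff, Polynomial.degree_eq_bot] at hp hq
  rw [hp, hq]

instance : Subsingleton (Mm 0) := by
  refine ⟨fun x y => Subtype.ext (funext fun i => ?_)⟩
  exact Subsingleton.elim (α := Pn 0) _ _

instance (n : ℕ) : Module.Finite A (Mm n) := by
  have h1 : Module.Finite ℂ (Col (topF (Inf n)).N) :=
    inferInstanceAs (Module.Finite ℂ (Fin 5 → Inf n))
  have h2 : Module.Finite ℂ ((topF (Inf n)).col 0) := by
    have : Module.Finite ℂ (Submodule.restrictScalars ℂ ((topF (Inf n)).col 0)) :=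
      inferInstance
    exact this
  exact Module.Finite.of_restrictScalars_finite ℂ A ((topF (Inf n)).col 0)

theorem main (n : ℕ) : PD (Mm (n + 1)) (2 * n + 5) ∧ ¬ PD (Mm (n + 1)) (2 * n + 4) :=
  unbounded Tm Mm Xm (fun n => Wm n 0) (fun n => Wm n 1) ic mc kc jc qc
    ic_inj icmc mckc kc_surj jc_inj jcqc qc_surj
    (fun n => W_PD n (by omega) (by omega)) (fun n => W_PD n (by omega) (by omega))
    inferInstance (W0_extZ 0) (W1_not_extZ 0) n

theorem final :
    ∃ (A : Type) (_ : Ring A) (_ : Algebra ℂ A), FiniteDimensional ℂ A ∧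
      ∀ k : ℕ, ∃ N : ModuleCat.{0} A, Module.Finite A N ∧
        ¬ CategoryTheory.HasProjectiveDimensionLT N k ∧
        ∃ n : ℕ, CategoryTheory.HasProjectiveDimensionLT N n := by
  refine ⟨A, inferInstance, inferInstance, A_finite, fun k => ⟨Mm (k + 1), inferInstance, ?_, ?_⟩⟩
  · intro h
    refine (main k).2 ?_
    exact hasProjectiveDimensionLT_of_ge _ k _ (by omega)
  · exact ⟨_, (main k).1⟩

end

end Crest.Agent.R178U
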