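import Crest.Agent.R178U.Proj

/-!
# Homomorphisms to the simple module at the last vertex

PIECE HOMT.
* `hom_zero_S`: `col (NNF S) a` is generated by the column `e_a` with `one0` in row `a`
  (`y = B • e_a`, `B` the matrix with column `a` equal to `fun i => theta (y i)` and zero elsewhere);
  `e_a = E_aa • e_a` where `E_aa ∈ A` is the diagonal idempotent, and
  `E_aa` acts by zero on `col triv 4` if `a ≠ 4` (rows `i ≠ 4` of `col triv 4` vanish).
* `hom_zero_pi`: `y : col (NNF (K → Y)) a` is the sum over `k` of the images of its components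
  under the inclusions `Y → (K → Y)` (`Nmap` of `LinearMap.single`).
* `hom_ne`: compose `Nmap` of a projection `(J → S) → S` with `y ↦ (fun i => aug (y i))`,
  `aug : NN S → Tr`, `aug x = constantCoeff (pol x 0)`, which is `E`-linear (`ELin`).
-/

set_option autoImplicit false

namespace Crest.Agent.R178U

noncomputable section

namespace HomTaux

theorem one0_mem : one0 ∈ NF (Y := S) 0 := by
  have h := one_mem_EF
  rw [mem_EF, ev_apply, one_smul] at h
  exact h

/-- rows `i ≠ 4` of `col triv 4` vanish -/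
theorem triv_row (z : triv.col 4) (i : Fin 5) (hi : i ≠ 4) : z.1 i = 0 := by
  have h := z.2 i
  have hlt : ¬ (0 ≤ iz i - 4) := by
    have h5 : (i : ℕ) < 5 := i.2
    have h4 : (i : ℕ) ≠ 4 := fun h => hi (Fin.ext h)
    have h6 : (i : ℕ) < 4 := by lia
    have h7 : ((i : ℕ) : ℤ) < 4 := by exact_mod_cast h6
    intro h8
    have h9 : (0 : ℤ) ≤ ((i : ℕ) : ℤ) - 4 := h8
    linarith
  have hF : triv.F (iz i - 4) = (⊥ : Submodule ℂ Tr) := if_neg hlt
  have h' : z.1 i ∈ (⊥ : Submodule ℂ Tr) := by
    rw [← hF]; exact h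
  exact (Submodule.mem_bot ℂ).1 h'

/-- the generator -/
def gcol (a : Fin 5) : (NNF S).col (iz a) :=
  ⟨fun i => if i = a then one0 else (0 : NN S), by
    intro i
    show (if i = a then one0 else (0 : NN S)) ∈ NF (Y := S) (iz i - iz a)
    by_cases h : i = a
    · subst h
      rw [if_pos rfl, sub_self]
      exact one0_mem
    · rw [if_neg h]
      exact Submodule.zero_mem _⟩

/-- the idempotent -/
def idA (a : Fin 5) : A :=
  mkA (fun i j => if i = a then (if j = a then 1 else 0) else 0) (by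
    intro i j
    split_ifs with h1 h2
    · subst h1; subst h2
      rw [sub_self]; exact one_mem_EF
    · exact Submodule.zero_mem _
    · exact Submodule.zero_mem _)

theorem idA_gcol (a : Fin 5) : idA a • gcol a = gcol a := by
  apply Subtype.ext
  funext i
  show ∑ j, (if i = a then (if j = a then (1 : E) else 0) else 0) •
    (if j = a then one0 else (0 : NN S)) = if i = a then one0 else (0 : NN S)
  by_cases hi : i = a
  · simp [hi]
  · simp [hi]

theorem idA_triv (a : Fin 5) (ha : a ≠ 4) (z : triv.col 4) : idA a • z = 0 := by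
  apply Subtype.ext
  funext i
  show ∑ j, (if i = a then (if j = a then (1 : E) else 0) else 0) • z.1 j = 0
  refine Finset.sum_eq_zero fun j _ => ?_
  by_cases hi : i = a
  · by_cases hj : j = a
    · rw [hj, triv_row z a ha, smul_zero]
    · rw [if_pos hi, if_neg hj, zero_smul]
  · rw [if_neg hi, zero_smul]

/-- matrix with column `a` given by `y` -/
def colA (a : Fin 5) (y : (NNF S).col (iz a)) : A :=
  mkA (fun i j => if j = a then theta (y.1 i) else 0) (by
    intro i j
    split_ifs with h1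
    · subst h1
      exact theta_mem_EF (y.2 i)
    · exact Submodule.zero_mem _)

theorem colA_gcol (a : Fin 5) (y : (NNF S).col (iz a)) : colA a y • gcol a = y := by
  apply Subtype.ext
  funext i
  show ∑ j, (if j = a then theta (y.1 i) else 0) •
    (if j = a then one0 else (0 : NN S)) = y.1 i
  rw [Finset.sum_eq_single a]
  · rw [if_pos rfl, if_pos rfl]
    exact ev_theta (y.1 i)
  · intro j _ hj
    rw [if_neg hj, if_neg hj, smul_zero]
  · intro h; exact absurd (Finset.mem_univ a) h

section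
variable {Y K : Type} [AddCommGroup Y] [Module ℂ Y] [Sl2 Y]

/-- inclusion of a factor -/
def incl [DecidableEq K] (k : K) : SHom Y (K → Y) where
  toLinearMap := LinearMap.single ℂ (fun _ => Y) k
  map_e y := by
    funext k'
    by_cases h : k' = k
    · subst h; simp [pi_e_apply]
    · simp [pi_e_apply, h]
  map_f y := by
    funext k'
    by_cases h : k' = k
    · subst h; simp [pi_f_apply]
    · simp [pi_f_apply, h]
  map_h y := by
    funext k'
    by_cases h : k' = k
    · subst h; simp [pi_h_apply]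
    · simp [pi_h_apply, h]

/-- projection to a factor -/
def prj (k : K) : SHom (K → Y) Y where
  toLinearMap := LinearMap.proj k
  map_e _ := rfl
  map_f _ := rfl
  map_h _ := rfl

theorem sum_incl_prj [Fintype K] [DecidableEq K] (x : NN (K → Y)) :
    ∑ k, Nmap (incl k) (Nmap (prj k) x) = x := by
  have hs : ∀ y : K → Y, ∑ k, (incl (Y := Y) k).toLinearMap
      ((prj (Y := Y) (K := K) k).toLinearMap y) = y := by
    intro y
    exact Finset.univ_sum_single y
  apply NN.ext
  · ext1 j
    rw [map_sum, Finsupp.finsetSum_apply]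
    simp only [Nmap_pol]
    exact hs _
  · rw [map_sum]
    simp only [Nmap_vec]
    refine Prod.ext ?_ ?_
    · rw [Prod.fst_sum]
      exact hs _
    · rw [Prod.snd_sum]
      exact hs _

variable [FSl2 Y]

theorem Nmap_incl_mem [DecidableEq K] (k : K) {d : ℤ} {x : NN Y} (hx : x ∈ NF d) :
    Nmap (incl (K := K) k) x ∈ NF (Y := K → Y) d := by
  have h := Nmap_mem (incl (Y := Y) (K := K) k) (c := 0) (fun d y hy => by
    rw [add_zero, mem_piF]
    intro k'
    show (Pi.single k y : K → Y) k' ∈ _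
    by_cases h : k' = k
    · subst h; rw [Pi.single_eq_same]; exact hy
    · rw [Pi.single_eq_of_ne h]; exact Submodule.zero_mem _) hx
  rwa [add_zero] at h

theorem Nmap_prj_mem (k : K) {d : ℤ} {x : NN (K → Y)} (hx : x ∈ NF d) :
    Nmap (prj k) x ∈ NF (Y := Y) d := by
  have h := Nmap_mem (prj (Y := Y) (K := K) k) (c := 0) (fun d y hy => by
    rw [add_zero]
    exact mem_piF.1 hy k) hx
  rwa [add_zero] at h

/-- inclusion of columns -/
def cincl [DecidableEq K] (a : ℤ) (k : K) : (NNF Y).col a →ₗ[A] (NNF (K → Y)).col a :=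
  colMap (X := NNF Y) (Z := NNF (K → Y)) (Nmap (incl k)) (fun _ _ hx => Nmap_incl_mem k hx)

/-- projection of columns -/
def cprj (a : ℤ) (k : K) : (NNF (K → Y)).col a →ₗ[A] (NNF Y).col a :=
  colMap (X := NNF (K → Y)) (Z := NNF Y) (Nmap (prj k)) (fun _ _ hx => Nmap_prj_mem k hx)

theorem sum_cincl_cprj [Fintype K] [DecidableEq K] (a : ℤ) (y : (NNF (K → Y)).col a) :
    ∑ k, cincl a k (cprj a k y) = y := by
  apply Subtype.ext
  rw [AddSubmonoidClass.coe_finsetSum]
  funext i
  have h1 : (∑ k, ((cincl a k (cprj a k y) : (NNF (K → Y)).col a) : Col (NNF (K → Y)).N)) i =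
      ∑ k, Nmap (incl k) (Nmap (prj k) (y.1 i)) := by
    exact Finset.sum_apply (M := fun _ => NN (K → Y)) i Finset.univ
      (fun k => (cincl a k (cprj a k y)).1)
  rw [h1]
  exact sum_incl_prj (y.1 i)

end

/-- constant coefficient -/
def ccLin : S →ₗ[ℂ] Tr where
  toFun s := (MvPolynomial.constantCoeff s : ℂ)
  map_add' a b := map_add _ a b
  map_smul' c a := MvPolynomial.constantCoeff_smul c a

theorem ccLin_apply (s : S) : ccLin s = (MvPolynomial.constantCoeff s : ℂ) := rfl

theorem cc_Le (s : S) : ccLin (Sl2.e s) = 0 := by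
  rw [ccLin_apply]
  show (MvPolynomial.constantCoeff (Le s) : ℂ) = 0
  rw [Le_apply]; simp

theorem cc_Lf (s : S) : ccLin (Sl2.f s) = 0 := by
  rw [ccLin_apply]
  show (MvPolynomial.constantCoeff (Lf s) : ℂ) = 0
  rw [Lf_apply]; simp

theorem cc_Lh (s : S) : ccLin (Sl2.h s) = 0 := by
  rw [ccLin_apply]
  show (MvPolynomial.constantCoeff (Lh s) : ℂ) = 0
  rw [Lh_apply]; simp

/-- the augmentation `NN S → Tr` -/
def augLin : NN S →ₗ[ℂ] Tr := ccLin ∘ₗ Finsupp.lapply 0 ∘ₗ NN.pol

theorem augLin_mk (p : ℕ →₀ S) (z : S × S) : augLin (NN.mk p z) = ccLin (p 0) := rfl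

theorem gen_Tr (g : EGen) (x : Tr) : gen g • x = 0 := by
  rw [Tr_smul, augE, lift_gen]
  cases g <;> simp [ETuple.assign, zeroTuple]

theorem augLin_gen (g : EGen) (x : NN S) : augLin (gen g • x) = gen g • augLin x := by
  rw [gen_Tr]
  have hx : x = NN.mk (NN.pol x) (NN.vec x) := rfl
  rw [hx]
  generalize NN.pol x = p
  generalize NN.vec x = z
  cases g with
  | t =>
    rw [gen_t_smul, augLin_mk]
    have h0 : shift S p 0 = 0 := by
      rw [shift, Finsupp.lmapDomain_apply]
      exact Finsupp.mapDomain_of_notMem_range _ _ (by simp)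
    rw [h0, map_zero]
  | e => rw [gen_e_smul, augLin_mk]; exact cc_Le _
  | f => rw [gen_f_smul, augLin_mk]; exact cc_Lf _
  | h => rw [gen_h_smul, augLin_mk]; exact cc_Lh _
  | v => rw [gen_v_smul, augLin_mk]; simp
  | w => rw [gen_w_smul, augLin_mk]; simp

/-- the augmentation is `E`-linear -/
def aug : NN S →ₗ[E] Tr := ELin augLin augLin_gen

theorem aug_mem {d : ℤ} {x : NN S} (hx : x ∈ NF d) :
    aug x ∈ (if 0 ≤ d then (⊤ : Submodule ℂ Tr) else ⊥) := by
  split_ifs with h
  · trivial
  · rw [Submodule.mem_bot]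
    have h1 := (mem_NF.1 hx).1 0
    have h2 : NN.pol x 0 = 0 := SF_neg (d := d - ((0 : ℕ) : ℤ)) (by push_cast; lia) h1
    show ccLin (NN.pol x 0) = 0
    rw [h2, map_zero]

/-- the nonzero homomorphism -/
def hne {J : Type} (j : J) : (NNF (J → S)).col 4 →ₗ[A] triv.col 4 :=
  (colMap (X := NNF S) (Z := triv) aug (fun _ _ hx => aug_mem hx)).comp (cprj 4 j)

/-- column on which `hne` does not vanish -/
def ycol {J : Type} [DecidableEq J] (j : J) : (NNF (J → S)).col 4 :=
  cincl 4 j (gcol 4)

end HomTaux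

open HomTaux

theorem hom_zero_S (a : Fin 5) (ha : a ≠ 4) (φ : (NNF S).col (iz a) →ₗ[A] triv.col 4) :
    φ = 0 := by
  have h0 : φ (gcol a) = 0 := by
    rw [← idA_gcol, map_smul, idA_triv a ha]
  apply LinearMap.ext
  intro y
  rw [← colA_gcol a y, map_smul, h0, smul_zero, LinearMap.zero_apply]

theorem hom_zero_pi {Y K : Type} [AddCommGroup Y] [Module ℂ Y] [Sl2 Y] [FSl2 Y] [Finite K] (a : ℤ)
    (h : ∀ φ : (NNF Y).col a →ₗ[A] triv.col 4, φ = 0)
    (φ : (NNF (K → Y)).col a →ₗ[A] triv.col 4) : φ = 0 := by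
  classical
  have := Fintype.ofFinite K
  apply LinearMap.ext
  intro y
  rw [← sum_cincl_cprj a y, map_sum, LinearMap.zero_apply]
  refine Finset.sum_eq_zero fun k _ => ?_
  have h1 := h (φ.comp (cincl a k))
  have h2 := congrArg (fun ψ : (NNF Y).col a →ₗ[A] triv.col 4 => ψ (cprj a k y)) h1
  exact h2

theorem hom_ne (J : Type) [Nonempty J] :
    ∃ φ : (NNF (J → S)).col 4 →ₗ[A] triv.col 4, φ ≠ 0 := by
  classical
  obtain ⟨j⟩ := ‹Nonempty J›
  refine ⟨hne j, fun h => ?_⟩
  have h1 := congrArg (fun ψ : (NNF (J → S)).col 4 →ₗ[A] triv.col 4 => (ψ (ycol j)).1 4) h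
  have h2 : (hne j (ycol j)).1 4 = (1 : ℂ) := by
    show ccLin (NN.pol (Nmap (prj j) (Nmap (incl j) one0)) 0) = (1 : ℂ)
    rw [Nmap_pol, Nmap_pol, ccLin_apply]
    simp [prj, incl, one0]
  have h3 : (1 : ℂ) = 0 := h2.symm.trans h1
  exact one_ne_zero h3

end

end Crest.Agent.R178U
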