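import Crest.Agent.R178U.SFilt

/-!
# Koszul exactness for `S = ℂ[f,h,e]`, filtered ("symbol") version

PIECE KOSZUL.  `X 0 = f`, `X 1 = h`, `X 2 = e`.

The hypothesis "`X2*a + X0*b + X1*c ∈ SF d`" for `a b c ∈ SF d` says that the degree `d+1` part of
`X2*a + X0*b + X1*c` vanishes, i.e. the degree-`d` homogeneous components `a', b', c'` of `a,b,c`
satisfy `X2*a' + X0*b' + X1*c' = 0`.

Proof (Euler homotopy), `k = d ≥ 0` (for `d < 0` everything is `0`): with `∂f = pderiv 0`, etc.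
* koszul1: `t1 = (∂f a - ∂e b)/(k+1)`, `t2 = (∂h a - ∂e c)/(k+1)`, `t3 = (∂h b - ∂f c)/(k+1)`.
  E.g. `X0*(∂f a - ∂e b) + X1*(∂h a - ∂e c) = D a + a - ∂e (X2 a + X0 b + X1 c)`, where `D` is the
  Euler operator and `D a - k a` has lower degree (`euler_low`).
* koszul2: `r = (∂h t1 - ∂f t2 + ∂e t3)/(k+2)`.
* koszul3: `X1 * r` has degree `deg r + 1`.
* koszul0: every polynomial without constant term is `X2*a + X0*b + X1*c` with degrees one less.
-/

set_option autoImplicit false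

namespace Crest.Agent.R178U

open MvPolynomial

noncomputable section

namespace Koszulaux

theorem monomial_mem {d : ℤ} {m : Fin 3 →₀ ℕ} (hm : (m.degree : ℤ) ≤ d) (c : ℂ) :
    (monomial m c : S) ∈ SF d := by
  rw [mem_SF]
  intro m' hm'
  have h1 := support_monomial_subset hm'
  rw [Finset.mem_singleton] at h1
  rw [h1]
  exact hm

/-- the Euler operator acts on the top component by the degree -/
theorem euler_low {d : ℤ} {a : S} (ha : a ∈ SF d) :
    X 0 * pderiv 0 a + X 1 * pderiv 1 a + X 2 * pderiv 2 a - (d : ℂ) • a ∈ SF (d - 1) := by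
  let Φ : S →ₗ[ℂ] S := mulS (X 0) ∘ₗ dS 0 + mulS (X 1) ∘ₗ dS 1 + mulS (X 2) ∘ₗ dS 2 -
    (d : ℂ) • LinearMap.id
  have hΦ : ∀ s, Φ s = X 0 * pderiv 0 s + X 1 * pderiv 1 s + X 2 * pderiv 2 s - (d : ℂ) • s :=
    fun s => rfl
  rw [← hΦ]
  have h1 : Φ a = ∑ m ∈ a.support, Φ (monomial m (coeff m a)) := by
    conv_lhs => rw [a.as_sum]
    rw [map_sum]
  rw [h1]
  refine Submodule.sum_mem _ fun m hm => ?_
  have hd := mem_SF.1 ha m hm
  have h2 : Φ (monomial m (coeff m a)) =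
      (((m.degree : ℤ) - d : ℤ) : ℂ) • monomial m (coeff m a) := by
    rw [hΦ]
    rw [X_mul_pderiv_monomial, X_mul_pderiv_monomial, X_mul_pderiv_monomial]
    have h3 : m.degree = m 0 + m 1 + m 2 := by
      rw [Finsupp.degree_eq_sum, Fin.sum_univ_three]
    rw [h3]
    rw [← Nat.cast_smul_eq_nsmul ℂ (m 0), ← Nat.cast_smul_eq_nsmul ℂ (m 1),
      ← Nat.cast_smul_eq_nsmul ℂ (m 2), ← add_smul, ← add_smul, ← sub_smul]
    push_cast
    rfl
  rw [h2]
  rcases eq_or_lt_of_le hd with h4 | h4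
  · rw [h4]; simp
  · exact Submodule.smul_mem _ _ (monomial_mem (by omega) _)

theorem inv_smul_mem {d : ℤ} {a s : S} {z : ℂ} (hz : z ≠ 0) (h : z • a - s ∈ SF d) :
    a - z⁻¹ • s ∈ SF d := by
  have h1 := Submodule.smul_mem (SF d) z⁻¹ h
  rw [smul_sub, inv_smul_smul₀ hz] at h1
  exact h1

end Koszulaux

open Koszulaux

theorem koszul1 {d : ℤ} {a b c : S} (ha : a ∈ SF d) (hb : b ∈ SF d) (hc : c ∈ SF d)
    (H : X 2 * a + X 0 * b + X 1 * c ∈ SF d) :
    ∃ t1 t2 t3 : S, t1 ∈ SF (d - 1) ∧ t2 ∈ SF (d - 1) ∧ t3 ∈ SF (d - 1) ∧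
      a - (X 0 * t1 + X 1 * t2) ∈ SF (d - 1) ∧
      b - (-(X 2 * t1) + X 1 * t3) ∈ SF (d - 1) ∧
      c - (-(X 2 * t2) - X 0 * t3) ∈ SF (d - 1) := by
  rcases lt_or_ge d 0 with hd | hd
  · have h1 := SF_neg hd ha
    have h2 := SF_neg hd hb
    have h3 := SF_neg hd hc
    subst h1 h2 h3
    exact ⟨0, 0, 0, Submodule.zero_mem _, Submodule.zero_mem _, Submodule.zero_mem _,
      by simp, by simp, by simp⟩
  have hz : ((d : ℂ) + 1) ≠ 0 := by
    have : ((d + 1 : ℤ) : ℂ) ≠ 0 := by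
      rw [Int.cast_ne_zero]; omega
    simpa using this
  set z : ℂ := (d : ℂ) + 1 with hzdef
  have D2H := pderiv_mem 2 H
  have D0H := pderiv_mem 0 H
  have D1H := pderiv_mem 1 H
  refine ⟨z⁻¹ • (pderiv 0 a - pderiv 2 b), z⁻¹ • (pderiv 1 a - pderiv 2 c),
    z⁻¹ • (pderiv 1 b - pderiv 0 c),
    Submodule.smul_mem _ _ (Submodule.sub_mem _ (pderiv_mem 0 ha) (pderiv_mem 2 hb)),
    Submodule.smul_mem _ _ (Submodule.sub_mem _ (pderiv_mem 1 ha) (pderiv_mem 2 hc)),
    Submodule.smul_mem _ _ (Submodule.sub_mem _ (pderiv_mem 1 hb) (pderiv_mem 0 hc)), ?_, ?_, ?_⟩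
  · have e1 : X 0 * z⁻¹ • (pderiv 0 a - pderiv 2 b) + X 1 * z⁻¹ • (pderiv 1 a - pderiv 2 c) =
        z⁻¹ • (X 0 * (pderiv 0 a - pderiv 2 b) + X 1 * (pderiv 1 a - pderiv 2 c)) := by
      rw [smul_add, mul_smul_comm, mul_smul_comm]
    rw [e1]
    refine inv_smul_mem hz ?_
    have h1 := Submodule.sub_mem _ D2H (euler_low ha)
    convert h1 using 1
    simp only [map_add, Derivation.leibniz, pderiv_X, smul_eq_mul, hzdef, add_smul, one_smul]
    simp
    ring
  · have e1 : -(X 2 * z⁻¹ • (pderiv 0 a - pderiv 2 b)) + X 1 * z⁻¹ • (pderiv 1 b - pderiv 0 c) =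
        z⁻¹ • (-(X 2 * (pderiv 0 a - pderiv 2 b)) + X 1 * (pderiv 1 b - pderiv 0 c)) := by
      rw [smul_add, mul_smul_comm, mul_smul_comm, smul_neg]
    rw [e1]
    refine inv_smul_mem hz ?_
    have h1 := Submodule.sub_mem _ D0H (euler_low hb)
    convert h1 using 1
    simp only [map_add, Derivation.leibniz, pderiv_X, smul_eq_mul, hzdef, add_smul, one_smul]
    simp
    ring
  · have e1 : -(X 2 * z⁻¹ • (pderiv 1 a - pderiv 2 c)) - X 0 * z⁻¹ • (pderiv 1 b - pderiv 0 c) =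
        z⁻¹ • (-(X 2 * (pderiv 1 a - pderiv 2 c)) - X 0 * (pderiv 1 b - pderiv 0 c)) := by
      rw [mul_smul_comm, mul_smul_comm, ← smul_neg, ← smul_sub]
    rw [e1]
    refine inv_smul_mem hz ?_
    have h1 := Submodule.sub_mem _ D1H (euler_low hc)
    convert h1 using 1
    simp only [map_add, Derivation.leibniz, pderiv_X, smul_eq_mul, hzdef, add_smul, one_smul]
    simp
    ring

theorem koszul2 {d : ℤ} {t1 t2 t3 : S} (h1 : t1 ∈ SF d) (h2 : t2 ∈ SF d) (h3 : t3 ∈ SF d)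
    (H1 : X 0 * t1 + X 1 * t2 ∈ SF d) (H2 : -(X 2 * t1) + X 1 * t3 ∈ SF d)
    (H3 : -(X 2 * t2) - X 0 * t3 ∈ SF d) :
    ∃ r : S, r ∈ SF (d - 1) ∧ t1 - X 1 * r ∈ SF (d - 1) ∧ t2 + X 0 * r ∈ SF (d - 1) ∧
      t3 - X 2 * r ∈ SF (d - 1) := by
  rcases lt_or_ge d 0 with hd | hd
  · have e1 := SF_neg hd h1
    have e2 := SF_neg hd h2
    have e3 := SF_neg hd h3
    subst e1 e2 e3
    exact ⟨0, Submodule.zero_mem _, by simp, by simp, by simp⟩
  have hz : ((d : ℂ) + 2) ≠ 0 := by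
    have : ((d + 2 : ℤ) : ℂ) ≠ 0 := by
      rw [Int.cast_ne_zero]; omega
    simpa using this
  set z : ℂ := (d : ℂ) + 2 with hzdef
  refine ⟨z⁻¹ • (pderiv 1 t1 - pderiv 0 t2 + pderiv 2 t3),
    Submodule.smul_mem _ _ (Submodule.add_mem _ (Submodule.sub_mem _ (pderiv_mem 1 h1)
      (pderiv_mem 0 h2)) (pderiv_mem 2 h3)), ?_, ?_, ?_⟩
  · rw [mul_smul_comm]
    refine inv_smul_mem hz ?_
    have e := Submodule.sub_mem _ (Submodule.sub_mem _ (pderiv_mem 0 H1) (pderiv_mem 2 H2))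
      (euler_low h1)
    convert e using 1
    simp only [map_add, map_neg, Derivation.leibniz, pderiv_X, smul_eq_mul, hzdef, add_smul,
      two_smul]
    simp
    ring
  · have e1 : t2 + X 0 * z⁻¹ • (pderiv 1 t1 - pderiv 0 t2 + pderiv 2 t3) =
        t2 - z⁻¹ • (-(X 0 * (pderiv 1 t1 - pderiv 0 t2 + pderiv 2 t3))) := by
      rw [mul_smul_comm, smul_neg, sub_neg_eq_add]
    rw [e1]
    refine inv_smul_mem hz ?_
    have e := Submodule.sub_mem _ (Submodule.sub_mem _ (pderiv_mem 1 H1) (pderiv_mem 2 H3))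
      (euler_low h2)
    convert e using 1
    simp only [map_add, map_sub, map_neg, Derivation.leibniz, pderiv_X, smul_eq_mul, hzdef,
      add_smul, two_smul]
    simp
    ring
  · rw [mul_smul_comm]
    refine inv_smul_mem hz ?_
    have e := Submodule.sub_mem _ (Submodule.sub_mem _ (pderiv_mem 1 H2) (pderiv_mem 0 H3))
      (euler_low h3)
    convert e using 1
    simp only [map_add, map_sub, map_neg, Derivation.leibniz, pderiv_X, smul_eq_mul, hzdef,
      add_smul, two_smul]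
    simp
    ring

theorem koszul3 {d : ℤ} {r : S} (hr : r ∈ SF d) (H : X 1 * r ∈ SF d) : r ∈ SF (d - 1) := by
  rw [mem_SF] at H ⊢
  intro m hm
  have h1 : Finsupp.single 1 1 + m ∈ (X 1 * r).support := by
    rw [mem_support_iff, coeff_X_mul]
    exact mem_support_iff.1 hm
  have h2 := H _ h1
  have h3 : (Finsupp.single (1 : Fin 3) 1 + m).degree = m.degree + 1 := by
    rw [map_add, Finsupp.degree_single, add_comm]
  rw [h3] at h2
  push_cast at h2
  omega

theorem koszul0 {d : ℤ} {s : S} (hs : s ∈ SF d) :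
    ∃ a b c : S, ∃ z : ℂ, a ∈ SF (d - 1) ∧ b ∈ SF (d - 1) ∧ c ∈ SF (d - 1) ∧
      s = X 2 * a + X 0 * b + X 1 * c + C z := by
  rw [s.as_sum]
  refine Finset.sum_induction _ (fun s : S => ∃ a b c : S, ∃ z : ℂ, a ∈ SF (d - 1) ∧
    b ∈ SF (d - 1) ∧ c ∈ SF (d - 1) ∧ s = X 2 * a + X 0 * b + X 1 * c + C z) ?_ ?_ ?_
  · rintro s s' ⟨a, b, c, z, h1, h2, h3, rfl⟩ ⟨a', b', c', z', h1', h2', h3', rfl⟩
    refine ⟨a + a', b + b', c + c', z + z', Submodule.add_mem _ h1 h1',
      Submodule.add_mem _ h2 h2', Submodule.add_mem _ h3 h3', ?_⟩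
    rw [map_add]
    ring
  · exact ⟨0, 0, 0, 0, Submodule.zero_mem _, Submodule.zero_mem _, Submodule.zero_mem _,
      by simp⟩
  · intro m hm
    have hd := mem_SF.1 hs m hm
    by_cases h0 : m = 0
    · refine ⟨0, 0, 0, coeff m s, Submodule.zero_mem _, Submodule.zero_mem _,
        Submodule.zero_mem _, ?_⟩
      rw [h0]
      simp
    · obtain ⟨i, hi⟩ : ∃ i, m i ≠ 0 := by
        by_contra hcon
        push Not at hcon
        exact h0 (Finsupp.ext hcon)
      have hsub : Finsupp.single i 1 + (m - Finsupp.single i 1) = m := by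
        apply add_tsub_cancel_of_le
        rw [Finsupp.single_le_iff]
        omega
      have hmon : (monomial m (coeff m s) : S) =
          X i * monomial (m - Finsupp.single i 1) (coeff m s) := by
        rw [X, monomial_mul, one_mul, hsub]
      have hdeg : ((m - Finsupp.single i 1).degree : ℤ) ≤ d - 1 := by
        have h1 : (Finsupp.single i 1 + (m - Finsupp.single i 1)).degree =
            (m - Finsupp.single i 1).degree + 1 := by
          rw [map_add, Finsupp.degree_single, add_comm]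
        rw [hsub] at h1
        rw [h1] at hd
        push_cast at hd
        omega
      have hmem := monomial_mem hdeg (coeff m s)
      rw [hmon]
      fin_cases i
      · exact ⟨0, _, 0, 0, Submodule.zero_mem _, hmem, Submodule.zero_mem _, by simp⟩
      · exact ⟨0, 0, _, 0, Submodule.zero_mem _, Submodule.zero_mem _, hmem, by simp⟩
      · exact ⟨_, 0, 0, 0, hmem, Submodule.zero_mem _, Submodule.zero_mem _, by simp⟩

end

end Crest.Agent.R178U
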