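import Crest.Agent.R178U.SFilt

/-!
# `NN Y` as filtered `sl₂`-representation

PIECE NFILT.  `NF d = {(p, (z₁, z₂)) | p j ∈ F (d - j), z₁ z₂ ∈ F (d+1)}`; `t` raises the
filtration by one, `v, w` lower it by one (`V1 p` with `p j ∈ F (k - j)`:
`Θ^j (p j, 0) ∈ F k × F k`, as `Θ` raises by one).  Use `gen_e_smul` etc. of `EMod.lean`.
-/

set_option autoImplicit false

namespace Crest.Agent.R178U

open MvPolynomial

noncomputable section

/-! ### `NN Y` as filtered `sl₂`-representation -/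

section
variable {Y : Type} [AddCommGroup Y] [Module ℂ Y] [Sl2 Y]

instance : Sl2 (NN Y) where
  e := NNhom Y (gen .e)
  f := NNhom Y (gen .f)
  h := NNhom Y (gen .h)
  he y := by
    have h := congrArg (fun a => NNhom Y a y) univ.he
    simpa [univ] using h
  hf y := by
    have h := congrArg (fun a => NNhom Y a y) univ.hf
    simpa [univ] using h
  ef y := by
    have h := congrArg (fun a => NNhom Y a y) univ.ef
    simpa [univ] using h

variable [FSl2 Y]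

/-- monotonicity of the filtration -/
theorem F_mono_aux {d d' : ℤ} (h : d ≤ d') : FSl2.F (Y := Y) d ≤ FSl2.F (Y := Y) d' :=
  monotone_int_of_le_succ (fun d => FSl2.mono (Y := Y) d) h

theorem F_cast_aux {d d' : ℤ} (h : d = d') {y : Y} (hy : y ∈ FSl2.F (Y := Y) d) :
    y ∈ FSl2.F (Y := Y) d' := h ▸ hy

/-- `Θ` raises the filtration by one -/
theorem Th_mem_aux {d : ℤ} {z : Y × Y} (h1 : z.1 ∈ FSl2.F (Y := Y) d)
    (h2 : z.2 ∈ FSl2.F (Y := Y) d) :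
    (Th Y z).1 ∈ FSl2.F (Y := Y) (d + 1) ∧ (Th Y z).2 ∈ FSl2.F (Y := Y) (d + 1) := by
  rw [Th_apply]
  have h1' : z.1 ∈ FSl2.F (Y := Y) (d + 1) := FSl2.mono d h1
  have h2' : z.2 ∈ FSl2.F (Y := Y) (d + 1) := FSl2.mono d h2
  refine ⟨?_, ?_⟩
  · exact Submodule.add_mem _ (Submodule.sub_mem _ (FSl2.h_mem _ _ h1)
      (Submodule.smul_mem _ _ h1')) (Submodule.smul_mem _ _ (FSl2.e_mem _ _ h2))
  · exact Submodule.sub_mem _ (Submodule.smul_mem _ _ (FSl2.f_mem _ _ h1))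
      (Submodule.add_mem _ (FSl2.h_mem _ _ h2) (Submodule.smul_mem _ _ h2'))

theorem Thpow_mem_aux (j : ℕ) {d : ℤ} {z : Y × Y} (h1 : z.1 ∈ FSl2.F (Y := Y) d)
    (h2 : z.2 ∈ FSl2.F (Y := Y) d) :
    (((Th Y) ^ j : Module.End ℂ (Y × Y)) z).1 ∈ FSl2.F (Y := Y) (d + j) ∧
      (((Th Y) ^ j : Module.End ℂ (Y × Y)) z).2 ∈ FSl2.F (Y := Y) (d + j) := by
  induction j with
  | zero => simpa using ⟨h1, h2⟩
  | succ j ih =>
    rw [Thpow_succ']
    have h := Th_mem_aux ih.1 ih.2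
    exact ⟨F_cast_aux (by push_cast; ring) h.1, F_cast_aux (by push_cast; ring) h.2⟩

theorem V1_mem_aux {d : ℤ} {p : ℕ →₀ Y} (hp : ∀ j : ℕ, p j ∈ FSl2.F (Y := Y) (d - j)) :
    (V1 Y p).1 ∈ FSl2.F (Y := Y) d ∧ (V1 Y p).2 ∈ FSl2.F (Y := Y) d := by
  have h : V1 Y p ∈ (FSl2.F (Y := Y) d).prod (FSl2.F (Y := Y) d) := by
    rw [V1, Finsupp.lsum_apply, Finsupp.sum]
    refine Submodule.sum_mem _ fun j _ => ?_
    have h := Thpow_mem_aux (Y := Y) j (z := (p j, 0)) (hp j) (Submodule.zero_mem _)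
    exact Submodule.mem_prod.2 ⟨F_cast_aux (by ring) h.1, F_cast_aux (by ring) h.2⟩
  exact Submodule.mem_prod.1 h

theorem V2_mem_aux {d : ℤ} {p : ℕ →₀ Y} (hp : ∀ j : ℕ, p j ∈ FSl2.F (Y := Y) (d - j)) :
    (V2 Y p).1 ∈ FSl2.F (Y := Y) d ∧ (V2 Y p).2 ∈ FSl2.F (Y := Y) d := by
  have h : V2 Y p ∈ (FSl2.F (Y := Y) d).prod (FSl2.F (Y := Y) d) := by
    rw [V2, Finsupp.lsum_apply, Finsupp.sum]
    refine Submodule.sum_mem _ fun j _ => ?_
    have h := Thpow_mem_aux (Y := Y) j (z := (0, p j)) (Submodule.zero_mem _) (hp j)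
    exact Submodule.mem_prod.2 ⟨F_cast_aux (by ring) h.1, F_cast_aux (by ring) h.2⟩
  exact Submodule.mem_prod.1 h

theorem gen_e_NF {d : ℤ} {x : NN Y} (hx : x ∈ NF d) : gen .e • x ∈ NF (Y := Y) (d + 1) := by
  obtain ⟨h1, h2, h3⟩ := mem_NF.1 hx
  rw [← NN.mk_pol_vec x, gen_e_smul, mem_NF]
  refine ⟨fun j => ?_, ?_, ?_⟩
  · rw [NN.pol_mk, Finsupp.mapRange.linearMap_apply, Finsupp.mapRange_apply]
    exact F_cast_aux (by ring) (FSl2.e_mem _ _ (h1 j))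
  · rw [NN.vec_mk, De_apply]
    exact FSl2.e_mem _ _ h2
  · rw [NN.vec_mk, De_apply]
    exact Submodule.sub_mem _ (FSl2.e_mem _ _ h3) (FSl2.mono _ h2)
theorem gen_f_NF {d : ℤ} {x : NN Y} (hx : x ∈ NF d) : gen .f • x ∈ NF (Y := Y) (d + 1) := by
  obtain ⟨h1, h2, h3⟩ := mem_NF.1 hx
  rw [← NN.mk_pol_vec x, gen_f_smul, mem_NF]
  refine ⟨fun j => ?_, ?_, ?_⟩
  · rw [NN.pol_mk, Finsupp.mapRange.linearMap_apply, Finsupp.mapRange_apply]
    exact F_cast_aux (by ring) (FSl2.f_mem _ _ (h1 j))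
  · rw [NN.vec_mk, Df_apply]
    exact Submodule.sub_mem _ (FSl2.f_mem _ _ h2) (FSl2.mono _ h3)
  · rw [NN.vec_mk, Df_apply]
    exact FSl2.f_mem _ _ h3
theorem gen_h_NF {d : ℤ} {x : NN Y} (hx : x ∈ NF d) : gen .h • x ∈ NF (Y := Y) (d + 1) := by
  obtain ⟨h1, h2, h3⟩ := mem_NF.1 hx
  rw [← NN.mk_pol_vec x, gen_h_smul, mem_NF]
  refine ⟨fun j => ?_, ?_, ?_⟩
  · rw [NN.pol_mk, Finsupp.mapRange.linearMap_apply, Finsupp.mapRange_apply]
    exact F_cast_aux (by ring) (FSl2.h_mem _ _ (h1 j))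
  · rw [NN.vec_mk, Dh_apply]
    exact Submodule.sub_mem _ (FSl2.h_mem _ _ h2) (FSl2.mono _ h2)
  · rw [NN.vec_mk, Dh_apply]
    exact Submodule.add_mem _ (FSl2.h_mem _ _ h3) (FSl2.mono _ h3)
theorem gen_t_NF {d : ℤ} {x : NN Y} (hx : x ∈ NF d) : gen .t • x ∈ NF (Y := Y) (d + 1) := by
  obtain ⟨h1, h2, h3⟩ := mem_NF.1 hx
  rw [← NN.mk_pol_vec x, gen_t_smul, mem_NF]
  have h := Th_mem_aux h2 h3
  refine ⟨fun j => ?_, ?_, ?_⟩
  · rw [NN.pol_mk]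
    cases j with
    | zero =>
      have h0 : shift Y (NN.pol x) 0 = 0 := by
        rw [shift, Finsupp.lmapDomain_apply]
        exact Finsupp.mapDomain_of_notMem_range _ _ (by simp)
      rw [h0]
      exact Submodule.zero_mem _
    | succ j =>
      have h0 : shift Y (NN.pol x) (j + 1) = NN.pol x j := by
        rw [shift, Finsupp.lmapDomain_apply]
        exact Finsupp.mapDomain_apply Nat.succ_injective _ _
      rw [h0]
      exact F_cast_aux (by push_cast; ring) (h1 j)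
  · rw [NN.vec_mk]
    exact Submodule.sub_mem _ h.1 (FSl2.mono _ h2)
  · rw [NN.vec_mk]
    exact Submodule.sub_mem _ h.2 (FSl2.mono _ h3)
theorem gen_v_NF {d : ℤ} {x : NN Y} (hx : x ∈ NF d) : gen .v • x ∈ NF (Y := Y) (d - 1) := by
  obtain ⟨h1, h2, h3⟩ := mem_NF.1 hx
  rw [← NN.mk_pol_vec x, gen_v_smul, mem_NF]
  have h := V1_mem_aux h1
  refine ⟨fun j => ?_, ?_, ?_⟩
  · rw [NN.pol_mk]
    exact Submodule.zero_mem _
  · rw [NN.vec_mk]
    exact F_cast_aux (by ring) h.1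
  · rw [NN.vec_mk]
    exact F_cast_aux (by ring) h.2
theorem gen_w_NF {d : ℤ} {x : NN Y} (hx : x ∈ NF d) : gen .w • x ∈ NF (Y := Y) (d - 1) := by
  obtain ⟨h1, h2, h3⟩ := mem_NF.1 hx
  rw [← NN.mk_pol_vec x, gen_w_smul, mem_NF]
  have h := V2_mem_aux h1
  refine ⟨fun j => ?_, ?_, ?_⟩
  · rw [NN.pol_mk]
    exact Submodule.zero_mem _
  · rw [NN.vec_mk]
    exact F_cast_aux (by ring) h.1
  · rw [NN.vec_mk]
    exact F_cast_aux (by ring) h.2

theorem NF_mono {d d' : ℤ} (h : d ≤ d') : NF (Y := Y) d ≤ NF (Y := Y) d' := by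
  intro x hx
  obtain ⟨h1, h2, h3⟩ := mem_NF.1 hx
  exact mem_NF.2 ⟨fun j => F_mono_aux (by lia) (h1 j), F_mono_aux (by lia) h2,
    F_mono_aux (by lia) h3⟩

instance : FSl2 (NN Y) where
  F := NF
  mono _ := NF_mono (by lia)
  e_mem _ _ hy := gen_e_NF hy
  f_mem _ _ hy := gen_f_NF hy
  h_mem _ _ hy := gen_h_NF hy

end

end

end Crest.Agent.R178U
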