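import Crest.Agent.R178U.Defs

/-!
# The induced module `NN Y = Y[t] ⊕ v⊗Y ⊕ w⊗Y` over `E`
-/

set_option autoImplicit false

namespace Crest.Agent.R178U

noncomputable section

variable (Y : Type) [AddCommGroup Y] [Module ℂ Y] [Sl2 Y]

/-- The matrix `Θ` (right multiplication by `t` on `v⊗Y ⊕ w⊗Y`):
`v t = v (h-2) + w 2f`, `w t = v 2e - w (h+2)`. -/
def Th : (Y × Y) →ₗ[ℂ] (Y × Y) :=
  LinearMap.prod
    ((Sl2.h - (2 : ℂ) • LinearMap.id) ∘ₗ LinearMap.fst ℂ Y Y
      + (2 : ℂ) • (Sl2.e ∘ₗ LinearMap.snd ℂ Y Y))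
    ((2 : ℂ) • (Sl2.f ∘ₗ LinearMap.fst ℂ Y Y)
      - (Sl2.h + (2 : ℂ) • LinearMap.id) ∘ₗ LinearMap.snd ℂ Y Y)

theorem Th_apply (z : Y × Y) : Th Y z =
    (Sl2.h z.1 - (2 : ℂ) • z.1 + (2 : ℂ) • Sl2.e z.2,
      (2 : ℂ) • Sl2.f z.1 - (Sl2.h z.2 + (2 : ℂ) • z.2)) := by
  simp [Th]

/-- action of `e` on `v⊗Y ⊕ w⊗Y` -/
def De : (Y × Y) →ₗ[ℂ] (Y × Y) :=
  LinearMap.prod (Sl2.e ∘ₗ LinearMap.fst ℂ Y Y)
    (Sl2.e ∘ₗ LinearMap.snd ℂ Y Y - LinearMap.fst ℂ Y Y)

/-- action of `f` on `v⊗Y ⊕ w⊗Y` -/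
def Df : (Y × Y) →ₗ[ℂ] (Y × Y) :=
  LinearMap.prod (Sl2.f ∘ₗ LinearMap.fst ℂ Y Y - LinearMap.snd ℂ Y Y)
    (Sl2.f ∘ₗ LinearMap.snd ℂ Y Y)

/-- action of `h` on `v⊗Y ⊕ w⊗Y` -/
def Dh : (Y × Y) →ₗ[ℂ] (Y × Y) :=
  LinearMap.prod (Sl2.h ∘ₗ LinearMap.fst ℂ Y Y - LinearMap.fst ℂ Y Y)
    (Sl2.h ∘ₗ LinearMap.snd ℂ Y Y + LinearMap.snd ℂ Y Y)

theorem De_apply (z : Y × Y) : De Y z = (Sl2.e z.1, Sl2.e z.2 - z.1) := by simp [De]
theorem Df_apply (z : Y × Y) : Df Y z = (Sl2.f z.1 - z.2, Sl2.f z.2) := by simp [Df]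
theorem Dh_apply (z : Y × Y) : Dh Y z = (Sl2.h z.1 - z.1, Sl2.h z.2 + z.2) := by simp [Dh]

theorem De_Th (z : Y × Y) : De Y (Th Y z) = Th Y (De Y z) := by
  ext <;> simp only [Th_apply, De_apply, map_add, map_sub, map_smul, Sl2.he, Sl2.hf, Sl2.ef,
    smul_add, smul_sub] <;> module

theorem Df_Th (z : Y × Y) : Df Y (Th Y z) = Th Y (Df Y z) := by
  ext <;> simp only [Th_apply, Df_apply, map_add, map_sub, map_smul, Sl2.he, Sl2.hf, Sl2.ef,
    smul_add, smul_sub] <;> module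

theorem Dh_Th (z : Y × Y) : Dh Y (Th Y z) = Th Y (Dh Y z) := by
  ext <;> simp only [Th_apply, Dh_apply, map_add, map_sub, map_smul, Sl2.he, Sl2.hf, Sl2.ef,
    smul_add, smul_sub] <;> module

/-- underlying vector space of `E ⊗_{U(sl₂)} Y` -/
abbrev PP : Type := (ℕ →₀ Y) × (Y × Y)

/-- `V₁ (∑ y_j t^j) = ∑ Θ^j (y_j, 0)` -/
def V1 : (ℕ →₀ Y) →ₗ[ℂ] (Y × Y) :=
  Finsupp.lsum ℂ (fun j => ((Th Y) ^ j : Module.End ℂ (Y × Y)) ∘ₗ LinearMap.inl ℂ Y Y)

/-- `V₂ (∑ y_j t^j) = ∑ Θ^j (0, y_j)` -/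
def V2 : (ℕ →₀ Y) →ₗ[ℂ] (Y × Y) :=
  Finsupp.lsum ℂ (fun j => ((Th Y) ^ j : Module.End ℂ (Y × Y)) ∘ₗ LinearMap.inr ℂ Y Y)

@[simp] theorem V1_single (j : ℕ) (y : Y) :
    V1 Y (Finsupp.single j y) = ((Th Y) ^ j : Module.End ℂ (Y × Y)) (y, 0) := by
  rw [V1, Finsupp.lsum_single]; rfl

@[simp] theorem V2_single (j : ℕ) (y : Y) :
    V2 Y (Finsupp.single j y) = ((Th Y) ^ j : Module.End ℂ (Y × Y)) (0, y) := by
  rw [V2, Finsupp.lsum_single]; rfl

/-- multiplication by `t` on `Y[t]` -/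
def shift : (ℕ →₀ Y) →ₗ[ℂ] (ℕ →₀ Y) := Finsupp.lmapDomain Y ℂ Nat.succ

@[simp] theorem shift_single (j : ℕ) (y : Y) :
    shift Y (Finsupp.single j y) = Finsupp.single (j + 1) y := by simp [shift]

/-- coefficientwise application of a linear map -/
abbrev cmap {Y Z : Type} [AddCommGroup Y] [Module ℂ Y] [AddCommGroup Z] [Module ℂ Z]
    (φ : Y →ₗ[ℂ] Z) : (ℕ →₀ Y) →ₗ[ℂ] (ℕ →₀ Z) := Finsupp.mapRange.linearMap φ

theorem De_Thpow (j : ℕ) (z : Y × Y) :
    De Y (((Th Y) ^ j : Module.End ℂ (Y × Y)) z) =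
      ((Th Y) ^ j : Module.End ℂ (Y × Y)) (De Y z) := by
  induction j with
  | zero => simp
  | succ j ih => simp only [pow_succ', Module.End.mul_apply, De_Th, ih]

theorem Df_Thpow (j : ℕ) (z : Y × Y) :
    Df Y (((Th Y) ^ j : Module.End ℂ (Y × Y)) z) =
      ((Th Y) ^ j : Module.End ℂ (Y × Y)) (Df Y z) := by
  induction j with
  | zero => simp
  | succ j ih => simp only [pow_succ', Module.End.mul_apply, Df_Th, ih]

theorem Dh_Thpow (j : ℕ) (z : Y × Y) :
    Dh Y (((Th Y) ^ j : Module.End ℂ (Y × Y)) z) =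
      ((Th Y) ^ j : Module.End ℂ (Y × Y)) (Dh Y z) := by
  induction j with
  | zero => simp
  | succ j ih => simp only [pow_succ', Module.End.mul_apply, Dh_Th, ih]

/-- the six operators on `PP Y`: operator of `t` -/
def opT : PP Y →ₗ[ℂ] PP Y := LinearMap.prodMap (shift Y) (Th Y - LinearMap.id)
/-- operator of `e` -/
def opE : PP Y →ₗ[ℂ] PP Y := LinearMap.prodMap (cmap Sl2.e) (De Y)
/-- operator of `f` -/
def opF : PP Y →ₗ[ℂ] PP Y := LinearMap.prodMap (cmap Sl2.f) (Df Y)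
/-- operator of `h` -/
def opH : PP Y →ₗ[ℂ] PP Y := LinearMap.prodMap (cmap Sl2.h) (Dh Y)
/-- operator of `v` -/
def opV : PP Y →ₗ[ℂ] PP Y :=
  LinearMap.inr ℂ (ℕ →₀ Y) (Y × Y) ∘ₗ V1 Y ∘ₗ LinearMap.fst ℂ (ℕ →₀ Y) (Y × Y)
/-- operator of `w` -/
def opW : PP Y →ₗ[ℂ] PP Y :=
  LinearMap.inr ℂ (ℕ →₀ Y) (Y × Y) ∘ₗ V2 Y ∘ₗ LinearMap.fst ℂ (ℕ →₀ Y) (Y × Y)

variable {Y}

@[simp] theorem opT_apply (p : ℕ →₀ Y) (z : Y × Y) : opT Y (p, z) = (shift Y p, Th Y z - z) := rfl
@[simp] theorem opE_apply (p : ℕ →₀ Y) (z : Y × Y) : opE Y (p, z) = (cmap Sl2.e p, De Y z) := rfl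
@[simp] theorem opF_apply (p : ℕ →₀ Y) (z : Y × Y) : opF Y (p, z) = (cmap Sl2.f p, Df Y z) := rfl
@[simp] theorem opH_apply (p : ℕ →₀ Y) (z : Y × Y) : opH Y (p, z) = (cmap Sl2.h p, Dh Y z) := rfl
@[simp] theorem opV_apply (p : ℕ →₀ Y) (z : Y × Y) : opV Y (p, z) = (0, V1 Y p) := rfl
@[simp] theorem opW_apply (p : ℕ →₀ Y) (z : Y × Y) : opW Y (p, z) = (0, V2 Y p) := rfl

/-- extensionality for linear maps on `PP Y` -/
theorem PP_ext {Z : Type} [AddCommGroup Z] [Module ℂ Z] {φ ψ : PP Y →ₗ[ℂ] Z}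
    (h1 : ∀ (j : ℕ) (y : Y), φ (Finsupp.single j y, 0) = ψ (Finsupp.single j y, 0))
    (h2 : ∀ z : Y × Y, φ (0, z) = ψ (0, z)) : φ = ψ := by
  refine LinearMap.prod_ext ?_ ?_
  · refine Finsupp.lhom_ext fun j y => ?_
    exact h1 j y
  · refine LinearMap.ext fun z => ?_
    exact h2 z

theorem Thpow_succ (j : ℕ) (z : Y × Y) :
    ((Th Y) ^ (j + 1) : Module.End ℂ (Y × Y)) z =
      ((Th Y) ^ j : Module.End ℂ (Y × Y)) (Th Y z) := by
  rw [pow_succ, Module.End.mul_apply]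

theorem Thpow_succ' (j : ℕ) (z : Y × Y) :
    ((Th Y) ^ (j + 1) : Module.End ℂ (Y × Y)) z =
      Th Y (((Th Y) ^ j : Module.End ℂ (Y × Y)) z) := by
  rw [pow_succ', Module.End.mul_apply]

section rels

theorem V1_shift (p : ℕ →₀ Y) : V1 Y (shift Y p) = Th Y (V1 Y p) := by
  induction p using Finsupp.induction_linear with
  | zero => simp
  | add p q hp hq => simp only [map_add, hp, hq]
  | single j y => rw [shift_single, V1_single, V1_single, Thpow_succ']

theorem V2_shift (p : ℕ →₀ Y) : V2 Y (shift Y p) = Th Y (V2 Y p) := by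
  induction p using Finsupp.induction_linear with
  | zero => simp
  | add p q hp hq => simp only [map_add, hp, hq]
  | single j y => rw [shift_single, V2_single, V2_single, Thpow_succ']

theorem De_V1 (p : ℕ →₀ Y) : De Y (V1 Y p) = V1 Y (cmap Sl2.e p) - V2 Y p := by
  induction p using Finsupp.induction_linear with
  | zero => simp
  | add p q hp hq => simp only [map_add, hp, hq]; abel
  | single j y =>
    rw [Finsupp.mapRange.linearMap_apply, Finsupp.mapRange_single, V1_single, V1_single, V2_single,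
      De_Thpow, ← map_sub]
    congr 1
    simp [De_apply]

theorem De_V2 (p : ℕ →₀ Y) : De Y (V2 Y p) = V2 Y (cmap Sl2.e p) := by
  induction p using Finsupp.induction_linear with
  | zero => simp
  | add p q hp hq => simp only [map_add, hp, hq]
  | single j y =>
    rw [Finsupp.mapRange.linearMap_apply, Finsupp.mapRange_single, V2_single, V2_single,
      De_Thpow]
    congr 1
    simp [De_apply]

theorem Df_V1 (p : ℕ →₀ Y) : Df Y (V1 Y p) = V1 Y (cmap Sl2.f p) := by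
  induction p using Finsupp.induction_linear with
  | zero => simp
  | add p q hp hq => simp only [map_add, hp, hq]
  | single j y =>
    rw [Finsupp.mapRange.linearMap_apply, Finsupp.mapRange_single, V1_single, V1_single,
      Df_Thpow]
    congr 1
    simp [Df_apply]

theorem Df_V2 (p : ℕ →₀ Y) : Df Y (V2 Y p) = V2 Y (cmap Sl2.f p) - V1 Y p := by
  induction p using Finsupp.induction_linear with
  | zero => simp
  | add p q hp hq => simp only [map_add, hp, hq]; abel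
  | single j y =>
    rw [Finsupp.mapRange.linearMap_apply, Finsupp.mapRange_single, V2_single, V1_single, V2_single,
      Df_Thpow, ← map_sub]
    congr 1
    simp [Df_apply]

theorem Dh_V1 (p : ℕ →₀ Y) : Dh Y (V1 Y p) = V1 Y (cmap Sl2.h p) - V1 Y p := by
  induction p using Finsupp.induction_linear with
  | zero => simp
  | add p q hp hq => simp only [map_add, hp, hq]; abel
  | single j y =>
    rw [Finsupp.mapRange.linearMap_apply, Finsupp.mapRange_single, V1_single, V1_single,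
      Dh_Thpow, ← map_sub]
    congr 1
    simp [Dh_apply]

theorem Dh_V2 (p : ℕ →₀ Y) : Dh Y (V2 Y p) = V2 Y (cmap Sl2.h p) + V2 Y p := by
  induction p using Finsupp.induction_linear with
  | zero => simp
  | add p q hp hq => simp only [map_add, hp, hq]; abel
  | single j y =>
    rw [Finsupp.mapRange.linearMap_apply, Finsupp.mapRange_single, V2_single, V2_single,
      Dh_Thpow, ← map_add]
    congr 1
    simp [Dh_apply]

theorem Th_V1 (p : ℕ →₀ Y) : Th Y (V1 Y p) =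
    V1 Y (cmap Sl2.h p) - (2 : ℂ) • V1 Y p + (2 : ℂ) • V2 Y (cmap Sl2.f p) := by
  induction p using Finsupp.induction_linear with
  | zero => simp
  | add p q hp hq => simp only [map_add, hp, hq, smul_add]; abel
  | single j y =>
    rw [Finsupp.mapRange.linearMap_apply, Finsupp.mapRange_single, Finsupp.mapRange.linearMap_apply,
      Finsupp.mapRange_single, V1_single, V1_single, V2_single,
      ← Thpow_succ', Thpow_succ, ← map_smul, ← map_smul, ← map_sub, ← map_add]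
    congr 1
    simp [Th_apply]

theorem Th_V2 (p : ℕ →₀ Y) : Th Y (V2 Y p) =
    (2 : ℂ) • V1 Y (cmap Sl2.e p) - V2 Y (cmap Sl2.h p) - (2 : ℂ) • V2 Y p := by
  induction p using Finsupp.induction_linear with
  | zero => simp
  | add p q hp hq => simp only [map_add, hp, hq, smul_add]; abel
  | single j y =>
    rw [Finsupp.mapRange.linearMap_apply, Finsupp.mapRange_single, Finsupp.mapRange.linearMap_apply,
      Finsupp.mapRange_single, V1_single, V2_single, V2_single,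
      ← Thpow_succ', Thpow_succ, ← map_smul, ← map_smul, ← map_sub, ← map_sub]
    congr 1
    ext
    · simp [Th_apply]
    · simp only [Th_apply, Prod.smul_mk, Prod.mk_sub_mk, map_zero, smul_zero]
      module

end rels

theorem Dh_De (z : Y × Y) : Dh Y (De Y z) = De Y (Dh Y z) + (2 : ℂ) • De Y z := by
  ext <;> simp only [De_apply, Dh_apply, Prod.mk_add_mk, Prod.smul_mk, map_add, map_sub, Sl2.he]
    <;> module

theorem Dh_Df (z : Y × Y) : Dh Y (Df Y z) = Df Y (Dh Y z) - (2 : ℂ) • Df Y z := by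
  ext <;> simp only [Df_apply, Dh_apply, Prod.mk_sub_mk, Prod.smul_mk, map_add, map_sub, Sl2.hf]
    <;> module

theorem De_Df (z : Y × Y) : De Y (Df Y z) = Df Y (De Y z) + Dh Y z := by
  ext <;> simp only [Df_apply, Dh_apply, De_apply, Prod.mk_add_mk, map_add, map_sub, Sl2.ef]
    <;> module

theorem cmap_he (p : ℕ →₀ Y) : cmap (Sl2.h : Y →ₗ[ℂ] Y) (cmap Sl2.e p) =
    cmap Sl2.e (cmap Sl2.h p) + (2 : ℂ) • cmap Sl2.e p := by
  ext j; simp [Sl2.he]

theorem cmap_hf (p : ℕ →₀ Y) : cmap (Sl2.h : Y →ₗ[ℂ] Y) (cmap Sl2.f p) =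
    cmap Sl2.f (cmap Sl2.h p) - (2 : ℂ) • cmap Sl2.f p := by
  ext j; simp [Sl2.hf]

theorem cmap_ef (p : ℕ →₀ Y) : cmap (Sl2.e : Y →ₗ[ℂ] Y) (cmap Sl2.f p) =
    cmap Sl2.f (cmap Sl2.e p) + cmap Sl2.h p := by
  ext j; simp [Sl2.ef]

omit [Sl2 Y] in
theorem cmap_shift {Z : Type} [AddCommGroup Z] [Module ℂ Z] (φ : Y →ₗ[ℂ] Z) (p : ℕ →₀ Y) :
    cmap φ (shift Y p) = shift Z (cmap φ p) := by
  induction p using Finsupp.induction_linear with
  | zero => simp
  | add p q hp hq => simp only [map_add, hp, hq]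
  | single j y => simp [shift]

variable (Y) in
/-- the `E`-structure on `PP Y` -/
def PPtuple : ETuple (Module.End ℂ (PP Y)) where
  t := opT Y
  e := opE Y
  f := opF Y
  h := opH Y
  v := opV Y
  w := opW Y
  he := by
    refine LinearMap.ext fun x => ?_
    obtain ⟨p, z⟩ := x
    simp only [Module.End.mul_apply, LinearMap.add_apply, LinearMap.smul_apply, opE_apply,
      opH_apply, cmap_he, Dh_De, Prod.mk_add_mk, Prod.smul_mk]
  hf := by
    refine LinearMap.ext fun x => ?_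
    obtain ⟨p, z⟩ := x
    simp only [Module.End.mul_apply, LinearMap.sub_apply, LinearMap.smul_apply, opF_apply,
      opH_apply, cmap_hf, Dh_Df, Prod.mk_sub_mk, Prod.smul_mk]
  ef := by
    refine LinearMap.ext fun x => ?_
    obtain ⟨p, z⟩ := x
    simp only [Module.End.mul_apply, LinearMap.add_apply, opF_apply,
      opH_apply, opE_apply, cmap_ef, De_Df, Prod.mk_add_mk]
  te := by
    refine LinearMap.ext fun x => ?_
    obtain ⟨p, z⟩ := x
    simp only [Module.End.mul_apply, opT_apply, opE_apply, cmap_shift, map_sub, De_Th]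
  tf := by
    refine LinearMap.ext fun x => ?_
    obtain ⟨p, z⟩ := x
    simp only [Module.End.mul_apply, opT_apply, opF_apply, cmap_shift, map_sub, Df_Th]
  th := by
    refine LinearMap.ext fun x => ?_
    obtain ⟨p, z⟩ := x
    simp only [Module.End.mul_apply, opT_apply, opH_apply, cmap_shift, map_sub, Dh_Th]
  tv := by
    refine LinearMap.ext fun x => ?_
    obtain ⟨p, z⟩ := x
    simp only [Module.End.mul_apply, LinearMap.sub_apply, opT_apply, opV_apply, V1_shift,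
      Prod.mk_sub_mk, map_zero, sub_zero]
  tw := by
    refine LinearMap.ext fun x => ?_
    obtain ⟨p, z⟩ := x
    simp only [Module.End.mul_apply, LinearMap.sub_apply, opT_apply, opW_apply, V2_shift,
      Prod.mk_sub_mk, map_zero, sub_zero]
  ev := by
    refine LinearMap.ext fun x => ?_
    obtain ⟨p, z⟩ := x
    simp only [Module.End.mul_apply, LinearMap.sub_apply, opE_apply, opV_apply, opW_apply, De_V1,
      Prod.mk_sub_mk, map_zero, sub_zero]
  ew := by
    refine LinearMap.ext fun x => ?_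
    obtain ⟨p, z⟩ := x
    simp only [Module.End.mul_apply, opE_apply, opW_apply, De_V2, map_zero]
  fv := by
    refine LinearMap.ext fun x => ?_
    obtain ⟨p, z⟩ := x
    simp only [Module.End.mul_apply, opF_apply, opV_apply, Df_V1, map_zero]
  fw := by
    refine LinearMap.ext fun x => ?_
    obtain ⟨p, z⟩ := x
    simp only [Module.End.mul_apply, LinearMap.sub_apply, opF_apply, opV_apply, opW_apply, Df_V2,
      Prod.mk_sub_mk, map_zero, sub_zero]
  hv := by
    refine LinearMap.ext fun x => ?_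
    obtain ⟨p, z⟩ := x
    simp only [Module.End.mul_apply, LinearMap.sub_apply, opH_apply, opV_apply, Dh_V1,
      Prod.mk_sub_mk, map_zero, sub_zero]
  hw := by
    refine LinearMap.ext fun x => ?_
    obtain ⟨p, z⟩ := x
    simp only [Module.End.mul_apply, LinearMap.add_apply, opH_apply, opW_apply, Dh_V2,
      Prod.mk_add_mk, map_zero, add_zero]
  vt := by
    refine LinearMap.ext fun x => ?_
    obtain ⟨p, z⟩ := x
    simp only [Module.End.mul_apply, LinearMap.add_apply, LinearMap.sub_apply,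
      LinearMap.smul_apply, opH_apply, opV_apply, opW_apply, opT_apply, opF_apply, V1_shift, Th_V1,
      Prod.mk_add_mk, Prod.mk_sub_mk, Prod.smul_mk, sub_zero, add_zero, smul_zero]
  wt := by
    refine LinearMap.ext fun x => ?_
    obtain ⟨p, z⟩ := x
    simp only [Module.End.mul_apply, LinearMap.sub_apply,
      LinearMap.smul_apply, opH_apply, opV_apply, opW_apply, opT_apply, opE_apply, V2_shift, Th_V2,
      Prod.mk_sub_mk, Prod.smul_mk, sub_zero, smul_zero]
  vv := by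
    refine LinearMap.ext fun x => ?_
    obtain ⟨p, z⟩ := x
    simp
  vw := by
    refine LinearMap.ext fun x => ?_
    obtain ⟨p, z⟩ := x
    simp
  wv := by
    refine LinearMap.ext fun x => ?_
    obtain ⟨p, z⟩ := x
    simp
  ww := by
    refine LinearMap.ext fun x => ?_
    obtain ⟨p, z⟩ := x
    simp

end

end Crest.Agent.R178U
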