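import Crest.Agent.R178U.EMod

/-!
# Functoriality of `NN`

PIECE NMAP.  For a homomorphism `φ : Y → Z` of `sl₂`-representations,
`Nmap φ : NN Y → NN Z` is `φ` applied to all coefficients; it is `E`-linear.
Exactness of filtered sequences is inherited coefficientwise (choose preimages for all
coefficients; coefficient `0` gets preimage `0`).
-/

set_option autoImplicit false

namespace Crest.Agent.R178U

noncomputable section

section
variable {Y Z : Type} [AddCommGroup Y] [Module ℂ Y] [Sl2 Y] [AddCommGroup Z] [Module ℂ Z] [Sl2 Z]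

/-- underlying linear map of `Nmap` -/
def NmapLin (φ : Y →ₗ[ℂ] Z) : NN Y →ₗ[ℂ] NN Z :=
  LinearMap.prodMap (cmap φ) (LinearMap.prodMap φ φ)

omit [Sl2 Y] [Sl2 Z] in
theorem NmapLin_mk (φ : Y →ₗ[ℂ] Z) (p : ℕ →₀ Y) (z : Y × Y) :
    NmapLin φ (NN.mk p z) = NN.mk (cmap φ p) (φ z.1, φ z.2) := rfl

theorem SHom.pm_Th (φ : SHom Y Z) (z : Y × Y) :
    LinearMap.prodMap φ.toLinearMap φ.toLinearMap (Th Y z) =
      Th Z (LinearMap.prodMap φ.toLinearMap φ.toLinearMap z) := by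
  ext <;> simp [Th_apply, φ.map_e, φ.map_f, φ.map_h]

theorem SHom.pm_Thpow (φ : SHom Y Z) (j : ℕ) (z : Y × Y) :
    LinearMap.prodMap φ.toLinearMap φ.toLinearMap (((Th Y) ^ j : Module.End ℂ (Y × Y)) z) =
      ((Th Z) ^ j : Module.End ℂ (Z × Z))
        (LinearMap.prodMap φ.toLinearMap φ.toLinearMap z) := by
  induction j with
  | zero => simp
  | succ j ih => simp only [pow_succ', Module.End.mul_apply, SHom.pm_Th, ih]

theorem SHom.pm_V1 (φ : SHom Y Z) (p : ℕ →₀ Y) :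
    LinearMap.prodMap φ.toLinearMap φ.toLinearMap (V1 Y p) = V1 Z (cmap φ.toLinearMap p) := by
  induction p using Finsupp.induction_linear with
  | zero => simp
  | add p q hp hq => simp only [map_add, hp, hq]
  | single j y =>
    rw [Finsupp.mapRange.linearMap_apply, Finsupp.mapRange_single, V1_single, V1_single,
      SHom.pm_Thpow]
    congr 1
    simp

theorem SHom.pm_V2 (φ : SHom Y Z) (p : ℕ →₀ Y) :
    LinearMap.prodMap φ.toLinearMap φ.toLinearMap (V2 Y p) = V2 Z (cmap φ.toLinearMap p) := by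
  induction p using Finsupp.induction_linear with
  | zero => simp
  | add p q hp hq => simp only [map_add, hp, hq]
  | single j y =>
    rw [Finsupp.mapRange.linearMap_apply, Finsupp.mapRange_single, V2_single, V2_single,
      SHom.pm_Thpow]
    congr 1
    simp

theorem NmapLin_gen (φ : SHom Y Z) (g : EGen) (x : NN Y) :
    NmapLin φ.toLinearMap (gen g • x) = gen g • NmapLin φ.toLinearMap x := by
  have hx : x = NN.mk (NN.pol x) (NN.vec x) := rfl
  rw [hx]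
  generalize NN.pol x = p
  generalize NN.vec x = z
  cases g with
  | t =>
    rw [gen_t_smul, NmapLin_mk, NmapLin_mk, gen_t_smul, cmap_shift]
    congr 1
    have := SHom.pm_Th φ z
    ext
    · simp [Th_apply, φ.map_e, φ.map_f, φ.map_h]
    · simp [Th_apply, φ.map_e, φ.map_f, φ.map_h]
  | e =>
    rw [gen_e_smul, NmapLin_mk, NmapLin_mk, gen_e_smul]
    congr 1
    · ext j; simp [φ.map_e]
    · ext <;> simp [De_apply, φ.map_e]
  | f =>
    rw [gen_f_smul, NmapLin_mk, NmapLin_mk, gen_f_smul]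
    congr 1
    · ext j; simp [φ.map_f]
    · ext <;> simp [Df_apply, φ.map_f]
  | h =>
    rw [gen_h_smul, NmapLin_mk, NmapLin_mk, gen_h_smul]
    congr 1
    · ext j; simp [φ.map_h]
    · ext <;> simp [Dh_apply, φ.map_h]
  | v =>
    rw [gen_v_smul, NmapLin_mk, NmapLin_mk, gen_v_smul, map_zero, ← SHom.pm_V1]
    rfl
  | w =>
    rw [gen_w_smul, NmapLin_mk, NmapLin_mk, gen_w_smul, map_zero, ← SHom.pm_V2]
    rfl

/-- the `E`-linear map `NN Y → NN Z` induced by a homomorphism of representations -/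
def Nmap (φ : SHom Y Z) : NN Y →ₗ[E] NN Z :=
  ELin (NmapLin φ.toLinearMap) (NmapLin_gen φ)

theorem Nmap_mk (φ : SHom Y Z) (p : ℕ →₀ Y) (z : Y × Y) :
    Nmap φ (NN.mk p z) = NN.mk (cmap φ.toLinearMap p) (φ.toLinearMap z.1, φ.toLinearMap z.2) := rfl

theorem Nmap_pol (φ : SHom Y Z) (x : NN Y) (j : ℕ) :
    NN.pol (Nmap φ x) j = φ.toLinearMap (NN.pol x j) := rfl

theorem Nmap_vec (φ : SHom Y Z) (x : NN Y) :
    NN.vec (Nmap φ x) = (φ.toLinearMap (NN.vec x).1, φ.toLinearMap (NN.vec x).2) := rfl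

theorem Nmap_eq_zero_iff (φ : SHom Y Z) (x : NN Y) :
    Nmap φ x = 0 ↔ (∀ j, φ.toLinearMap (NN.pol x j) = 0) ∧ φ.toLinearMap (NN.vec x).1 = 0 ∧
      φ.toLinearMap (NN.vec x).2 = 0 := by
  constructor
  · intro h
    refine ⟨fun j => ?_, ?_, ?_⟩
    · rw [← Nmap_pol, h]; simp
    · have := Nmap_vec φ x
      rw [h, map_zero] at this
      exact (congrArg Prod.fst this).symm
    · have := Nmap_vec φ x
      rw [h, map_zero] at this
      exact (congrArg Prod.snd this).symm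
  · rintro ⟨h1, h2, h3⟩
    apply NN.ext
    · ext j
      rw [Nmap_pol, h1 j, map_zero]; rfl
    · rw [Nmap_vec, h2, h3, map_zero]; rfl

theorem Nmap_injective (φ : SHom Y Z) (h : ∀ y, φ.toLinearMap y = 0 → y = 0) :
    Function.Injective (Nmap φ) := by
  rw [injective_iff_map_eq_zero]
  intro x hx
  obtain ⟨h1, h2, h3⟩ := (Nmap_eq_zero_iff φ x).1 hx
  apply NN.ext
  · ext j
    rw [h _ (h1 j), map_zero]; rfl
  · rw [map_zero]
    exact Prod.ext (h _ h2) (h _ h3)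

variable [FSl2 Y] [FSl2 Z]

theorem Nmap_mem (φ : SHom Y Z) {c : ℤ}
    (h : ∀ (d : ℤ) (y : Y), y ∈ FSl2.F d → φ.toLinearMap y ∈ FSl2.F (Y := Z) (d + c))
    {d : ℤ} {x : NN Y} (hx : x ∈ NF d) : Nmap φ x ∈ NF (Y := Z) (d + c) := by
  obtain ⟨h1, h2, h3⟩ := mem_NF.1 hx
  refine mem_NF.2 ⟨fun j => ?_, ?_, ?_⟩
  · rw [Nmap_pol]
    have := h _ _ (h1 j)
    have e : d - j + c = d + c - j := by ring
    rwa [e] at this
  · rw [Nmap_vec]
    have := h _ _ h2
    have e : d + 1 + c = d + c + 1 := by ring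
    rwa [e] at this
  · rw [Nmap_vec]
    have := h _ _ h3
    have e : d + 1 + c = d + c + 1 := by ring
    rwa [e] at this

omit [FSl2 Z] in
/-- lifting coefficients -/
theorem Nmap_lift (φ : SHom Y Z) {c : ℤ} {d : ℤ} {x : NN Z}
    (h1 : ∀ j : ℕ, ∃ y : Y, y ∈ FSl2.F (d - j - c) ∧ φ.toLinearMap y = NN.pol x j)
    (h2 : ∃ y : Y, y ∈ FSl2.F (d + 1 - c) ∧ φ.toLinearMap y = (NN.vec x).1)
    (h3 : ∃ y : Y, y ∈ FSl2.F (d + 1 - c) ∧ φ.toLinearMap y = (NN.vec x).2) :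
    ∃ x' : NN Y, x' ∈ NF (d - c) ∧ Nmap φ x' = x := by
  classical
  choose g hg1 hg2 using h1
  obtain ⟨y1, hy1, hy1'⟩ := h2
  obtain ⟨y2, hy2, hy2'⟩ := h3
  set p : ℕ →₀ Y := Finsupp.onFinset (NN.pol x).support
    (fun j => if NN.pol x j = 0 then 0 else g j) (fun j hj => by
      rw [Finsupp.mem_support_iff]
      intro h0
      exact hj (by rw [if_pos h0])) with hp
  have hpj : ∀ j, p j = if NN.pol x j = 0 then 0 else g j := fun j => rfl
  refine ⟨NN.mk p (y1, y2), mem_NF.2 ⟨fun j => ?_, ?_, ?_⟩, ?_⟩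
  · rw [NN.pol_mk, hpj]
    split_ifs with h0
    · exact Submodule.zero_mem _
    · have := hg1 j
      have e : d - j - c = d - c - j := by ring
      rwa [e] at this
  · rw [NN.vec_mk]
    have e : d + 1 - c = d - c + 1 := by ring
    rwa [e] at hy1
  · rw [NN.vec_mk]
    have e : d + 1 - c = d - c + 1 := by ring
    rwa [e] at hy2
  · apply NN.ext
    · ext j
      rw [Nmap_pol, NN.pol_mk, hpj]
      split_ifs with h0
      · rw [map_zero, h0]
      · exact hg2 j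
    · rw [Nmap_vec, NN.vec_mk]
      exact Prod.ext hy1' hy2'

/-- exactness (`ψ = 0` gives surjectivity, see `Nmap_surj`) -/
theorem Nmap_exact {Z' : Type} [AddCommGroup Z'] [Module ℂ Z'] [Sl2 Z'] (φ : SHom Y Z)
    (ψ : SHom Z Z') {c : ℤ}
    (h : ∀ (d : ℤ) (z : Z), z ∈ FSl2.F d → ψ.toLinearMap z = 0 →
      ∃ y : Y, y ∈ FSl2.F (d - c) ∧ φ.toLinearMap y = z)
    {d : ℤ} {x : NN Z} (hx : x ∈ NF d) (hx0 : Nmap ψ x = 0) :
    ∃ x' : NN Y, x' ∈ NF (d - c) ∧ Nmap φ x' = x := by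
  obtain ⟨h1, h2, h3⟩ := mem_NF.1 hx
  obtain ⟨k1, k2, k3⟩ := (Nmap_eq_zero_iff ψ x).1 hx0
  exact Nmap_lift φ (fun j => h _ _ (h1 j) (k1 j)) (h _ _ h2 k2) (h _ _ h3 k3)

theorem Nmap_surj (φ : SHom Y Z) {c : ℤ}
    (h : ∀ (d : ℤ) (z : Z), z ∈ FSl2.F d → ∃ y : Y, y ∈ FSl2.F (d - c) ∧ φ.toLinearMap y = z)
    {d : ℤ} {x : NN Z} (hx : x ∈ NF d) :
    ∃ x' : NN Y, x' ∈ NF (d - c) ∧ Nmap φ x' = x := by
  obtain ⟨h1, h2, h3⟩ := mem_NF.1 hx
  exact Nmap_lift φ (fun j => h _ _ (h1 j)) (h _ _ h2) (h _ _ h3)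

end

end

end Crest.Agent.R178U
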