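import Crest.Agent.R178U.EMod

/-!
# PBW map `S → B` for an sl₂-triple in an algebra `B`

PIECE PBW.  `PBW T : S → B`, `f^a h^b e^c ↦ T.f^a * T.h^b * T.e^c`.

Proof sketch.
* `PBW_Lf`: trivial on monomials.
* `PBW_Lh`: `h f^a = f^a h - 2 a f^a` (induction on `a`); on the monomial `f^a h^b e^c`:
  `Lh = X1 * s - 2 X0 ∂₀ s`.
* `PBW_Le`: `e f^a = f^a e + a f^(a-1) h - a (a-1) f^(a-1)` (induction on `a`; e.g. in the form
  `e f^(a+1) = f^(a+1) e + (a+1) f^a h - a (a+1) f^a`) and `e q(h) = q(h-2) e`, i.e.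
  `e * h^b = (h-2)^b * e`; and `PBW (X0^a * q(X1) * X2^c) = f^a * q(h) * e^c`
  (for `q` a polynomial in one variable, or: for `s` in the image of `aeval ![.., ..]`; it may be
  convenient to prove first `PBW (X 0 * s) = f * PBW s`, `PBW (s * X 2) = PBW s * e`, and for `s` not
  involving `X 0`: `PBW (X 1 * s) = h * PBW s`).
* right versions: `s ↦ PBW (Rx s)` and `s ↦ PBW s * x` are both `L`-linear (commute with left
  multiplication, by `Lf_Rf` etc.) and agree on `1`; use `S_induction_L`.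
-/

set_option autoImplicit false

namespace Crest.Agent.R178U

open MvPolynomial

noncomputable section

/-- an sl₂-triple in an algebra -/
structure Triple (B : Type) [Ring B] [Algebra ℂ B] where
  e : B
  f : B
  h : B
  he : h * e = e * h + (2 : ℂ) • e
  hf : h * f = f * h - (2 : ℂ) • f
  ef : e * f = f * e + h

/-- image of a triple under an algebra homomorphism -/
def Triple.map {B B' : Type} [Ring B] [Algebra ℂ B] [Ring B'] [Algebra ℂ B'] (T : Triple B)
    (φ : B →ₐ[ℂ] B') : Triple B' where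
  e := φ T.e
  f := φ T.f
  h := φ T.h
  he := by rw [← map_mul, ← map_mul, T.he, map_add, map_smul]
  hf := by rw [← map_mul, ← map_mul, T.hf, map_sub, map_smul]
  ef := by rw [← map_mul, ← map_mul, T.ef, map_add]

/-- the triple of a representation -/
def repTriple (Y : Type) [AddCommGroup Y] [Module ℂ Y] [Sl2 Y] : Triple (Module.End ℂ Y) where
  e := Sl2.e
  f := Sl2.f
  h := Sl2.h
  he := by ext y; simp [Sl2.he]
  hf := by ext y; simp [Sl2.hf]
  ef := by ext y; simp [Sl2.ef]

/-- the triple of `E` -/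
def ETriple : Triple E where
  e := gen .e
  f := gen .f
  h := gen .h
  he := univ.he
  hf := univ.hf
  ef := univ.ef

/-- the PBW map -/
def PBW {B : Type} [Ring B] [Algebra ℂ B] (T : Triple B) : S →ₗ[ℂ] B :=
  (MvPolynomial.basisMonomials (Fin 3) ℂ).constr ℂ
    (fun m => T.f ^ m 0 * T.h ^ m 1 * T.e ^ m 2)

variable {B : Type} [Ring B] [Algebra ℂ B] (T : Triple B)

theorem PBW_monomial (m : Fin 3 →₀ ℕ) (c : ℂ) :
    PBW T (monomial m c) = c • (T.f ^ m 0 * T.h ^ m 1 * T.e ^ m 2) := by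
  have h1 : (monomial m c : S) = c • MvPolynomial.basisMonomials (Fin 3) ℂ m := by
    rw [MvPolynomial.coe_basisMonomials, MvPolynomial.smul_monomial, smul_eq_mul, mul_one]
  rw [h1, map_smul, PBW, Module.Basis.constr_basis]

theorem PBW_one : PBW T 1 = 1 := by
  have := PBW_monomial T 0 1
  simpa using this

namespace PBWAux

/-- the monomial `f^a h^b e^c` -/
def mon (a b c : ℕ) : S := X 0 ^ a * (X 1 ^ b * X 2 ^ c)

theorem monomial_eq_mon (m : Fin 3 →₀ ℕ) (z : ℂ) :
    (monomial m z : S) = z • mon (m 0) (m 1) (m 2) := by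
  rw [MvPolynomial.monomial_eq, MvPolynomial.smul_eq_C_mul, mon]
  congr 1
  rw [Finsupp.prod_fintype _ _ (by intro i; simp), Fin.prod_univ_three]
  ring

theorem mon_eq_monomial (a b c : ℕ) :
    mon a b c = monomial (Finsupp.equivFunOnFinite.symm ![a, b, c]) (1 : ℂ) := by
  rw [monomial_eq_mon]
  simp

theorem PBW_mon (a b c : ℕ) : PBW T (mon a b c) = T.f ^ a * (T.h ^ b * T.e ^ c) := by
  rw [mon_eq_monomial, PBW_monomial]
  simp [mul_assoc]

/-- linear maps agree when they agree on `mon` -/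
theorem ext_mon {M : Type} [AddCommGroup M] [Module ℂ M] {φ ψ : S →ₗ[ℂ] M}
    (H : ∀ a b c, φ (mon a b c) = ψ (mon a b c)) (s : S) : φ s = ψ s := by
  have : φ = ψ := by
    apply (MvPolynomial.basisMonomials (Fin 3) ℂ).ext
    intro m
    rw [MvPolynomial.coe_basisMonomials]
    beta_reduce
    rw [monomial_eq_mon, map_smul, map_smul, H]
  rw [this]

theorem d0_pow_mul (a : ℕ) (r : S) (hr : pderiv 0 r = 0) :
    pderiv 0 ((X 0 : S) ^ a * r) = (a : S) * (X 0 ^ (a - 1) * r) := by
  rw [Derivation.leibniz, hr, Derivation.leibniz_pow, pderiv_X_self]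
  simp only [smul_zero, zero_add, smul_eq_mul, nsmul_eq_mul, mul_one]
  ring

theorem d0_rest (b c : ℕ) : pderiv 0 ((X 1 : S) ^ b * X 2 ^ c) = 0 := by
  rw [Derivation.leibniz, Derivation.leibniz_pow, Derivation.leibniz_pow,
    pderiv_X_of_ne (by decide), pderiv_X_of_ne (by decide)]
  simp

theorem d0_mon (a b c : ℕ) : pderiv 0 (mon a b c) = (a : ℂ) • mon (a - 1) b c := by
  rw [mon, d0_pow_mul a _ (d0_rest b c), mon, MvPolynomial.smul_eq_C_mul, map_natCast]

theorem X0_mon (a b c : ℕ) : X 0 * mon a b c = mon (a + 1) b c := by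
  unfold mon; ring
theorem X1_mon (a b c : ℕ) : X 1 * mon a b c = mon a (b + 1) c := by
  unfold mon; ring
theorem X2_mon (a b c : ℕ) : X 2 * mon a b c = mon a b (c + 1) := by
  unfold mon; ring

theorem Lf_mon (a b c : ℕ) : Lf (mon a b c) = mon (a + 1) b c := by
  rw [Lf_apply, X0_mon]

theorem Lh_mon (a b c : ℕ) :
    Lh (mon a b c) = mon a (b + 1) c - (2 * a : ℂ) • mon a b c := by
  rw [Lh_apply, X1_mon, d0_mon, ← two_smul', mul_smul_comm, X0_mon, smul_smul]
  cases a with
  | zero => simp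
  | succ a => simp

/-- `h f^a = f^a h - 2 a f^a` -/
theorem h_fpow (a : ℕ) : T.h * T.f ^ a = T.f ^ a * T.h - (2 * a : ℂ) • T.f ^ a := by
  induction a with
  | zero => simp
  | succ a ih =>
    rw [pow_succ, ← mul_assoc, ih, sub_mul, mul_assoc, T.hf]
    simp only [mul_sub, smul_mul_assoc, mul_smul_comm, mul_assoc]
    rw [sub_sub, ← add_smul]
    congr 2
    push_cast
    ring

/-- `e f^(a+1) = f^(a+1) e + (a+1) f^a h - a (a+1) f^a` -/
theorem e_fpow (a : ℕ) : T.e * T.f ^ (a + 1) = T.f ^ (a + 1) * T.e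
    + ((a + 1 : ℂ) • (T.f ^ a * T.h) - (a * (a + 1) : ℂ) • T.f ^ a) := by
  induction a with
  | zero => simp [T.ef]
  | succ a ih =>
    rw [pow_succ T.f (a + 1), ← mul_assoc, ih]
    have h1 : T.f ^ (a + 1) * T.e * T.f = T.f ^ (a + 1) * T.f * T.e + T.f ^ (a + 1) * T.h := by
      rw [mul_assoc, T.ef, mul_add, mul_assoc]
    have h2 : T.f ^ a * T.h * T.f = T.f ^ (a + 1) * T.h - (2 : ℂ) • T.f ^ (a + 1) := by
      rw [mul_assoc, T.hf, mul_sub, ← mul_assoc, ← pow_succ, mul_smul_comm, ← pow_succ]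
    rw [add_mul, h1, sub_mul, smul_mul_assoc, smul_mul_assoc, h2, ← pow_succ T.f a]
    push_cast
    module

/-- `e q(h) = q(h - 2) e` on powers -/
theorem e_hpow (b : ℕ) : T.e * T.h ^ b = (T.h - algebraMap ℂ B 2) ^ b * T.e := by
  induction b with
  | zero => simp
  | succ b ih =>
    rw [pow_succ, ← mul_assoc, ih, mul_assoc, pow_succ, mul_assoc]
    congr 1
    rw [sub_mul, T.he, Algebra.algebraMap_eq_smul_one, smul_mul_assoc, one_mul]
    abel

/-- `PBW` on `X0^a q(X1) X2^c` -/
theorem PBW_poly (a c : ℕ) (q : Polynomial ℂ) :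
    PBW T (X 0 ^ a * (Polynomial.aeval (X 1 : S) q * X 2 ^ c)) =
      T.f ^ a * (Polynomial.aeval T.h q * T.e ^ c) := by
  induction q using Polynomial.induction_on' with
  | add p q hp hq => simp only [map_add, add_mul, mul_add, hp, hq]
  | monomial n z =>
    rw [← Polynomial.C_mul_X_pow_eq_monomial]
    simp only [map_mul, map_pow, Polynomial.aeval_X, Polynomial.aeval_C]
    have h1 : (X 0 ^ a * (algebraMap ℂ S z * X 1 ^ n * X 2 ^ c) : S) = z • mon a n c := by
      rw [mon, Algebra.algebraMap_eq_smul_one]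
      simp only [smul_mul_assoc, one_mul, mul_smul_comm]
    rw [h1, map_smul, PBW_mon, Algebra.algebraMap_eq_smul_one]
    simp only [smul_mul_assoc, one_mul, mul_smul_comm]

theorem PBW_X2_tau (a b c : ℕ) : PBW T (X 2 * tau (mon a b c)) =
    T.f ^ a * ((T.h - algebraMap ℂ B 2) ^ b * T.e ^ (c + 1)) := by
  have h1 : X 2 * tau (mon a b c) =
      X 0 ^ a * (Polynomial.aeval (X 1 : S) ((Polynomial.X - Polynomial.C (2 : ℂ)) ^ b)
        * X 2 ^ (c + 1)) := by
    unfold mon
    simp only [map_mul, map_pow, tau_X0, tau_X1, tau_X2, map_sub, Polynomial.aeval_X,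
      Polynomial.aeval_C]
    have : (algebraMap ℂ S 2 : S) = C 2 := rfl
    rw [this]
    ring
  rw [h1, PBW_poly]
  simp only [map_pow, map_sub, Polynomial.aeval_X, Polynomial.aeval_C]

end PBWAux

open PBWAux

theorem PBW_Lf (s : S) : PBW T (Lf s) = T.f * PBW T s := by
  have := ext_mon (φ := PBW T ∘ₗ Lf) (ψ := LinearMap.mulLeft ℂ T.f ∘ₗ PBW T) (by
    intro a b c
    simp only [LinearMap.comp_apply, LinearMap.mulLeft_apply]
    rw [Lf_mon, PBW_mon, PBW_mon, pow_succ', mul_assoc]) s
  exact this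

theorem PBW_Lh (s : S) : PBW T (Lh s) = T.h * PBW T s := by
  have := ext_mon (φ := PBW T ∘ₗ Lh) (ψ := LinearMap.mulLeft ℂ T.h ∘ₗ PBW T) (by
    intro a b c
    simp only [LinearMap.comp_apply, LinearMap.mulLeft_apply]
    rw [Lh_mon, map_sub, map_smul, PBW_mon, PBW_mon, ← mul_assoc T.h, h_fpow, sub_mul,
      smul_mul_assoc, pow_succ']
    simp only [mul_assoc]) s
  exact this

theorem PBW_Le (s : S) : PBW T (Le s) = T.e * PBW T s := by
  have := ext_mon (φ := PBW T ∘ₗ Le) (ψ := LinearMap.mulLeft ℂ T.e ∘ₗ PBW T) (by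
    intro a b c
    simp only [LinearMap.comp_apply, LinearMap.mulLeft_apply]
    rw [Le_apply, map_sub, map_add, PBW_X2_tau, PBW_mon]
    cases a with
    | zero =>
      rw [d0_mon]
      simp only [Nat.cast_zero, zero_smul, mul_zero, map_zero, add_zero, sub_zero, pow_zero,
        one_mul]
      rw [← mul_assoc, e_hpow, pow_succ', mul_assoc]
    | succ a =>
      rw [d0_mon, Derivation.map_smul, d0_mon]
      simp only [Nat.add_sub_cancel]
      rw [mul_smul_comm, X1_mon, mul_smul_comm, mul_smul_comm, X0_mon]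
      have h1 : (a : ℂ) • mon (a - 1 + 1) b c = (a : ℂ) • mon a b c := by
        cases a with
        | zero => simp
        | succ a => simp
      rw [h1]
      simp only [map_smul, PBW_mon]
      rw [← mul_assoc T.e, e_fpow]
      have h2 : T.f ^ (a + 1) * ((T.h - algebraMap ℂ B 2) ^ b * T.e ^ (c + 1)) =
          T.f ^ (a + 1) * T.e * (T.h ^ b * T.e ^ c) := by
        rw [mul_assoc (T.f ^ (a + 1)), ← mul_assoc T.e, e_hpow, pow_succ' T.e c, mul_assoc]
      rw [h2]
      simp only [add_mul, sub_mul, smul_mul_assoc, mul_assoc, pow_succ' T.h b, smul_smul]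
      push_cast
      module) s
  exact this

/-- `S` is generated from `1` by the operators `Lf, Lh, Le`. -/
theorem S_induction_L {p : S → Prop} (h1 : p 1) (hadd : ∀ a b, p a → p b → p (a + b))
    (hsmul : ∀ (c : ℂ) a, p a → p (c • a)) (hf : ∀ a, p a → p (Lf a)) (hh : ∀ a, p a → p (Lh a))
    (he : ∀ a, p a → p (Le a)) (s : S) : p s := by
  have hc : ∀ c : ℕ, p (mon 0 0 c) := by
    intro c
    induction c with
    | zero => simpa [mon] using h1
    | succ c ih =>
      have := he _ ih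
      have h2 : Le (mon 0 0 c) = mon 0 0 (c + 1) := by
        rw [Le_apply, d0_mon]
        simp only [Nat.cast_zero, zero_smul, map_zero, mul_zero, add_zero, sub_zero]
        unfold mon
        simp only [pow_zero, one_mul, map_pow, tau_X2]
        ring
      rwa [h2] at this
  have hb : ∀ b c : ℕ, p (mon 0 b c) := by
    intro b c
    induction b with
    | zero => exact hc c
    | succ b ih =>
      have := hh _ ih
      rw [Lh_mon] at this
      simpa using this
  have ha : ∀ a b c : ℕ, p (mon a b c) := by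
    intro a b c
    induction a with
    | zero => exact hb b c
    | succ a ih =>
      have := hf _ ih
      rwa [Lf_mon] at this
  induction s using MvPolynomial.induction_on' with
  | monomial m z => rw [monomial_eq_mon]; exact hsmul _ _ (ha _ _ _)
  | add p q hp hq => exact hadd _ _ hp hq

theorem PBW_Rf (s : S) : PBW T (Rf s) = PBW T s * T.f := by
  induction s using S_induction_L with
  | h1 =>
    rw [PBW_one, one_mul, Rf_apply]
    have : (X 0 * tau 1 + X 1 * pderiv 2 (1 : S) - X 2 * pderiv 2 (pderiv 2 (1 : S)) : S)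
        = mon 1 0 0 := by
      simp [mon]
    rw [this, PBW_mon]; simp
  | hadd a b ha hb => rw [map_add, map_add, ha, hb, map_add, add_mul]
  | hsmul c a ha => rw [map_smul, map_smul, ha, map_smul, smul_mul_assoc]
  | hf a ha => rw [← Lf_Rf, PBW_Lf, PBW_Lf, ha, mul_assoc]
  | hh a ha => rw [← Lh_Rf, PBW_Lh, PBW_Lh, ha, mul_assoc]
  | he a ha => rw [← Le_Rf, PBW_Le, PBW_Le, ha, mul_assoc]

theorem PBW_Rh (s : S) : PBW T (Rh s) = PBW T s * T.h := by
  induction s using S_induction_L with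
  | h1 =>
    rw [PBW_one, one_mul, Rh_apply]
    have : (X 1 * 1 - 2 * (X 2 * pderiv 2 (1 : S)) : S) = mon 0 1 0 := by
      simp [mon]
    rw [this, PBW_mon]; simp
  | hadd a b ha hb => rw [map_add, map_add, ha, hb, map_add, add_mul]
  | hsmul c a ha => rw [map_smul, map_smul, ha, map_smul, smul_mul_assoc]
  | hf a ha => rw [← Lf_Rh, PBW_Lf, PBW_Lf, ha, mul_assoc]
  | hh a ha => rw [← Lh_Rh, PBW_Lh, PBW_Lh, ha, mul_assoc]
  | he a ha => rw [← Le_Rh, PBW_Le, PBW_Le, ha, mul_assoc]

theorem PBW_Re (s : S) : PBW T (Re s) = PBW T s * T.e := by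
  induction s using S_induction_L with
  | h1 =>
    rw [PBW_one, one_mul, Re_apply]
    have : (X 2 * 1 : S) = mon 0 0 1 := by
      simp [mon]
    rw [this, PBW_mon]; simp
  | hadd a b ha hb => rw [map_add, map_add, ha, hb, map_add, add_mul]
  | hsmul c a ha => rw [map_smul, map_smul, ha, map_smul, smul_mul_assoc]
  | hf a ha => rw [← Lf_Re, PBW_Lf, PBW_Lf, ha, mul_assoc]
  | hh a ha => rw [← Lh_Re, PBW_Lh, PBW_Lh, ha, mul_assoc]
  | he a ha => rw [← Le_Re, PBW_Le, PBW_Le, ha, mul_assoc]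

theorem PBW_map {B' : Type} [Ring B'] [Algebra ℂ B'] (φ : B →ₐ[ℂ] B') (s : S) :
    φ (PBW T s) = PBW (T.map φ) s := by
  have := ext_mon (φ := φ.toLinearMap ∘ₗ PBW T) (ψ := PBW (T.map φ)) (by
    intro a b c
    simp only [LinearMap.comp_apply, AlgHom.toLinearMap_apply]
    rw [PBW_mon, PBW_mon, map_mul, map_mul, map_pow, map_pow, map_pow]
    rfl) s
  exact this

/-- in the regular representation `S`, `PBW s` maps `1` to `s` -/
theorem PBW_rep_one (s : S) : PBW (repTriple S) s 1 = s := by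
  induction s using S_induction_L with
  | h1 => rw [PBW_one]; rfl
  | hadd a b ha hb => rw [map_add, LinearMap.add_apply, ha, hb]
  | hsmul c a ha => rw [map_smul, LinearMap.smul_apply, ha]
  | hf a ha => rw [PBW_Lf, Module.End.mul_apply, ha]; rfl
  | hh a ha => rw [PBW_Lh, Module.End.mul_apply, ha]; rfl
  | he a ha => rw [PBW_Le, Module.End.mul_apply, ha]; rfl

end

end Crest.Agent.R178U
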