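import Mathlib

/-!
# Projective dimension bookkeeping

PIECE PD.  `ExtZ T X i` says `Ext^i(X,T) = 0`.  All statements follow from the long exact Ext
sequences of short exact sequences (`ShortComplex.ShortExact.hasProjectiveDimensionLT_X₁/X₂/X₃`,
`Abelian.Ext.contravariant_sequence_exact₁/₂/₃`) and `Ext.eq_zero_of_projective`.
Long exact sequences are cut into short ones with kernels/ranges of linear maps.
-/

set_option autoImplicit false

namespace Crest.Agent.R178U

open CategoryTheory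

noncomputable section

variable {R : Type} [Ring R]

/-- `Ext^i(X,T) = 0` -/
def ExtZ (T X : ModuleCat.{0} R) (i : ℕ) : Prop := ∀ e : Abelian.Ext X T i, e = 0

/-- projective dimension `< n` -/
abbrev PD (X : ModuleCat.{0} R) (n : ℕ) : Prop := HasProjectiveDimensionLT X n

theorem PD.extZ {T X : ModuleCat.{0} R} {n i : ℕ} (h : PD X n) (hi : n ≤ i) : ExtZ T X i :=
  fun e => e.eq_zero_of_hasProjectiveDimensionLT n hi

theorem extZ_of_projective {T P : ModuleCat.{0} R} [Module.Projective R P] {i : ℕ} (hi : 1 ≤ i) :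
    ExtZ T P i := by
  intro e
  have : Projective P := ModuleCat.projective_of_categoryTheory_projective P
  obtain ⟨j, rfl⟩ : ∃ j, i = j + 1 := ⟨i - 1, by omega⟩
  exact e.eq_zero_of_projective

theorem extZ_zero_iff {T X : ModuleCat.{0} R} : ExtZ T X 0 ↔ ∀ φ : X →ₗ[R] T, φ = 0 := by
  constructor
  · intro h φ
    have h1 : Abelian.Ext.mk₀ (ModuleCat.ofHom φ : X ⟶ T) = 0 := h _
    rw [Abelian.Ext.mk₀_eq_zero_iff] at h1
    have h2 := congrArg ModuleCat.Hom.hom h1
    exact h2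
  · intro h e
    rw [← Abelian.Ext.mk₀_homEquiv₀_apply e, Abelian.Ext.mk₀_eq_zero_iff]
    exact ModuleCat.hom_ext (h _)

namespace PDaux

/-- the short complex of two composable linear maps -/
abbrev sc {X Y Z : ModuleCat.{0} R} {f : X →ₗ[R] Y} {g : Y →ₗ[R] Z}
    (hfg : Function.Exact f g) : ShortComplex (ModuleCat.{0} R) :=
  ShortComplex.mk (X₁ := X) (X₂ := Y) (X₃ := Z) (ModuleCat.ofHom f) (ModuleCat.ofHom g)
    (ModuleCat.hom_ext (by
      ext x
      exact hfg.apply_apply_eq_zero x))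

theorem sc_shortExact {X Y Z : ModuleCat.{0} R} {f : X →ₗ[R] Y} {g : Y →ₗ[R] Z}
    (hf : Function.Injective f) (hfg : Function.Exact f g) (hg : Function.Surjective g) :
    (sc hfg).ShortExact :=
  ModuleCat.shortComplex_shortExact _ hfg hf hg

end PDaux

open PDaux

section ses

variable {X Y Z : ModuleCat.{0} R} {f : X →ₗ[R] Y} {g : Y →ₗ[R] Z}
  (hf : Function.Injective f) (hfg : Function.Exact f g) (hg : Function.Surjective g)
include hf hfg hg

theorem PD_mid {n : ℕ} (h1 : PD X n) (h3 : PD Z n) : PD Y n :=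
  (sc_shortExact hf hfg hg).hasProjectiveDimensionLT_X₂ n h1 h3

theorem PD_right {n : ℕ} (h1 : PD X n) (h2 : PD Y (n + 1)) : PD Z (n + 1) :=
  (sc_shortExact hf hfg hg).hasProjectiveDimensionLT_X₃ n h1 h2

theorem PD_left {n : ℕ} (h2 : PD Y n) (h3 : PD Z (n + 1)) : PD X n :=
  (sc_shortExact hf hfg hg).hasProjectiveDimensionLT_X₁ n h2 h3

theorem extZ_mid {T : ModuleCat.{0} R} {n : ℕ} (h1 : ExtZ T X n) (h3 : ExtZ T Z n) :
    ExtZ T Y n := by
  intro x₂
  obtain ⟨x₃, rfl⟩ := Abelian.Ext.contravariant_sequence_exact₂ (sc_shortExact hf hfg hg) _ x₂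
    (h1 _)
  rw [h3 x₃, Abelian.Ext.comp_zero]

theorem extZ_right {T : ModuleCat.{0} R} {n : ℕ} (h1 : ExtZ T X n) (h2 : ExtZ T Y (n + 1)) :
    ExtZ T Z (n + 1) := by
  intro x₃
  obtain ⟨x₁, rfl⟩ := Abelian.Ext.contravariant_sequence_exact₃ (sc_shortExact hf hfg hg) _ x₃
    (h2 _) (add_comm 1 n)
  rw [h1 x₁, Abelian.Ext.comp_zero]

theorem extZ_left {T : ModuleCat.{0} R} {n : ℕ} (h2 : ExtZ T Y n) (h3 : ExtZ T Z (n + 1)) :
    ExtZ T X n := by
  intro x₁
  obtain ⟨x₂, rfl⟩ := Abelian.Ext.contravariant_sequence_exact₁ (sc_shortExact hf hfg hg) _ x₁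
    (add_comm 1 n) (h3 _)
  rw [h2 x₂, Abelian.Ext.comp_zero]

end ses

namespace PDaux

variable {A3 A2 A1 A0 W : ModuleCat.{0} R}
  {d3 : A3 →ₗ[R] A2} {d2 : A2 →ₗ[R] A1} {d1 : A1 →ₗ[R] A0} {p : A0 →ₗ[R] W}

/-- kernel of `d1` -/
abbrev K2 : ModuleCat.{0} R := ModuleCat.of R (LinearMap.ker d1)

/-- kernel of `p` -/
abbrev K1 : ModuleCat.{0} R := ModuleCat.of R (LinearMap.ker p)

/-- `d2` corestricted to `ker d1` -/
def c2 (h1 : Function.Exact d2 d1) : A2 →ₗ[R] K2 (d1 := d1) :=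
  d2.codRestrict (LinearMap.ker d1) (fun x => h1.apply_apply_eq_zero x)

/-- `d1` corestricted to `ker p` -/
def c1 (h0 : Function.Exact d1 p) : A1 →ₗ[R] K1 (p := p) :=
  d1.codRestrict (LinearMap.ker p) (fun x => h0.apply_apply_eq_zero x)

theorem ex2 (h2 : Function.Exact d3 d2) (h1 : Function.Exact d2 d1) :
    Function.Exact d3 (c2 h1) := by
  intro x
  rw [← h2 x]
  constructor
  · intro h
    exact congrArg Subtype.val h
  · intro h
    exact Subtype.ext h

theorem surj2 (h1 : Function.Exact d2 d1) : Function.Surjective (c2 h1) := by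
  rintro ⟨x, hx⟩
  obtain ⟨y, hy⟩ := (h1 x).1 hx
  exact ⟨y, Subtype.ext hy⟩

theorem ex1 (h0 : Function.Exact d1 p) :
    Function.Exact (LinearMap.ker d1).subtype (c1 h0) := by
  intro x
  constructor
  · intro h
    exact ⟨⟨x, congrArg Subtype.val h⟩, rfl⟩
  · rintro ⟨y, rfl⟩
    exact Subtype.ext y.2

theorem surj1 (h0 : Function.Exact d1 p) : Function.Surjective (c1 h0) := by
  rintro ⟨x, hx⟩
  obtain ⟨y, hy⟩ := (h0 x).1 hx
  exact ⟨y, Subtype.ext hy⟩

theorem ex0 : Function.Exact (LinearMap.ker p).subtype p := by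
  intro x
  constructor
  · intro h
    exact ⟨⟨x, h⟩, rfl⟩
  · rintro ⟨y, rfl⟩
    exact y.2

end PDaux

section resol

variable {A3 A2 A1 A0 W : ModuleCat.{0} R}
  [Module.Projective R A3] [Module.Projective R A2] [Module.Projective R A1]
  [Module.Projective R A0]
  {d3 : A3 →ₗ[R] A2} {d2 : A2 →ₗ[R] A1} {d1 : A1 →ₗ[R] A0} {p : A0 →ₗ[R] W}
  (h3 : Function.Injective d3) (h2 : Function.Exact d3 d2) (h1 : Function.Exact d2 d1)
  (h0 : Function.Exact d1 p) (hp : Function.Surjective p)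
include h3 h2 h1 h0 hp

theorem resol_PD : PD W 4 := by
  have p3 : Projective A3 := ModuleCat.projective_of_categoryTheory_projective A3
  have p2 : Projective A2 := ModuleCat.projective_of_categoryTheory_projective A2
  have p1 : Projective A1 := ModuleCat.projective_of_categoryTheory_projective A1
  have p0 : Projective A0 := ModuleCat.projective_of_categoryTheory_projective A0
  have e3 : PD A3 1 := inferInstance
  have e2 : PD A2 1 := inferInstance
  have e2' : PD A2 2 := inferInstance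
  have e1 : PD A1 1 := inferInstance
  have e1' : PD A1 3 := hasProjectiveDimensionLT_of_ge A1 1 3 (by norm_num)
  have e0 : PD A0 1 := inferInstance
  have e0' : PD A0 4 := hasProjectiveDimensionLT_of_ge A0 1 4 (by norm_num)
  have s2 : PD (K2 (d1 := d1)) 2 :=
    PD_right (X := A3) (Y := A2) (Z := K2 (d1 := d1)) (f := d3) (g := c2 h1) h3 (ex2 h2 h1)
      (surj2 h1) e3 e2'
  have s1 : PD (K1 (p := p)) 3 :=
    PD_right (X := K2 (d1 := d1)) (Y := A1) (Z := K1 (p := p)) (f := (LinearMap.ker d1).subtype)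
      (g := c1 h0) (Submodule.subtype_injective _) (ex1 h0) (surj1 h0) s2 e1'
  exact PD_right (X := K1 (p := p)) (Y := A0) (Z := W) (f := (LinearMap.ker p).subtype)
      (g := p) (Submodule.subtype_injective _) ex0 hp s1 e0'

/-- `Hom(A3,T) = 0` implies `Ext³(W,T) = 0` -/
theorem resol_extZ {T : ModuleCat.{0} R} (hT : ∀ φ : A3 →ₗ[R] T, φ = 0) : ExtZ T W 3 := by
  have s2 : ExtZ T (K2 (d1 := d1)) 1 :=
    extZ_right (X := A3) (Y := A2) (Z := K2 (d1 := d1)) (f := d3) (g := c2 h1) h3 (ex2 h2 h1)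
      (surj2 h1) (extZ_zero_iff.2 hT) (extZ_of_projective (by norm_num))
  have s1 : ExtZ T (K1 (p := p)) 2 :=
    extZ_right (X := K2 (d1 := d1)) (Y := A1) (Z := K1 (p := p)) (f := (LinearMap.ker d1).subtype)
      (g := c1 h0) (Submodule.subtype_injective _) (ex1 h0) (surj1 h0) s2
      (extZ_of_projective (by norm_num))
  exact extZ_right (X := K1 (p := p)) (Y := A0) (Z := W) (f := (LinearMap.ker p).subtype)
      (g := p) (Submodule.subtype_injective _) ex0 hp s1 (extZ_of_projective (by norm_num))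

/-- `Hom(A2,T) = 0`, `Hom(A3,T) ≠ 0` implies `Ext³(W,T) ≠ 0` -/
theorem resol_not_extZ {T : ModuleCat.{0} R} (hT : ∀ φ : A2 →ₗ[R] T, φ = 0)
    (hT' : ∃ φ : A3 →ₗ[R] T, φ ≠ 0) : ¬ ExtZ T W 3 := by
  intro hW
  have s1 : ExtZ T (K1 (p := p)) 2 :=
    extZ_left (X := K1 (p := p)) (Y := A0) (Z := W) (f := (LinearMap.ker p).subtype)
      (g := p) (Submodule.subtype_injective _) ex0 hp (extZ_of_projective (by norm_num)) hW
  have s2 : ExtZ T (K2 (d1 := d1)) 1 :=
    extZ_left (X := K2 (d1 := d1)) (Y := A1) (Z := K1 (p := p)) (f := (LinearMap.ker d1).subtype)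
      (g := c1 h0) (Submodule.subtype_injective _) (ex1 h0) (surj1 h0)
      (extZ_of_projective (by norm_num)) s1
  have s3 : ExtZ T A3 0 :=
    extZ_left (X := A3) (Y := A2) (Z := K2 (d1 := d1)) (f := d3) (g := c2 h1) h3 (ex2 h2 h1)
      (surj2 h1) (extZ_zero_iff.2 hT) s2
  obtain ⟨φ, hφ⟩ := hT'
  exact hφ (extZ_zero_iff.1 s3 φ)

end resol

end

end Crest.Agent.R178U
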