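import Crest.Agent.R178U.PD

/-!
# Projective dimension bookkeeping: the induction

PIECE PDMAIN.
-/

set_option autoImplicit false

namespace Crest.Agent.R178U

open CategoryTheory

noncomputable section

variable {R : Type} [Ring R]

/-- The main bookkeeping.  Exact sequences
`0 → M n → W' n → W n → X n → 0` and `0 → M n → X n → M (n+1) → 0`,
`pd W n, pd W' n ≤ 3`, `M 0 = 0`, `Ext³(W 0, T) = 0 ≠ Ext³(W' 0, T)`.
Then `pd (M (n+1)) = 2n+4`.

Proof: let `I n = range (W' n → W n)`.  `0 → M n → W' n → I n → 0`, `0 → I n → W n → X n → 0`.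
Induction on `n`.  `n = 0`: `¬ExtZ (I 0) 3` (as `M 0 = 0`), `¬ExtZ (X 0) 4` (`extZ_left`),
`¬ExtZ (M 1) 4` (`extZ_mid`).  Step: `¬ExtZ (M (n+1)) (2n+4)` and `ExtZ (W' (n+1)) (2n+4)` give
`¬ExtZ (I (n+1)) (2n+5)`, then with `ExtZ (W (n+1)) (2n+5)`: `¬ExtZ (X (n+1)) (2n+6)`, then
`ExtZ (M (n+1)) (2n+6)` (from `PD (M (n+1)) (2n+5)`) gives `¬ExtZ (M (n+2)) (2n+6)`. -/
theorem unbounded (T : ModuleCat.{0} R) (M X W W' : ℕ → ModuleCat.{0} R)
    (ι : ∀ n, M n →ₗ[R] W' n) (μ : ∀ n, W' n →ₗ[R] W n) (κ : ∀ n, W n →ₗ[R] X n)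
    (j : ∀ n, M n →ₗ[R] X n) (q : ∀ n, X n →ₗ[R] M (n + 1))
    (hι : ∀ n, Function.Injective (ι n)) (hιμ : ∀ n, Function.Exact (ι n) (μ n))
    (hμκ : ∀ n, Function.Exact (μ n) (κ n)) (hκ : ∀ n, Function.Surjective (κ n))
    (hj : ∀ n, Function.Injective (j n)) (hjq : ∀ n, Function.Exact (j n) (q n))
    (hq : ∀ n, Function.Surjective (q n))
    (hW : ∀ n, PD (W n) 4) (hW' : ∀ n, PD (W' n) 4)
    (h0 : Subsingleton (M 0)) (hT : ExtZ T (W 0) 3) (hT' : ¬ ExtZ T (W' 0) 3) (n : ℕ) :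
    PD (M (n + 1)) (2 * n + 5) ∧ ¬ PD (M (n + 1)) (2 * n + 4) := by
  -- monotonicity
  have mono : ∀ (Y : ModuleCat.{0} R) (a b : ℕ), a ≤ b → PD Y a → PD Y b := by
    intro Y a b hab h
    exact hasProjectiveDimensionLT_of_ge Y a b hab
  -- the images
  let I : ℕ → ModuleCat.{0} R := fun n => ModuleCat.of R (LinearMap.range (μ n))
  let π : ∀ n, W' n →ₗ[R] I n := fun n => (μ n).rangeRestrict
  let σ : ∀ n, I n →ₗ[R] W n := fun n => (LinearMap.range (μ n)).subtype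
  have hιπ : ∀ n, Function.Exact (ι n) (π n) := by
    intro n y
    rw [← hιμ n y]
    constructor
    · intro h
      exact congrArg Subtype.val h
    · intro h
      exact Subtype.ext h
  have hπ : ∀ n, Function.Surjective (π n) := fun n => LinearMap.surjective_rangeRestrict (μ n)
  have hσ : ∀ n, Function.Injective (σ n) := fun n => Subtype.val_injective
  have hσκ : ∀ n, Function.Exact (σ n) (κ n) := by
    intro n y
    rw [hμκ n y]
    constructor
    · rintro ⟨x, rfl⟩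
      exact ⟨⟨μ n x, x, rfl⟩, rfl⟩
    · rintro ⟨⟨_, x, rfl⟩, rfl⟩
      exact ⟨x, rfl⟩
  have hM0 : ∀ k, PD (M 0) k := by
    intro k
    have : PD (M 0) 0 := (hasProjectiveDimensionLT_zero_iff_isZero _).mpr
      (ModuleCat.isZero_of_subsingleton (M 0))
    exact mono _ 0 k (Nat.zero_le _) this
  -- upper bounds
  have up : ∀ n, PD (M n) (2 * n + 3) := by
    intro n
    induction n with
    | zero => exact hM0 _
    | succ n ih =>
      have h1 : PD (I n) (2 * n + 3 + 1) :=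
        PD_right (hι n) (hιπ n) (hπ n) ih (mono _ 4 _ (by omega) (hW' n))
      have h2 : PD (X n) (2 * n + 4 + 1) :=
        PD_right (hσ n) (hσκ n) (hκ n) h1 (mono _ 4 _ (by omega) (hW n))
      have h3 : PD (M (n + 1)) (2 * n + 4 + 1) :=
        PD_right (hj n) (hjq n) (hq n) (mono _ (2 * n + 3) _ (by omega) ih) h2
      exact mono _ _ _ (by omega) h3
  -- lower bounds
  have low : ∀ n, ¬ ExtZ T (M (n + 1)) (2 * n + 4) := by
    intro n
    induction n with
    | zero =>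
      intro h
      apply hT'
      have h1 : ExtZ T (X 0) 4 := extZ_mid (hj 0) (hjq 0) (hq 0) ((hM0 4).extZ le_rfl) h
      have h2 : ExtZ T (I 0) 3 := extZ_left (hσ 0) (hσκ 0) (hκ 0) hT h1
      exact extZ_mid (hι 0) (hιπ 0) (hπ 0) ((hM0 3).extZ le_rfl) h2
    | succ n ih =>
      intro h
      apply ih
      have h0 : ExtZ T (M (n + 1)) (2 * n + 6) := (up (n + 1)).extZ (by omega)
      have h1 : ExtZ T (X (n + 1)) (2 * n + 5 + 1) :=
        extZ_mid (hj (n + 1)) (hjq (n + 1)) (hq (n + 1)) h0 h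
      have h2 : ExtZ T (I (n + 1)) (2 * n + 4 + 1) :=
        extZ_left (hσ (n + 1)) (hσκ (n + 1)) (hκ (n + 1)) ((hW (n + 1)).extZ (by omega)) h1
      exact extZ_left (hι (n + 1)) (hιπ (n + 1)) (hπ (n + 1)) ((hW' (n + 1)).extZ (by omega)) h2
  refine ⟨?_, fun h => low n (h.extZ le_rfl)⟩
  have := up (n + 1)
  exact mono _ _ _ (by omega) this

end

end Crest.Agent.R178U
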