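import Crest.Agent.R178U.EMod

/-!
# The simple modules `P_N` (polynomials in `y` of degree `< N`) and the last exact sequence

`Pn N` = polynomials of degree `< N` (dimension `N`), `= ℂ[x,y]_{N-1}` dehomogenised (`x = 1`):
`e = d/dy`, `f = (N-1) y - y² d/dy`, `h = (N-1) - 2 y d/dy`.

`dx : Pn (N+1) → Pn N`, `p ↦ N p - y p'` (this is `∂_x`), `dy : Pn (N+1) → Pn N`, `p ↦ p'`.

PIECE PN: the sorries in this file.
-/

set_option autoImplicit false
set_option linter.unusedSimpArgs false

namespace Crest.Agent.R178U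

open Polynomial

noncomputable section

/-- polynomials of degree `< N` -/
def Pn (N : ℕ) : Type := ↥(Polynomial.degreeLT ℂ N)

instance (N : ℕ) : AddCommGroup (Pn N) := inferInstanceAs (AddCommGroup ↥(Polynomial.degreeLT ℂ N))
instance (N : ℕ) : Module ℂ (Pn N) := inferInstanceAs (Module ℂ ↥(Polynomial.degreeLT ℂ N))

/-- the underlying polynomial -/
def Pn.val {N : ℕ} : Pn N →ₗ[ℂ] ℂ[X] := (Polynomial.degreeLT ℂ N).subtype

theorem Pn.val_injective {N : ℕ} : Function.Injective (Pn.val (N := N)) :=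
  Subtype.val_injective

theorem Pn.val_mem {N : ℕ} (p : Pn N) : Pn.val p ∈ Polynomial.degreeLT ℂ N := p.2

/-- constructor -/
def PNaux.mkP {N : ℕ} (p : ℂ[X]) (h : p ∈ degreeLT ℂ N) : Pn N := ⟨p, h⟩

theorem PNaux.val_mkP {N : ℕ} (p : ℂ[X]) (h : p ∈ degreeLT ℂ N) :
    Pn.val (PNaux.mkP p h) = p := rfl

/-- operators on polynomials -/
def opPe : ℂ[X] →ₗ[ℂ] ℂ[X] := Polynomial.derivative
/-- `f = n y - y² d/dy` -/
def opPf (n : ℂ) : ℂ[X] →ₗ[ℂ] ℂ[X] :=
  n • LinearMap.mulLeft ℂ X - LinearMap.mulLeft ℂ (X ^ 2) ∘ₗ Polynomial.derivative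
/-- `h = n - 2 y d/dy` -/
def opPh (n : ℂ) : ℂ[X] →ₗ[ℂ] ℂ[X] :=
  n • LinearMap.id - (2 : ℂ) • (LinearMap.mulLeft ℂ X ∘ₗ Polynomial.derivative)

theorem opPe_apply (p : ℂ[X]) : opPe p = derivative p := rfl
theorem opPf_apply (n : ℂ) (p : ℂ[X]) : opPf n p = n • (X * p) - X ^ 2 * derivative p := rfl
theorem opPh_apply (n : ℂ) (p : ℂ[X]) : opPh n p = n • p - (2 : ℂ) • (X * derivative p) := rfl

theorem PNaux.mem_iff {N : ℕ} {p : ℂ[X]} : p ∈ degreeLT ℂ N ↔ ∀ m, N ≤ m → p.coeff m = 0 := by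
  rw [mem_degreeLT, degree_lt_iff_coeff_zero]

theorem PNaux.C2 : (C (2 : ℂ) : ℂ[X]) = 2 := rfl

theorem PNaux.coeff_X_mul_derivative (p : ℂ[X]) (k : ℕ) :
    (X * derivative p).coeff k = k * p.coeff k := by
  cases k with
  | zero => simp
  | succ k =>
    rw [coeff_X_mul, coeff_derivative]
    push_cast
    ring

theorem opPe_mem {N : ℕ} {p : ℂ[X]} (hp : p ∈ degreeLT ℂ N) : opPe p ∈ degreeLT ℂ N := by
  rw [PNaux.mem_iff] at hp ⊢
  intro m hm
  rw [opPe_apply, coeff_derivative, hp (m + 1) (by lia), zero_mul]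
theorem opPf_mem {N : ℕ} {p : ℂ[X]} (hp : p ∈ degreeLT ℂ N) :
    opPf ((N : ℂ) - 1) p ∈ degreeLT ℂ N := by
  rw [PNaux.mem_iff] at hp ⊢
  intro m hm
  have e1 : opPf ((N : ℂ) - 1) p = X * (C ((N : ℂ) - 1) * p - X * derivative p) := by
    rw [opPf_apply, smul_eq_C_mul]; ring
  rw [e1]
  cases m with
  | zero => simp
  | succ m =>
    rw [coeff_X_mul, coeff_sub, coeff_C_mul, PNaux.coeff_X_mul_derivative]
    rcases Nat.eq_or_lt_of_le hm with h | h
    · rw [h]; push_cast; ring
    · rw [hp m (by lia)]; ring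
theorem opPh_mem {N : ℕ} {p : ℂ[X]} (hp : p ∈ degreeLT ℂ N) :
    opPh ((N : ℂ) - 1) p ∈ degreeLT ℂ N := by
  rw [PNaux.mem_iff] at hp ⊢
  intro m hm
  rw [opPh_apply, coeff_sub, coeff_smul, coeff_smul, PNaux.coeff_X_mul_derivative, hp m hm]
  simp

theorem PNaux.he (n : ℂ) (p : ℂ[X]) :
    opPh n (opPe p) = opPe (opPh n p) + (2 : ℂ) • opPe p := by
  simp only [opPe_apply, opPh_apply, smul_eq_C_mul, derivative_sub, derivative_mul, derivative_C,
    derivative_X]
  simp only [PNaux.C2]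
  ring

theorem PNaux.hf (n : ℂ) (p : ℂ[X]) :
    opPh n (opPf n p) = opPf n (opPh n p) - (2 : ℂ) • opPf n p := by
  simp only [opPf_apply, opPh_apply, smul_eq_C_mul, derivative_sub, derivative_mul, derivative_C,
    derivative_X, derivative_X_pow]
  push_cast
  simp only [PNaux.C2]
  ring

theorem PNaux.ef (n : ℂ) (p : ℂ[X]) :
    opPe (opPf n p) = opPf n (opPe p) + opPh n p := by
  simp only [opPe_apply, opPf_apply, opPh_apply, smul_eq_C_mul, derivative_sub, derivative_mul,
    derivative_C, derivative_X, derivative_X_pow]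
  push_cast
  simp only [PNaux.C2]
  ring

instance (N : ℕ) : Sl2 (Pn N) where
  e := LinearMap.restrict opPe (fun _ hp => opPe_mem hp)
  f := LinearMap.restrict (opPf ((N : ℂ) - 1)) (fun _ hp => opPf_mem hp)
  h := LinearMap.restrict (opPh ((N : ℂ) - 1)) (fun _ hp => opPh_mem hp)
  he y := Subtype.ext (PNaux.he _ _)
  hf y := Subtype.ext (PNaux.hf _ _)
  ef y := Subtype.ext (PNaux.ef _ _)

theorem Pn_e_val {N : ℕ} (p : Pn N) : Pn.val (Sl2.e p) = derivative (Pn.val p) := rfl
theorem Pn_f_val {N : ℕ} (p : Pn N) :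
    Pn.val (Sl2.f p) = ((N : ℂ) - 1) • (X * Pn.val p) - X ^ 2 * derivative (Pn.val p) := rfl
theorem Pn_h_val {N : ℕ} (p : Pn N) :
    Pn.val (Sl2.h p) = ((N : ℂ) - 1) • Pn.val p - (2 : ℂ) • (X * derivative (Pn.val p)) := rfl

/-- the constant filtration: everything in degrees `≥ 0`, zero in negative degrees -/
def constF (Y : Type) [AddCommGroup Y] [Module ℂ Y] (d : ℤ) : Submodule ℂ Y :=
  if 0 ≤ d then ⊤ else ⊥

instance (N : ℕ) : FSl2 (Pn N) where
  F := constF (Pn N)
  mono d := by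
    unfold constF
    by_cases h : 0 ≤ d
    · rw [if_pos (by lia : 0 ≤ d + 1)]; exact le_top
    · rw [if_neg h]; exact bot_le
  e_mem d y hy := by
    unfold constF at *
    by_cases h : 0 ≤ d
    · rw [if_pos (by lia : 0 ≤ d + 1)]; trivial
    · rw [if_neg h, Submodule.mem_bot] at hy; rw [hy, map_zero]; exact Submodule.zero_mem _
  f_mem d y hy := by
    unfold constF at *
    by_cases h : 0 ≤ d
    · rw [if_pos (by lia : 0 ≤ d + 1)]; trivial
    · rw [if_neg h, Submodule.mem_bot] at hy; rw [hy, map_zero]; exact Submodule.zero_mem _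
  h_mem d y hy := by
    unfold constF at *
    by_cases h : 0 ≤ d
    · rw [if_pos (by lia : 0 ≤ d + 1)]; trivial
    · rw [if_neg h, Submodule.mem_bot] at hy; rw [hy, map_zero]; exact Submodule.zero_mem _

theorem Pn_F {N : ℕ} (d : ℤ) : FSl2.F (Y := Pn N) d = if 0 ≤ d then ⊤ else ⊥ := rfl
theorem Pn_F_pos {N : ℕ} {d : ℤ} (h : 0 ≤ d) (y : Pn N) : y ∈ FSl2.F (Y := Pn N) d := by
  rw [Pn_F, if_pos h]; trivial
theorem Pn_F_neg {N : ℕ} {d : ℤ} (h : d < 0) {y : Pn N} (hy : y ∈ FSl2.F (Y := Pn N) d) :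
    y = 0 := by
  rw [Pn_F, if_neg (by lia)] at hy; exact hy

instance (N : ℕ) : FiniteDimensional ℂ (Pn N) :=
  Module.Finite.equiv (Polynomial.degreeLTEquiv ℂ N).symm

/-- construct a linear map into `Pn N` -/
def Pn.lift {M : Type} [AddCommGroup M] [Module ℂ M] (N : ℕ) (φ : M →ₗ[ℂ] ℂ[X])
    (h : ∀ m, φ m ∈ degreeLT ℂ N) : M →ₗ[ℂ] Pn N := LinearMap.codRestrict (degreeLT ℂ N) φ h

theorem Pn.val_lift {M : Type} [AddCommGroup M] [Module ℂ M] (N : ℕ) (φ : M →ₗ[ℂ] ℂ[X])
    (h : ∀ m, φ m ∈ degreeLT ℂ N) (m : M) : Pn.val (Pn.lift N φ h m) = φ m := rfl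

theorem dy_aux (N : ℕ) (p : Pn (N + 1)) : (derivative ∘ₗ Pn.val) p ∈ degreeLT ℂ N := by
  have hp := PNaux.mem_iff.1 (Pn.val_mem p)
  rw [PNaux.mem_iff]
  intro m hm
  rw [LinearMap.comp_apply, coeff_derivative, hp (m + 1) (by lia), zero_mul]

/-- `p ↦ N p - y p'` -/
def opDx (N : ℕ) : Pn (N + 1) →ₗ[ℂ] ℂ[X] :=
  (N : ℂ) • Pn.val - LinearMap.mulLeft ℂ X ∘ₗ derivative ∘ₗ Pn.val

theorem opDx_apply (N : ℕ) (p : Pn (N + 1)) :
    opDx N p = (N : ℂ) • Pn.val p - X * derivative (Pn.val p) := rfl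

theorem dx_aux (N : ℕ) (p : Pn (N + 1)) : opDx N p ∈ degreeLT ℂ N := by
  have hp := PNaux.mem_iff.1 (Pn.val_mem p)
  rw [PNaux.mem_iff]
  intro m hm
  rw [opDx_apply, coeff_sub, coeff_smul, PNaux.coeff_X_mul_derivative]
  rcases Nat.eq_or_lt_of_le hm with h | h
  · subst h
    rw [smul_eq_mul, sub_self]
  · rw [hp m (by lia)]; simp

theorem mx_aux (N : ℕ) (p : Pn N) : Pn.val p ∈ degreeLT ℂ (N + 1) := by
  have hp := PNaux.mem_iff.1 (Pn.val_mem p)
  rw [PNaux.mem_iff]
  intro m hm
  exact hp m (by lia)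

theorem my_aux (N : ℕ) (p : Pn N) :
    (LinearMap.mulLeft ℂ X ∘ₗ Pn.val) p ∈ degreeLT ℂ (N + 1) := by
  have hp := PNaux.mem_iff.1 (Pn.val_mem p)
  rw [PNaux.mem_iff]
  intro m hm
  rw [LinearMap.comp_apply, LinearMap.mulLeft_apply]
  cases m with
  | zero => simp
  | succ m => rw [coeff_X_mul]; exact hp m (by lia)

/-- `dy = ∂_y : Pn (N+1) → Pn N`, `p ↦ p'` -/
def dy (N : ℕ) : Pn (N + 1) →ₗ[ℂ] Pn N := Pn.lift N (derivative ∘ₗ Pn.val) (dy_aux N)

/-- `dx = ∂_x : Pn (N+1) → Pn N`, `p ↦ N p - y p'` -/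
def dx (N : ℕ) : Pn (N + 1) →ₗ[ℂ] Pn N := Pn.lift N (opDx N) (dx_aux N)

/-- inclusion `Pn N → Pn (N+1)` (multiplication by `x`) -/
def mx (N : ℕ) : Pn N →ₗ[ℂ] Pn (N + 1) := Pn.lift (N + 1) Pn.val (mx_aux N)

/-- multiplication by `y`, `Pn N → Pn (N+1)` -/
def my (N : ℕ) : Pn N →ₗ[ℂ] Pn (N + 1) :=
  Pn.lift (N + 1) (LinearMap.mulLeft ℂ X ∘ₗ Pn.val) (my_aux N)

theorem dy_val {N : ℕ} (p : Pn (N + 1)) : Pn.val (dy N p) = derivative (Pn.val p) :=
  Pn.val_lift N _ (dy_aux N) p
theorem dx_val {N : ℕ} (p : Pn (N + 1)) :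
    Pn.val (dx N p) = (N : ℂ) • Pn.val p - X * derivative (Pn.val p) :=
  (Pn.val_lift N _ (dx_aux N) p).trans (opDx_apply N p)
theorem mx_val {N : ℕ} (p : Pn N) : Pn.val (mx N p) = Pn.val p :=
  Pn.val_lift (N + 1) _ (mx_aux N) p
theorem my_val {N : ℕ} (p : Pn N) : Pn.val (my N p) = X * Pn.val p :=
  Pn.val_lift (N + 1) _ (my_aux N) p

/-! ### commutation relations (Weyl algebra relations), each checked on underlying polynomials -/

theorem dx_e {N : ℕ} (p : Pn (N + 1)) : dx N (Sl2.e p) = Sl2.e (dx N p) + dy N p := by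
  apply Pn.val_injective
  simp only [map_add, map_sub, map_smul, dx_val, dy_val, mx_val, my_val, Pn_e_val, Pn_f_val,
    Pn_h_val, Nat.cast_add, Nat.cast_one, add_sub_cancel_right, smul_eq_C_mul, map_natCast,
    map_one, derivative_sub, derivative_add, derivative_mul, derivative_X, derivative_X_pow,
    derivative_natCast, derivative_one, derivative_C, derivative_ofNat, PNaux.C2]
  try push_cast
  try simp only [PNaux.C2]
  try ring
theorem dy_e {N : ℕ} (p : Pn (N + 1)) : dy N (Sl2.e p) = Sl2.e (dy N p) := by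
  apply Pn.val_injective
  simp only [map_add, map_sub, map_smul, dx_val, dy_val, mx_val, my_val, Pn_e_val, Pn_f_val,
    Pn_h_val, Nat.cast_add, Nat.cast_one, add_sub_cancel_right, smul_eq_C_mul, map_natCast,
    map_one, derivative_sub, derivative_add, derivative_mul, derivative_X, derivative_X_pow,
    derivative_natCast, derivative_one, derivative_C, derivative_ofNat, PNaux.C2]
  try push_cast
  try simp only [PNaux.C2]
  try ring
theorem dx_f {N : ℕ} (p : Pn (N + 1)) : dx N (Sl2.f p) = Sl2.f (dx N p) := by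
  apply Pn.val_injective
  simp only [map_add, map_sub, map_smul, dx_val, dy_val, mx_val, my_val, Pn_e_val, Pn_f_val,
    Pn_h_val, Nat.cast_add, Nat.cast_one, add_sub_cancel_right, smul_eq_C_mul, map_natCast,
    map_one, derivative_sub, derivative_add, derivative_mul, derivative_X, derivative_X_pow,
    derivative_natCast, derivative_one, derivative_C, derivative_ofNat, PNaux.C2]
  try push_cast
  try simp only [PNaux.C2]
  try ring
theorem dy_f {N : ℕ} (p : Pn (N + 1)) : dy N (Sl2.f p) = Sl2.f (dy N p) + dx N p := by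
  apply Pn.val_injective
  simp only [map_add, map_sub, map_smul, dx_val, dy_val, mx_val, my_val, Pn_e_val, Pn_f_val,
    Pn_h_val, Nat.cast_add, Nat.cast_one, add_sub_cancel_right, smul_eq_C_mul, map_natCast,
    map_one, derivative_sub, derivative_add, derivative_mul, derivative_X, derivative_X_pow,
    derivative_natCast, derivative_one, derivative_C, derivative_ofNat, PNaux.C2]
  try push_cast
  try simp only [PNaux.C2]
  try ring
theorem dx_h {N : ℕ} (p : Pn (N + 1)) : dx N (Sl2.h p) = Sl2.h (dx N p) + dx N p := by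
  apply Pn.val_injective
  simp only [map_add, map_sub, map_smul, dx_val, dy_val, mx_val, my_val, Pn_e_val, Pn_f_val,
    Pn_h_val, Nat.cast_add, Nat.cast_one, add_sub_cancel_right, smul_eq_C_mul, map_natCast,
    map_one, derivative_sub, derivative_add, derivative_mul, derivative_X, derivative_X_pow,
    derivative_natCast, derivative_one, derivative_C, derivative_ofNat, PNaux.C2]
  try push_cast
  try simp only [PNaux.C2]
  try ring
theorem dy_h {N : ℕ} (p : Pn (N + 1)) : dy N (Sl2.h p) = Sl2.h (dy N p) - dy N p := by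
  apply Pn.val_injective
  simp only [map_add, map_sub, map_smul, dx_val, dy_val, mx_val, my_val, Pn_e_val, Pn_f_val,
    Pn_h_val, Nat.cast_add, Nat.cast_one, add_sub_cancel_right, smul_eq_C_mul, map_natCast,
    map_one, derivative_sub, derivative_add, derivative_mul, derivative_X, derivative_X_pow,
    derivative_natCast, derivative_one, derivative_C, derivative_ofNat, PNaux.C2]
  try push_cast
  try simp only [PNaux.C2]
  try ring
/-- the relation `v t = v h - 2 v + 2 w f` -/
theorem rel_vt {N : ℕ} (p : Pn (N + 1)) :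
    (N : ℂ) • dx N p = dx N (Sl2.h p) - (2 : ℂ) • dx N p + (2 : ℂ) • dy N (Sl2.f p) := by
  apply Pn.val_injective
  simp only [map_add, map_sub, map_smul, dx_val, dy_val, mx_val, my_val, Pn_e_val, Pn_f_val,
    Pn_h_val, Nat.cast_add, Nat.cast_one, add_sub_cancel_right, smul_eq_C_mul, map_natCast,
    map_one, derivative_sub, derivative_add, derivative_mul, derivative_X, derivative_X_pow,
    derivative_natCast, derivative_one, derivative_C, derivative_ofNat, PNaux.C2]
  try push_cast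
  try simp only [PNaux.C2]
  try ring
/-- the relation `w t = 2 v e - w h - 2 w` -/
theorem rel_wt {N : ℕ} (p : Pn (N + 1)) :
    (N : ℂ) • dy N p = (2 : ℂ) • dx N (Sl2.e p) - dy N (Sl2.h p) - (2 : ℂ) • dy N p := by
  apply Pn.val_injective
  simp only [map_add, map_sub, map_smul, dx_val, dy_val, mx_val, my_val, Pn_e_val, Pn_f_val,
    Pn_h_val, Nat.cast_add, Nat.cast_one, add_sub_cancel_right, smul_eq_C_mul, map_natCast,
    map_one, derivative_sub, derivative_add, derivative_mul, derivative_X, derivative_X_pow,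
    derivative_natCast, derivative_one, derivative_C, derivative_ofNat, PNaux.C2]
  try push_cast
  try simp only [PNaux.C2]
  try ring

theorem mx_e {N : ℕ} (p : Pn N) : Sl2.e (mx N p) = mx N (Sl2.e p) := by
  apply Pn.val_injective
  simp only [map_add, map_sub, map_smul, dx_val, dy_val, mx_val, my_val, Pn_e_val, Pn_f_val,
    Pn_h_val, Nat.cast_add, Nat.cast_one, add_sub_cancel_right, smul_eq_C_mul, map_natCast,
    map_one, derivative_sub, derivative_add, derivative_mul, derivative_X, derivative_X_pow,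
    derivative_natCast, derivative_one, derivative_C, derivative_ofNat, PNaux.C2]
  try push_cast
  try simp only [PNaux.C2]
  try ring
theorem my_e {N : ℕ} (p : Pn N) : Sl2.e (my N p) - mx N p = my N (Sl2.e p) := by
  apply Pn.val_injective
  simp only [map_add, map_sub, map_smul, dx_val, dy_val, mx_val, my_val, Pn_e_val, Pn_f_val,
    Pn_h_val, Nat.cast_add, Nat.cast_one, add_sub_cancel_right, smul_eq_C_mul, map_natCast,
    map_one, derivative_sub, derivative_add, derivative_mul, derivative_X, derivative_X_pow,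
    derivative_natCast, derivative_one, derivative_C, derivative_ofNat, PNaux.C2]
  try push_cast
  try simp only [PNaux.C2]
  try ring
theorem mx_f {N : ℕ} (p : Pn N) : Sl2.f (mx N p) - my N p = mx N (Sl2.f p) := by
  apply Pn.val_injective
  simp only [map_add, map_sub, map_smul, dx_val, dy_val, mx_val, my_val, Pn_e_val, Pn_f_val,
    Pn_h_val, Nat.cast_add, Nat.cast_one, add_sub_cancel_right, smul_eq_C_mul, map_natCast,
    map_one, derivative_sub, derivative_add, derivative_mul, derivative_X, derivative_X_pow,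
    derivative_natCast, derivative_one, derivative_C, derivative_ofNat, PNaux.C2]
  try push_cast
  try simp only [PNaux.C2]
  try ring
theorem my_f {N : ℕ} (p : Pn N) : Sl2.f (my N p) = my N (Sl2.f p) := by
  apply Pn.val_injective
  simp only [map_add, map_sub, map_smul, dx_val, dy_val, mx_val, my_val, Pn_e_val, Pn_f_val,
    Pn_h_val, Nat.cast_add, Nat.cast_one, add_sub_cancel_right, smul_eq_C_mul, map_natCast,
    map_one, derivative_sub, derivative_add, derivative_mul, derivative_X, derivative_X_pow,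
    derivative_natCast, derivative_one, derivative_C, derivative_ofNat, PNaux.C2]
  try push_cast
  try simp only [PNaux.C2]
  try ring
theorem mx_h {N : ℕ} (p : Pn N) : Sl2.h (mx N p) - mx N p = mx N (Sl2.h p) := by
  apply Pn.val_injective
  simp only [map_add, map_sub, map_smul, dx_val, dy_val, mx_val, my_val, Pn_e_val, Pn_f_val,
    Pn_h_val, Nat.cast_add, Nat.cast_one, add_sub_cancel_right, smul_eq_C_mul, map_natCast,
    map_one, derivative_sub, derivative_add, derivative_mul, derivative_X, derivative_X_pow,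
    derivative_natCast, derivative_one, derivative_C, derivative_ofNat, PNaux.C2]
  try push_cast
  try simp only [PNaux.C2]
  try ring
theorem my_h {N : ℕ} (p : Pn N) : Sl2.h (my N p) + my N p = my N (Sl2.h p) := by
  apply Pn.val_injective
  simp only [map_add, map_sub, map_smul, dx_val, dy_val, mx_val, my_val, Pn_e_val, Pn_f_val,
    Pn_h_val, Nat.cast_add, Nat.cast_one, add_sub_cancel_right, smul_eq_C_mul, map_natCast,
    map_one, derivative_sub, derivative_add, derivative_mul, derivative_X, derivative_X_pow,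
    derivative_natCast, derivative_one, derivative_C, derivative_ofNat, PNaux.C2]
  try push_cast
  try simp only [PNaux.C2]
  try ring

/-! ### kernel and cokernel of `Θ - N` on `Pn (N+1) × Pn (N+1)`

With `g = y p₁ - p₂` (a polynomial of degree `≤ N+1`) one has
`(Θ - N)(p₁, p₂) = 2 (-g', (N+1) g - y g')`. -/

/-- kernel of `Θ - N`: if `g' = 0` and `(N+1) g = y g'` then `g = 0`, so `p₂ = y p₁`. -/
theorem Th_ker {N : ℕ} (z : Pn (N + 1) × Pn (N + 1)) (h : Th (Pn (N + 1)) z = (N : ℂ) • z) :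
    ∃ q : Pn N, z = (mx N q, my N q) := by
  obtain ⟨z1, z2⟩ := z
  rw [Th_apply] at h
  have h1 := congrArg Pn.val (congrArg Prod.fst h)
  have h2 := congrArg Pn.val (congrArg Prod.snd h)
  simp only [Prod.smul_fst, Prod.smul_snd, map_add, map_sub, map_smul, Pn_e_val, Pn_f_val,
    Pn_h_val, Nat.cast_add, Nat.cast_one, add_sub_cancel_right, smul_eq_C_mul, map_natCast,
    PNaux.C2] at h1 h2
  obtain ⟨p1, hp1⟩ : ∃ p1, p1 = Pn.val z1 := ⟨_, rfl⟩
  obtain ⟨p2, hp2⟩ : ∃ p2, p2 = Pn.val z2 := ⟨_, rfl⟩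
  rw [← hp1, ← hp2] at h1 h2
  have hg' : derivative (X * p1 - p2) = 0 := by
    simp only [derivative_sub, derivative_mul, derivative_X]
    have h3 : (2 : ℂ[X]) * (1 * p1 + X * derivative p1 - derivative p2) = 0 := by
      linear_combination -h1
    exact (mul_eq_zero.1 h3).resolve_left two_ne_zero
  have hg : X * p1 - p2 = 0 := by
    have h3 : (2 : ℂ[X]) * ((N : ℂ[X]) + 1) * (X * p1 - p2) = 0 := by
      simp only [derivative_sub, derivative_mul, derivative_X] at hg'
      linear_combination h2 + 2 * X * hg'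
    refine (mul_eq_zero.1 h3).resolve_left (mul_ne_zero two_ne_zero ?_)
    exact_mod_cast Nat.succ_ne_zero N
  have hp2' : p2 = X * p1 := (sub_eq_zero.1 hg).symm
  have hm : p1 ∈ degreeLT ℂ N := by
    rw [PNaux.mem_iff]
    intro m hm
    have h3 := PNaux.mem_iff.1 (Pn.val_mem z2) (m + 1) (by lia)
    rw [← hp2, hp2', coeff_X_mul] at h3
    exact h3
  refine ⟨PNaux.mkP p1 hm, Prod.ext ?_ ?_⟩
  · apply Pn.val_injective
    rw [mx_val, PNaux.val_mkP]
    exact hp1.symm
  · apply Pn.val_injective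
    rw [my_val, PNaux.val_mkP, ← hp2', hp2]

theorem Th_ker' {N : ℕ} (q : Pn N) :
    Th (Pn (N + 1)) (mx N q, my N q) = (N : ℂ) • (mx N q, my N q) := by
  rw [Th_apply]
  refine Prod.ext ?_ ?_
  · apply Pn.val_injective
    simp only [Prod.smul_fst, Prod.smul_snd, map_add, map_sub, map_smul, Pn_e_val, Pn_f_val,
      Pn_h_val, Nat.cast_add, Nat.cast_one, add_sub_cancel_right, smul_eq_C_mul, map_natCast,
      PNaux.C2, mx_val, my_val, derivative_sub, derivative_mul, derivative_X]
    ring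
  · apply Pn.val_injective
    simp only [Prod.smul_fst, Prod.smul_snd, map_add, map_sub, map_smul, Pn_e_val, Pn_f_val,
      Pn_h_val, Nat.cast_add, Nat.cast_one, add_sub_cancel_right, smul_eq_C_mul, map_natCast,
      PNaux.C2, mx_val, my_val, derivative_sub, derivative_mul, derivative_X]
    ring

theorem mx_injective (N : ℕ) : Function.Injective (mx N) := by
  intro p q h
  apply Pn.val_injective
  rw [← mx_val p, ← mx_val q, h]

/-- image of `Θ - N`: take `g = (z₂ - y z₁)/(N+1)` (up to the factor `2`) and write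
`g = y p₁ - p₂` with `p₁, p₂` of degree `≤ N`. -/
theorem Th_coker {N : ℕ} (z : Pn (N + 1) × Pn (N + 1)) (h : dx N z.1 + dy N z.2 = 0) :
    ∃ z' : Pn (N + 1) × Pn (N + 1), Th (Pn (N + 1)) z' - (N : ℂ) • z' = z := by
  obtain ⟨z1, z2⟩ := z
  have h' := congrArg Pn.val h
  simp only [map_add, dx_val, dy_val, map_zero, smul_eq_C_mul, map_natCast] at h'
  set q1 := Pn.val z1 with hq1
  set q2 := Pn.val z2 with hq2
  -- the polynomial `g`
  set c : ℂ := (2 * ((N : ℂ) + 1))⁻¹ with hc
  have hN : ((N : ℂ) + 1) ≠ 0 := by exact_mod_cast Nat.succ_ne_zero N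
  have hcc : C c * (2 * ((N : ℂ[X]) + 1)) = 1 := by
    have : (2 * ((N : ℂ[X]) + 1)) = C (2 * ((N : ℂ) + 1)) := by
      rw [C_mul, C_add, C_1, C_eq_natCast, PNaux.C2]
    rw [this, ← C_mul, hc, inv_mul_cancel₀ (mul_ne_zero two_ne_zero hN), C_1]
  set g : ℂ[X] := C c * (q2 - X * q1) with hg
  have hg1 : (2 : ℂ[X]) * derivative g = - q1 := by
    simp only [hg, derivative_mul, derivative_C, derivative_sub, derivative_X]
    linear_combination (2 * C c) * h' - q1 * hcc
  have hg2 : (2 : ℂ[X]) * (((N : ℂ[X]) + 1) * g - X * derivative g) = q2 := by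
    have : (2 : ℂ[X]) * (((N : ℂ[X]) + 1) * g - X * derivative g) =
      (C c * (2 * ((N : ℂ[X]) + 1))) * (q2 - X * q1) - X * (2 * derivative g) := by
      rw [hg]; ring
    rw [this, hcc, hg1]
    ring
  -- write `g = y p₁ - p₂`
  have hgd : ∀ m, N + 1 ≤ m → g.divX.coeff m = 0 := by
    intro m hm
    rw [coeff_divX, hg, coeff_C_mul, coeff_sub, coeff_X_mul,
      PNaux.mem_iff.1 (Pn.val_mem z1) m hm, PNaux.mem_iff.1 (Pn.val_mem z2) (m + 1) (by lia)]
    simp
  have hp1 : g.divX ∈ degreeLT ℂ (N + 1) := PNaux.mem_iff.2 hgd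
  have hp2 : -(C (g.coeff 0)) ∈ degreeLT ℂ (N + 1) := by
    rw [PNaux.mem_iff]
    intro m hm
    rw [coeff_neg, coeff_C, if_neg (by lia), neg_zero]
  have hdiv : X * g.divX + C (g.coeff 0) = g := by
    rw [mul_comm]; exact divX_mul_X_add g
  set P1 : Pn (N + 1) := PNaux.mkP g.divX hp1 with hP1
  set P2 : Pn (N + 1) := PNaux.mkP (-(C (g.coeff 0))) hp2 with hP2
  have v1 : Pn.val P1 = g.divX := rfl
  have v2 : Pn.val P2 = -(C (g.coeff 0)) := rfl
  have hgg : g = X * Pn.val P1 - Pn.val P2 := by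
    rw [v1, v2, sub_neg_eq_add, hdiv]
  refine ⟨(P1, P2), ?_⟩
  rw [Th_apply]
  refine Prod.ext ?_ ?_
  · apply Pn.val_injective
    simp only [Prod.fst_sub, Prod.smul_fst, Prod.smul_snd, map_add, map_sub, map_smul, Pn_e_val,
      Pn_f_val,
      Pn_h_val, Nat.cast_add, Nat.cast_one, add_sub_cancel_right, smul_eq_C_mul, map_natCast,
      PNaux.C2]
    rw [hgg] at hg1
    simp only [derivative_mul, derivative_sub, derivative_X] at hg1
    linear_combination -hg1
  · apply Pn.val_injective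
    simp only [Prod.snd_sub, Prod.smul_fst, Prod.smul_snd, map_add, map_sub, map_smul, Pn_e_val,
      Pn_f_val,
      Pn_h_val, Nat.cast_add, Nat.cast_one, add_sub_cancel_right, smul_eq_C_mul, map_natCast,
      PNaux.C2]
    rw [hgg] at hg2
    simp only [derivative_mul, derivative_sub, derivative_X] at hg2
    linear_combination hg2

theorem Th_coker' {N : ℕ} (z : Pn (N + 1) × Pn (N + 1)) :
    dx N (Th (Pn (N + 1)) z).1 + dy N (Th (Pn (N + 1)) z).2 =
      (N : ℂ) • (dx N z.1 + dy N z.2) := by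
  rw [Th_apply]
  apply Pn.val_injective
  simp only [map_add, map_sub, map_smul, dx_val, dy_val, mx_val, my_val, Pn_e_val, Pn_f_val,
    Pn_h_val, Nat.cast_add, Nat.cast_one, add_sub_cancel_right, smul_eq_C_mul, map_natCast,
    map_one, derivative_sub, derivative_add, derivative_mul, derivative_X, derivative_X_pow,
    derivative_natCast, derivative_one, derivative_C, derivative_ofNat, PNaux.C2]
  try push_cast
  try simp only [PNaux.C2]
  ring

/-- surjectivity: integrate (`z₁ = 0`) -/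
theorem dxdy_surj {N : ℕ} (q : Pn N) : ∃ z : Pn (N + 1), dy N z = q := by
  set P : ℂ[X] := ∑ k ∈ Finset.range N, monomial (k + 1) ((Pn.val q).coeff k / ((k : ℂ) + 1))
    with hP
  have hc : ∀ m, P.coeff (m + 1) = if m < N then (Pn.val q).coeff m / ((m : ℂ) + 1) else 0 := by
    intro m
    rw [hP, finsetSum_coeff]
    simp only [coeff_monomial, add_left_inj]
    rw [Finset.sum_ite_eq']
    simp only [Finset.mem_range]
  have hm : P ∈ degreeLT ℂ (N + 1) := by
    rw [PNaux.mem_iff]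
    intro m hm
    obtain ⟨k, rfl⟩ : ∃ k, m = k + 1 := ⟨m - 1, by lia⟩
    rw [hc, if_neg (by lia)]
  refine ⟨PNaux.mkP P hm, ?_⟩
  apply Pn.val_injective
  rw [dy_val]
  change derivative P = Pn.val q
  ext m
  rw [coeff_derivative, hc]
  split_ifs with h
  · have : ((m : ℂ) + 1) ≠ 0 := by exact_mod_cast Nat.succ_ne_zero m
    field_simp
  · rw [zero_mul, PNaux.mem_iff.1 (Pn.val_mem q) m (by lia)]

end

end Crest.Agent.R178U
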