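import Crest.Agent.R178U.AAlg
import Crest.Agent.R178U.Nmap

/-!
# Projectivity of the modules `col (NNF S) a`, `a = 0..4`, and of finite products

PIECE PROJ.
* `proj_S`: `A → col (NNF S) a`, `B ↦ (fun i => ev (B i a))` is `A`-linear, surjective and has the
  `A`-linear section `y ↦` matrix with column `a` equal to `fun i => theta (y i)` and other columns
  zero (`ev_theta`, `theta_smul`, `theta_mem_EF`); use `Module.Projective.of_split`.
* `proj_pi`: `col (NNF (K → Y)) a ≃ (K → col (NNF Y) a)` as `A`-modules, and finite products of
  projective modules are projective.  (The `E`-linear maps between `NN (K → Y)` and `NN Y` can be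
  obtained with `Nmap`; or directly with `ELin`.)  It is enough to give `A`-linear maps
  `col (NNF (K → Y)) a → (K → col (NNF Y) a)` and back with composition `id` on the first
  (`Module.Projective.of_split`).
-/

set_option autoImplicit false

namespace Crest.Agent.R178U

noncomputable section

/-! ### projectivity -/

theorem proj_S (a : Fin 5) : Module.Projective A ((NNF S).col (iz a)) := by
  let ι : (NNF S).col (iz a) →ₗ[A] A :=
    { toFun := fun y => mkA (fun i j => if j = a then theta (y.1 i) else 0) (fun i j => by
        by_cases h : j = a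
        · subst h
          rw [if_pos rfl]
          exact theta_mem_EF (y.2 i)
        · rw [if_neg h]
          exact Submodule.zero_mem _)
      map_add' := fun y z => by
        apply A_ext
        intro i j
        rw [ent_add, ent_mkA, ent_mkA, ent_mkA]
        by_cases h : j = a
        · rw [if_pos h, if_pos h, if_pos h]
          exact map_add theta _ _
        · rw [if_neg h, if_neg h, if_neg h, add_zero]
      map_smul' := fun C y => by
        apply A_ext
        intro i j
        rw [RingHom.id_apply, smul_eq_mul, ent_mul, ent_mkA]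
        simp only [ent_mkA]
        by_cases h : j = a
        · simp only [if_pos h]
          have h1 : (C • y).1 i = ∑ k, ent C i k • y.1 k := Col_smul_apply C y.1 i
          rw [h1]
          exact (map_sum theta _ _).trans (Finset.sum_congr rfl fun k _ => theta_smul _ _)
        · simp only [if_neg h, mul_zero, Finset.sum_const_zero] }
  let σ : A →ₗ[A] (NNF S).col (iz a) :=
    { toFun := fun B => ⟨fun i => ev (ent B i a), fun i => ent_mem B i a⟩
      map_add' := fun B C => by
        apply Subtype.ext
        funext i
        exact map_add ev _ _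
      map_smul' := fun C B => by
        apply Subtype.ext
        funext i
        show ev (ent (C * B) i a) = ∑ k, ent C i k • ev (ent B k a)
        rw [ent_mul, map_sum]
        exact Finset.sum_congr rfl fun k _ => ev_mul _ _ }
  refine Module.Projective.of_split ι σ ?_
  apply LinearMap.ext
  intro y
  apply Subtype.ext
  funext i
  show ev (ent (mkA _ _) i a) = y.1 i
  rw [ent_mkA, if_pos rfl]
  exact ev_theta _

/-- projection of a product of representations -/
def projHom (K Y : Type) [AddCommGroup Y] [Module ℂ Y] [Sl2 Y] (k : K) : SHom (K → Y) Y where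
  toLinearMap := LinearMap.proj k
  map_e _ := rfl
  map_f _ := rfl
  map_h _ := rfl

/-- inclusion of a factor of a product of representations -/
def singleHom (K Y : Type) [DecidableEq K] [AddCommGroup Y] [Module ℂ Y] [Sl2 Y] (k : K) :
    SHom Y (K → Y) where
  toLinearMap := LinearMap.single ℂ (fun _ => Y) k
  map_e y := by
    funext k'
    rw [pi_e_apply]
    by_cases h : k' = k
    · subst h; simp
    · simp [h]
  map_f y := by
    funext k'
    rw [pi_f_apply]
    by_cases h : k' = k
    · subst h; simp
    · simp [h]
  map_h y := by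
    funext k'
    rw [pi_h_apply]
    by_cases h : k' = k
    · subst h; simp
    · simp [h]

theorem Nmap_sum_single_proj {Y K : Type} [AddCommGroup Y] [Module ℂ Y] [Sl2 Y] [Fintype K]
    [DecidableEq K] (x : NN (K → Y)) :
    ∑ k, Nmap (singleHom K Y k) (Nmap (projHom K Y k) x) = x := by
  apply NN.ext
  · ext1 j
    rw [map_sum, Finsupp.finsetSum_apply]
    have h3 : ∀ k, NN.pol (Nmap (singleHom K Y k) (Nmap (projHom K Y k) x)) j =
        Pi.single k (NN.pol x j k) := by
      intro k
      rw [Nmap_pol, Nmap_pol]
      rfl
    simp only [h3]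
    exact Finset.univ_sum_single _
  · rw [map_sum]
    have h3 : ∀ k, NN.vec (Nmap (singleHom K Y k) (Nmap (projHom K Y k) x)) =
        (Pi.single k ((NN.vec x).1 k), Pi.single k ((NN.vec x).2 k)) := by
      intro k
      rw [Nmap_vec, Nmap_vec]
      rfl
    simp only [h3]
    apply Prod.ext
    · rw [Prod.fst_sum]
      exact Finset.univ_sum_single _
    · rw [Prod.snd_sum]
      exact Finset.univ_sum_single _

theorem proj_pi {Y K : Type} [AddCommGroup Y] [Module ℂ Y] [Sl2 Y] [FSl2 Y] [Finite K] (a : ℤ)
    (h : Module.Projective A ((NNF Y).col a)) :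
    Module.Projective A ((NNF (K → Y)).col a) := by
  classical
  have : Fintype K := Fintype.ofFinite K
  have hp : ∀ (k : K) (d : ℤ) (x : NN (K → Y)), x ∈ NF d → Nmap (projHom K Y k) x ∈ NF (Y := Y) d := by
    intro k d x hx
    have := Nmap_mem (projHom K Y k) (c := 0) (fun d y hy => by
      rw [add_zero]
      exact mem_piF.1 hy k) hx
    rwa [add_zero] at this
  have hs : ∀ (k : K) (d : ℤ) (x : NN Y), x ∈ NF d → Nmap (singleHom K Y k) x ∈ NF (Y := K → Y) d := by
    intro k d x hx
    have := Nmap_mem (singleHom K Y k) (c := 0) (fun d y hy => by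
      rw [add_zero]
      refine mem_piF.2 fun k' => ?_
      show LinearMap.single ℂ (fun _ => Y) k y k' ∈ _
      by_cases h : k' = k
      · subst h; simpa using hy
      · simp [h]) hx
    rwa [add_zero] at this
  let ι : (NNF (K → Y)).col a →ₗ[A] (K → (NNF Y).col a) :=
    LinearMap.pi fun k => colMap (X := NNF (K → Y)) (Z := NNF Y) (Nmap (projHom K Y k))
      (fun i x hx => hp k _ x hx)
  let σ : (K → (NNF Y).col a) →ₗ[A] (NNF (K → Y)).col a :=
    ∑ k, (colMap (X := NNF Y) (Z := NNF (K → Y)) (Nmap (singleHom K Y k))
      (fun i x hx => hs k _ x hx)) ∘ₗ LinearMap.proj k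
  have hproj : Module.Projective A (K → (NNF Y).col a) :=
    Module.Projective.of_equiv' (M := Π₀ _ : K, (NNF Y).col a)
      (DFinsupp.linearEquivFunOnFintype (R := A))
  refine Module.Projective.of_split ι σ ?_
  apply LinearMap.ext
  intro y
  apply Subtype.ext
  funext i
  have h1 : ((σ ∘ₗ ι) y).1 i = ∑ k, Nmap (singleHom K Y k) (Nmap (projHom K Y k) (y.1 i)) := by
    have h2 : (σ ∘ₗ ι) y = ∑ k, (colMap (X := NNF Y) (Z := NNF (K → Y)) (Nmap (singleHom K Y k))
      (fun i x hx => hs k _ x hx)) (ι y k) := by
      simp only [σ, LinearMap.comp_apply, LinearMap.sum_apply, LinearMap.proj_apply]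
    rw [h2, Submodule.coe_sum]
    exact Finset.sum_apply i _ _
  rw [h1]
  exact Nmap_sum_single_proj (y.1 i)

end

end Crest.Agent.R178U
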