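import Crest.Agent.R178U.CE

/-!
# The augmentation `(J → S) → M` of the Chevalley–Eilenberg complex

PIECE REP.  `b : Basis J ℂ M`, `π s = ∑ j, (PBW s_j) • b_j`.
* `map_e` etc.: `PBW_Le` etc. for `repTriple M`.
* `pi_D1`: `PBW_Re` etc.: `π (δe s) = ∑ PBW(s_j) (e b_j) - ∑_j ∑_i ρe i j PBW(s_i) b_j = 0`.
* `pi_exact`: `exact0` gives `s = D1 x + const c`, and `0 = π s = ∑ c_j b_j`, so `c = 0`.
-/

set_option autoImplicit false

namespace Crest.Agent.R178U

open MvPolynomial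

noncomputable section

variable {M : Type} [AddCommGroup M] [Module ℂ M] [Sl2 M] {J : Type} [Fintype J]
  (b : Module.Basis J ℂ M)

omit [Sl2 M] in
theorem repmat_mul (φ ψ : M →ₗ[ℂ] M) (i j : J) :
    ∑ k, b.repr (φ (b i)) k * b.repr (ψ (b k)) j = b.repr (ψ (φ (b i))) j := by
  have h1 : ψ (φ (b i)) = ∑ k, b.repr (φ (b i)) k • ψ (b k) := by
    conv_lhs => rw [← b.sum_repr (φ (b i)), map_sum]
    simp only [map_smul]
  rw [h1, map_sum, Finsupp.finsetSum_apply]
  refine Finset.sum_congr rfl fun k _ => ?_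
  rw [map_smul, Finsupp.smul_apply, smul_eq_mul]

/-- matrices of a representation in a basis: `x • b i = ∑ j, ρx i j • b j` -/
def rmat : RMat J where
  e := fun i j => b.repr (Sl2.e (b i)) j
  f := fun i j => b.repr (Sl2.f (b i)) j
  h := fun i j => b.repr (Sl2.h (b i)) j
  he := by
    ext i j
    show ∑ k, b.repr (Sl2.e (b i)) k * b.repr (Sl2.h (b k)) j =
      (∑ k, b.repr (Sl2.h (b i)) k * b.repr (Sl2.e (b k)) j) + (2 : ℂ) * b.repr (Sl2.e (b i)) j
    rw [repmat_mul b Sl2.e Sl2.h, repmat_mul b Sl2.h Sl2.e, Sl2.he, map_add, map_smul]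
    rfl
  hf := by
    ext i j
    show ∑ k, b.repr (Sl2.f (b i)) k * b.repr (Sl2.h (b k)) j =
      (∑ k, b.repr (Sl2.h (b i)) k * b.repr (Sl2.f (b k)) j) - (2 : ℂ) * b.repr (Sl2.f (b i)) j
    rw [repmat_mul b Sl2.f Sl2.h, repmat_mul b Sl2.h Sl2.f, Sl2.hf, map_sub, map_smul]
    rfl
  ef := by
    ext i j
    show ∑ k, b.repr (Sl2.f (b i)) k * b.repr (Sl2.e (b k)) j =
      (∑ k, b.repr (Sl2.e (b i)) k * b.repr (Sl2.f (b k)) j) + b.repr (Sl2.h (b i)) j
    rw [repmat_mul b Sl2.f Sl2.e, repmat_mul b Sl2.e Sl2.f, Sl2.ef, map_add]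
    rfl

/-- the augmentation -/
def piLin : (J → S) →ₗ[ℂ] M :=
  ∑ j, (LinearMap.applyₗ (b j) : Module.End ℂ M →ₗ[ℂ] M) ∘ₗ PBW (repTriple M) ∘ₗ
    (LinearMap.proj j : (J → S) →ₗ[ℂ] S)

theorem piLin_apply (s : J → S) : piLin b s = ∑ j, PBW (repTriple M) (s j) (b j) := by
  simp [piLin, LinearMap.sum_apply]

/-- the augmentation as homomorphism of representations -/
def piHom : SHom (J → S) M where
  toLinearMap := piLin b
  map_e := by
    intro y
    rw [piLin_apply, piLin_apply, map_sum]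
    refine Finset.sum_congr rfl fun j _ => ?_
    rw [pi_e_apply]
    have h := PBW_Le (repTriple M) (y j)
    exact congrArg (fun φ : Module.End ℂ M => φ (b j)) h
  map_f := by
    intro y
    rw [piLin_apply, piLin_apply, map_sum]
    refine Finset.sum_congr rfl fun j _ => ?_
    rw [pi_f_apply]
    have h := PBW_Lf (repTriple M) (y j)
    exact congrArg (fun φ : Module.End ℂ M => φ (b j)) h
  map_h := by
    intro y
    rw [piLin_apply, piLin_apply, map_sum]
    refine Finset.sum_congr rfl fun j _ => ?_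
    rw [pi_h_apply]
    have h := PBW_Lh (repTriple M) (y j)
    exact congrArg (fun φ : Module.End ℂ M => φ (b j)) h

theorem pi_twist {R : S →ₗ[ℂ] S} {φ : M →ₗ[ℂ] M}
    (hR : ∀ (s : S) (m : M), PBW (repTriple M) (R s) m = PBW (repTriple M) s (φ m))
    (A : Matrix J J ℂ) (hA : ∀ i j, A i j = b.repr (φ (b i)) j)
    (s : J → S) : piLin b (twist R A s) = 0 := by
  rw [piLin_apply]
  simp only [twist_apply, map_sub, map_sum, map_smul, LinearMap.sub_apply, LinearMap.sum_apply,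
    LinearMap.smul_apply, hR, Finset.sum_sub_distrib, hA]
  rw [sub_eq_zero, Finset.sum_comm]
  refine Finset.sum_congr rfl fun i _ => ?_
  conv_lhs => rw [← b.sum_repr (φ (b i)), map_sum]
  simp only [map_smul]

theorem pi_D1 (x : Fin 3 → J → S) : piLin b (D1 (rmat b) x) = 0 := by
  rw [D1_apply, map_add, map_add]
  have h1 : piLin b (de (rmat b) (x 0)) = 0 :=
    pi_twist b (R := Re) (φ := Sl2.e) (fun s m => by rw [PBW_Re]; rfl) _ (fun _ _ => rfl) (x 0)
  have h2 : piLin b (df (rmat b) (x 1)) = 0 :=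
    pi_twist b (R := Rf) (φ := Sl2.f) (fun s m => by rw [PBW_Rf]; rfl) _ (fun _ _ => rfl) (x 1)
  have h3 : piLin b (dh (rmat b) (x 2)) = 0 :=
    pi_twist b (R := Rh) (φ := Sl2.h) (fun s m => by rw [PBW_Rh]; rfl) _ (fun _ _ => rfl) (x 2)
  rw [h1, h2, h3, add_zero, add_zero]

theorem pi_const (c : J → ℂ) : piLin b (fun j => (C (c j) : S)) = ∑ j, c j • b j := by
  rw [piLin_apply]
  refine Finset.sum_congr rfl fun j _ => ?_
  have h : (C (c j) : S) = c j • (1 : S) := by rw [MvPolynomial.smul_eq_C_mul, mul_one]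
  rw [h, map_smul, PBW_one]
  rfl

theorem pi_exact {d : ℤ} {s : J → S} (hs : s ∈ FSl2.F d) (h : piLin b s = 0) :
    ∃ x : Fin 3 → J → S, x ∈ FSl2.F (d - 1) ∧ D1 (rmat b) x = s := by
  obtain ⟨x, c, hx, hs'⟩ := exact0 (rmat b) hs
  refine ⟨x, hx, ?_⟩
  rw [hs', map_add, pi_D1, zero_add, pi_const] at h
  have hc : ∀ j, c j = 0 := Fintype.linearIndependent_iff.1 b.linearIndependent c h
  rw [hs']
  have h0 : (fun j => (C (c j) : S)) = 0 := by
    funext j
    rw [hc j, map_zero]; rfl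
  rw [h0, add_zero]

theorem pi_surj (m : M) {d : ℤ} (hd : 0 ≤ d) :
    ∃ s : J → S, s ∈ FSl2.F (Y := J → S) d ∧ piLin b s = m := by
  refine ⟨fun j => C (b.repr m j), ?_, ?_⟩
  · rw [mem_piF]
    intro j
    exact C_mem_SF hd _
  · rw [pi_const, b.sum_repr]

end

end Crest.Agent.R178U
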