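import Crest.Agent.R178U.Seq

/-!
# Exactness of
`0 → Inf N --ι--> NN (Pn (N+1)) --μ--> NN (Pn (N+1)) --κ--> XN N → 0` (filtered)
and `0 → Inf N --jm--> XN N --qm--> Inf (N+1) → 0`.

PIECE SEQEX.  On the polynomial part synthetic division by `t - N` (if `shift p = N p` then
`p = 0`: look at the top coefficient; if `∑ N^j p_j = 0` then `p = shift p' - N p'` with
`p'_j = ∑_{i>j} N^(i-j-1) p_i`); `p ∈ NF d` means that `p_j = 0` for `j > d` (the filtration of
`Pn` is constant: `Pn_F`); on the other part `Th_ker`, `Th_ker'`, `Th_coker`, `Th_coker'`,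
`dxdy_surj`, `mx_injective` of `Pn.lean`.
-/

set_option autoImplicit false

namespace Crest.Agent.R178U

noncomputable section

namespace SeqExaux

variable {Y : Type} [AddCommGroup Y] [Module ℂ Y]

theorem shift_zero (p : ℕ →₀ Y) : shift Y p 0 = 0 := by
  rw [shift, Finsupp.lmapDomain_apply]
  exact Finsupp.mapDomain_of_notMem_range _ _ (by simp)

theorem shift_succ (p : ℕ →₀ Y) (j : ℕ) : shift Y p (j + 1) = p j := by
  rw [shift, Finsupp.lmapDomain_apply]
  exact Finsupp.mapDomain_apply Nat.succ_injective _ _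

theorem shift_single' (j : ℕ) (y : Y) :
    shift Y (Finsupp.single j y) = Finsupp.single (j + 1) y := by simp [shift]

theorem shift_ker (c : ℂ) (p : ℕ →₀ Y) (h : shift Y p - c • p = 0) : p = 0 := by
  by_contra hp
  have hne : p.support.Nonempty := Finsupp.support_nonempty_iff.2 hp
  set J := p.support.max' hne with hJ
  have h1 : p J ≠ 0 := Finsupp.mem_support_iff.1 (Finset.max'_mem _ hne)
  have h2 : p (J + 1) = 0 := by
    by_contra h3
    have := Finset.le_max' _ _ (Finsupp.mem_support_iff.2 h3)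
    omega
  have h3 := DFunLike.congr_fun h (J + 1)
  rw [Finsupp.sub_apply, Finsupp.smul_apply, shift_succ, h2, smul_zero, sub_zero] at h3
  exact h1 h3

theorem evalAt_single (c : ℂ) (j : ℕ) (y : Y) :
    evalAt Y c (Finsupp.single j y) = c ^ j • y := by
  rw [evalAt, Finsupp.lsum_single]; rfl

theorem evalAt_shift (c : ℂ) (p : ℕ →₀ Y) : evalAt Y c (shift Y p) = c • evalAt Y c p := by
  induction p using Finsupp.induction_linear with
  | zero => simp
  | add p q hp hq => rw [map_add, map_add, map_add, hp, hq, smul_add]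
  | single j y => rw [shift_single', evalAt_single, evalAt_single, pow_succ', mul_smul]

theorem synth (c : ℂ) (n : ℕ) : ∀ p : ℕ →₀ Y, (∀ j, n < j → p j = 0) →
    ∃ p' : ℕ →₀ Y, (∀ j, n ≤ j → p' j = 0) ∧
      shift Y p' - c • p' = p - Finsupp.single 0 (evalAt Y c p) := by
  induction n with
  | zero =>
    intro p hp
    refine ⟨0, fun _ _ => rfl, ?_⟩
    have h1 : p = Finsupp.single 0 (p 0) := by
      ext j
      cases j with
      | zero => simp
      | succ j => rw [hp (j + 1) (by omega), Finsupp.single_apply, if_neg (by omega)]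
    have h2 : evalAt Y c p = p 0 := by
      rw [h1, evalAt_single]
      simp
    rw [h2, map_zero, smul_zero, sub_zero, ← h1, sub_self]
  | succ n ih =>
    intro p hp
    obtain ⟨p'', h1, h2⟩ := ih (p - Finsupp.single (n + 1) (p (n + 1)) +
      Finsupp.single n (c • p (n + 1))) (by
        intro j hj
        rw [Finsupp.add_apply, Finsupp.sub_apply, Finsupp.single_apply, Finsupp.single_apply,
          if_neg (by omega : ¬ n = j), add_zero]
        by_cases h : n + 1 = j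
        · rw [if_pos h, h, sub_self]
        · rw [if_neg h, sub_zero, hp j (by omega)])
    refine ⟨p'' + Finsupp.single n (p (n + 1)), ?_, ?_⟩
    · intro j hj
      rw [Finsupp.add_apply, h1 j (by omega), Finsupp.single_apply, if_neg (by omega), add_zero]
    · have h3 : evalAt Y c (p - Finsupp.single (n + 1) (p (n + 1)) +
          Finsupp.single n (c • p (n + 1))) = evalAt Y c p := by
        rw [map_add, map_sub, evalAt_single, evalAt_single, smul_smul, ← pow_succ]
        abel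
      rw [h3] at h2
      rw [map_add, shift_single', smul_add, Finsupp.smul_single]
      calc shift Y p'' + Finsupp.single (n + 1) (p (n + 1)) -
            (c • p'' + Finsupp.single n (c • p (n + 1)))
          = (shift Y p'' - c • p'') + Finsupp.single (n + 1) (p (n + 1)) -
            Finsupp.single n (c • p (n + 1)) := by abel
        _ = _ := by rw [h2]; abel

theorem kappa_apply {N : ℕ} (p : ℕ →₀ Pn (N + 1)) (z : Pn (N + 1) × Pn (N + 1)) :
    kappa N (NN.mk p z) =
      ((evalAt (Pn (N + 1)) (N : ℂ) p, dx N z.1 + dy N z.2) : Pn (N + 1) × Pn N) := rfl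

theorem jm_apply {N : ℕ} (q : Inf N) : jm N q = ((0, q) : Pn (N + 1) × Pn N) := rfl

theorem qm_apply {N : ℕ} (y : Pn (N + 1) × Pn N) : qm N (y : XN N) = (y.1 : Pn (N + 1)) := rfl

end SeqExaux

open SeqExaux

/-! ### exactness -/

theorem iota_inj (N : ℕ) (q : Inf N) (h : iota N q = 0) : q = 0 := by
  rw [iota_apply] at h
  have h1 := congrArg Prod.fst (congrArg NN.vec h)
  rw [NN.vec_mk] at h1
  have h2 : mx N q = mx N 0 := by rw [map_zero]; exact h1
  exact mx_injective N h2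

theorem mu_iota (N : ℕ) (q : Inf N) : mu (Pn (N + 1)) (N : ℂ) (iota N q) = 0 := by
  have h1 : Th (Pn (N + 1)) (mx N q, my N q) - (N : ℂ) • (mx N q, my N q) = 0 :=
    sub_eq_zero.2 (Th_ker' q)
  have h2 : shift (Pn (N + 1)) 0 - (N : ℂ) • (0 : ℕ →₀ Pn (N + 1)) = 0 := by
    rw [map_zero, smul_zero, sub_zero]
  rw [iota_apply, mu_mk]
  exact NN.ext h2 h1

theorem mu_ker (N : ℕ) (x : NN (Pn (N + 1))) (h : mu (Pn (N + 1)) (N : ℂ) x = 0) :
    ∃ q : Inf N, iota N q = x := by
  rw [← NN.mk_pol_vec x, mu_mk] at h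
  have h1 := congrArg NN.pol h
  have h2 := congrArg NN.vec h
  rw [NN.pol_mk, map_zero] at h1
  rw [NN.vec_mk, map_zero] at h2
  have h3 := shift_ker _ _ h1
  obtain ⟨q, hq⟩ := Th_ker (NN.vec x) (sub_eq_zero.1 h2)
  refine ⟨q, ?_⟩
  change NN.mk 0 (mx N q, my N q) = x
  refine NN.ext ?_ ?_
  · rw [NN.pol_mk, h3]
  · rw [NN.vec_mk]; exact hq.symm

theorem iota_mem (N : ℕ) (q : Inf N) {d : ℤ} (hd : -1 ≤ d) : iota N q ∈ NF d := by
  rw [iota_apply, mem_NF]
  refine ⟨fun j => ?_, Pn_F_pos (by omega) _, Pn_F_pos (by omega) _⟩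
  rw [NN.pol_mk]
  exact Submodule.zero_mem _

theorem mu_mem (N : ℕ) (x : NN (Pn (N + 1))) {d : ℤ} (hx : x ∈ NF (d - 1)) :
    mu (Pn (N + 1)) (N : ℂ) x ∈ NF d := by
  obtain ⟨h1, h2, h3⟩ := mem_NF.1 hx
  rw [← NN.mk_pol_vec x, mu_mk, mem_NF]
  refine ⟨fun j => ?_, ?_⟩
  · rw [NN.pol_mk]
    by_cases hj : 0 ≤ d - j
    · exact Pn_F_pos hj _
    · have e1 : NN.pol x j = 0 := Pn_F_neg (by omega) (h1 j)
      have e2 : shift (Pn (N + 1)) (NN.pol x) j = 0 := by
        cases j with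
        | zero => exact shift_zero _
        | succ j =>
          rw [shift_succ]
          exact Pn_F_neg (by push_cast at hj; omega) (h1 j)
      rw [Finsupp.sub_apply, Finsupp.smul_apply, e1, e2, smul_zero, sub_zero]
      exact Submodule.zero_mem _
  · rw [NN.vec_mk]
    by_cases hd : 0 ≤ d + 1
    · exact ⟨Pn_F_pos hd _, Pn_F_pos hd _⟩
    · have e1 : (NN.vec x).1 = 0 := Pn_F_neg (by omega) h2
      have e2 : (NN.vec x).2 = 0 := Pn_F_neg (by omega) h3
      have e3 : NN.vec x = 0 := Prod.ext e1 e2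
      rw [e3, map_zero, smul_zero, sub_zero]
      exact ⟨Submodule.zero_mem _, Submodule.zero_mem _⟩

theorem kappa_mu (N : ℕ) (x : NN (Pn (N + 1))) : kappa N (mu (Pn (N + 1)) (N : ℂ) x) = 0 := by
  rw [← NN.mk_pol_vec x, mu_mk, kappa_apply]
  refine Prod.ext ?_ ?_
  · change evalAt (Pn (N + 1)) (N : ℂ) _ = 0
    rw [map_sub, map_smul, evalAt_shift, sub_self]
  · change dx N _ + dy N _ = 0
    rw [Prod.fst_sub, Prod.snd_sub, Prod.smul_fst, Prod.smul_snd, map_sub, map_sub, map_smul,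
      map_smul]
    have h := Th_coker' (N := N) (NN.vec x)
    rw [smul_add] at h
    calc dx N (Th (Pn (N + 1)) (NN.vec x)).1 - (N : ℂ) • dx N (NN.vec x).1 +
          (dy N (Th (Pn (N + 1)) (NN.vec x)).2 - (N : ℂ) • dy N (NN.vec x).2)
        = dx N (Th (Pn (N + 1)) (NN.vec x)).1 + dy N (Th (Pn (N + 1)) (NN.vec x)).2 -
          ((N : ℂ) • dx N (NN.vec x).1 + (N : ℂ) • dy N (NN.vec x).2) := by abel
      _ = 0 := by rw [h, sub_self]

theorem kappa_ker (N : ℕ) (x : NN (Pn (N + 1))) {d : ℤ} (hd : 0 ≤ d) (hx : x ∈ NF d)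
    (h : kappa N x = 0) :
    ∃ x' : NN (Pn (N + 1)), x' ∈ NF (d - 1) ∧ mu (Pn (N + 1)) (N : ℂ) x' = x := by
  obtain ⟨h1, -, -⟩ := mem_NF.1 hx
  rw [← NN.mk_pol_vec x, kappa_apply] at h
  have e1 : evalAt (Pn (N + 1)) (N : ℂ) (NN.pol x) = 0 := congrArg Prod.fst h
  have e2 : dx N (NN.vec x).1 + dy N (NN.vec x).2 = 0 := congrArg Prod.snd h
  obtain ⟨z', hz'⟩ := Th_coker (NN.vec x) e2
  obtain ⟨p', hp1, hp2⟩ := synth (N : ℂ) d.toNat (NN.pol x) (by
    intro j hj
    exact Pn_F_neg (by omega) (h1 j))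
  rw [e1, Finsupp.single_zero, sub_zero] at hp2
  refine ⟨NN.mk p' z', ?_, ?_⟩
  · rw [mem_NF]
    refine ⟨fun j => ?_, Pn_F_pos (by omega) _, Pn_F_pos (by omega) _⟩
    rw [NN.pol_mk]
    by_cases hj : 0 ≤ d - 1 - j
    · exact Pn_F_pos hj _
    · rw [hp1 j (by omega)]
      exact Submodule.zero_mem _
  · rw [mu_mk, hp2, hz']
    exact NN.mk_pol_vec x

theorem kappa_surj (N : ℕ) (y : XN N) {d : ℤ} (hd : 0 ≤ d) :
    ∃ x : NN (Pn (N + 1)), x ∈ NF d ∧ kappa N x = y := by
  obtain ⟨y1, y2⟩ := (y : Pn (N + 1) × Pn N)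
  obtain ⟨z, hz⟩ := dxdy_surj y2
  refine ⟨NN.mk (Finsupp.single 0 y1) (0, z), ?_, ?_⟩
  · rw [mem_NF]
    refine ⟨fun j => ?_, Pn_F_pos (by omega) _, Pn_F_pos (by omega) _⟩
    rw [NN.pol_mk]
    cases j with
    | zero => exact Pn_F_pos (by push_cast; omega) _
    | succ j =>
      rw [Finsupp.single_apply, if_neg (by omega)]
      exact Submodule.zero_mem _
  · rw [kappa_apply, evalAt_single, pow_zero, one_smul, map_zero, zero_add, hz]

theorem jm_inj (N : ℕ) (q : Inf N) (h : jm N q = 0) : q = 0 := by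
  rw [jm_apply] at h
  exact congrArg Prod.snd h

theorem qm_jm (N : ℕ) (q : Inf N) : qm N (jm N q) = 0 := rfl

theorem qm_ker (N : ℕ) (y : XN N) (h : qm N y = 0) : ∃ q : Inf N, jm N q = y := by
  obtain ⟨y1, y2⟩ := (y : Pn (N + 1) × Pn N)
  have h1 : y1 = 0 := h
  refine ⟨(y2 : Pn N), ?_⟩
  rw [h1]
  rfl

theorem qm_surj (N : ℕ) (p : Inf (N + 1)) : ∃ y : XN N, qm N y = p :=
  ⟨((p, 0) : Pn (N + 1) × Pn N), rfl⟩

end

end Crest.Agent.R178U
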