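import Crest.Agent.R178U.HomT
import Crest.Agent.R178U.Rep
import Crest.Agent.R178U.SeqEx
import Crest.Agent.R178U.PDMain

/-!
# Resolution of `W_a = col (NNF (Pn (n+1))) a` for `a = 0, 1`
-/

set_option autoImplicit false

namespace Crest.Agent.R178U

noncomputable section

open CategoryTheory

theorem projS' {a : ℤ} (h0 : 0 ≤ a) (h4 : a ≤ 4) : Module.Projective A ((NNF S).col a) := by
  obtain ⟨k, rfl⟩ := Int.eq_ofNat_of_zero_le h0
  have hk : k < 5 := by omega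
  exact proj_S ⟨k, hk⟩

theorem homS' {a : ℤ} (h0 : 0 ≤ a) (h4 : a < 4) (φ : (NNF S).col a →ₗ[A] triv.col 4) : φ = 0 := by
  obtain ⟨k, rfl⟩ := Int.eq_ofNat_of_zero_le h0
  have hk : k < 5 := by omega
  refine hom_zero_S ⟨k, hk⟩ ?_ φ
  intro h
  have := congrArg Fin.val h
  simp at this
  omega

/-- basis of `Pn (n+1)` -/
def bP (n : ℕ) : Module.Basis (Fin (n + 1)) ℂ (Pn (n + 1)) :=
  Module.Basis.ofEquivFun (Polynomial.degreeLTEquiv ℂ (n + 1))

section
variable (n : ℕ)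

theorem D3col (a : ℤ) (i : Fin 5) (x : NN (Fin (n + 1) → S)) (hx : x ∈ NF (iz i - (a + 3))) :
    Nmap (D3hom (rmat (bP n))) x ∈ NF (iz i - (a + 2)) := by
  have := Nmap_mem (D3hom (rmat (bP n))) (c := 1) (fun d y hy => D3_mem _ hy) hx
  rwa [show iz i - (a + 3) + 1 = iz i - (a + 2) by ring] at this

theorem D2col (a : ℤ) (i : Fin 5) (x : NN (Fin 3 → Fin (n + 1) → S))
    (hx : x ∈ NF (iz i - (a + 2))) :
    Nmap (D2hom (rmat (bP n))) x ∈ NF (iz i - (a + 1)) := by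
  have := Nmap_mem (D2hom (rmat (bP n))) (c := 1) (fun d y hy => D2_mem _ hy) hx
  rwa [show iz i - (a + 2) + 1 = iz i - (a + 1) by ring] at this

theorem D1col (a : ℤ) (i : Fin 5) (x : NN (Fin 3 → Fin (n + 1) → S))
    (hx : x ∈ NF (iz i - (a + 1))) :
    Nmap (D1hom (rmat (bP n))) x ∈ NF (iz i - a) := by
  have := Nmap_mem (D1hom (rmat (bP n))) (c := 1) (fun d y hy => D1_mem _ hy) hx
  rwa [show iz i - (a + 1) + 1 = iz i - a by ring] at this

theorem piCol (a : ℤ) (i : Fin 5) (x : NN (Fin (n + 1) → S)) (hx : x ∈ NF (iz i - a)) :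
    Nmap (piHom (bP n)) x ∈ NF (iz i - a) := by
  have := Nmap_mem (piHom (bP n)) (c := 0) (fun d y hy => ?_) hx
  · rwa [add_zero] at this
  · rw [add_zero]
    by_cases hd : 0 ≤ d
    · exact Pn_F_pos hd _
    · have hy0 : y = 0 := by
        funext j
        exact SF_neg (by omega) (mem_piF.1 hy j)
      rw [hy0, map_zero]; exact Submodule.zero_mem _

theorem Nmap_comp_zero {Y Z V : Type} [AddCommGroup Y] [Module ℂ Y] [Sl2 Y] [AddCommGroup Z]
    [Module ℂ Z] [Sl2 Z] [AddCommGroup V] [Module ℂ V] [Sl2 V] (φ : SHom Y Z) (ψ : SHom Z V)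
    (h : ∀ y, ψ.toLinearMap (φ.toLinearMap y) = 0) (x : NN Y) : Nmap ψ (Nmap φ x) = 0 := by
  rw [Nmap_eq_zero_iff]
  refine ⟨fun j => ?_, ?_, ?_⟩
  · rw [Nmap_pol]; exact h _
  · rw [Nmap_vec]; exact h _
  · rw [Nmap_vec]; exact h _

variable {n}

/-- the maps of the resolution -/
def r3 (n : ℕ) (a : ℤ) : (NNF (Fin (n + 1) → S)).col (a + 3) →ₗ[A]
    (NNF (Fin 3 → Fin (n + 1) → S)).col (a + 2) :=
  colMap (X := NNF (Fin (n + 1) → S)) (Z := NNF (Fin 3 → Fin (n + 1) → S))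
    (Nmap (D3hom (rmat (bP n)))) (D3col n a)

def r2 (n : ℕ) (a : ℤ) : (NNF (Fin 3 → Fin (n + 1) → S)).col (a + 2) →ₗ[A]
    (NNF (Fin 3 → Fin (n + 1) → S)).col (a + 1) :=
  colMap (X := NNF (Fin 3 → Fin (n + 1) → S)) (Z := NNF (Fin 3 → Fin (n + 1) → S))
    (Nmap (D2hom (rmat (bP n)))) (D2col n a)

def r1 (n : ℕ) (a : ℤ) : (NNF (Fin 3 → Fin (n + 1) → S)).col (a + 1) →ₗ[A]
    (NNF (Fin (n + 1) → S)).col a :=
  colMap (X := NNF (Fin 3 → Fin (n + 1) → S)) (Z := NNF (Fin (n + 1) → S))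
    (Nmap (D1hom (rmat (bP n)))) (D1col n a)

def r0 (n : ℕ) (a : ℤ) : (NNF (Fin (n + 1) → S)).col a →ₗ[A]
    (NNF (Pn (n + 1))).col a :=
  colMap (X := NNF (Fin (n + 1) → S)) (Z := NNF (Pn (n + 1)))
    (Nmap (piHom (bP n))) (piCol n a)

theorem r3_inj (a : ℤ) : Function.Injective (r3 n a) := by
  apply colMap_injective
  intro i x _ hx
  refine Nmap_injective (D3hom (rmat (bP n))) (fun y hy => exact3 _ hy) ?_
  exact hx.trans (map_zero (Nmap (D3hom (rmat (bP n))))).symm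

theorem r32 (a : ℤ) : Function.Exact (r3 n a) (r2 n a) := by
  apply colMap_exact
  · intro x
    exact Nmap_comp_zero _ _ (fun y => D2_D3 _ y) x
  · intro i z hz hz0
    obtain ⟨x, hx, hxz⟩ := Nmap_exact (D3hom (rmat (bP n))) (D2hom (rmat (bP n))) (c := 1)
      (fun d z hz hz0 => exact2 _ hz hz0) hz hz0
    refine ⟨x, ?_, hxz⟩
    rwa [show iz i - (a + 2) - 1 = iz i - (a + 3) by ring] at hx

theorem r21 (a : ℤ) : Function.Exact (r2 n a) (r1 n a) := by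
  apply colMap_exact
  · intro x
    exact Nmap_comp_zero _ _ (fun y => D1_D2 _ y) x
  · intro i z hz hz0
    obtain ⟨x, hx, hxz⟩ := Nmap_exact (D2hom (rmat (bP n))) (D1hom (rmat (bP n))) (c := 1)
      (fun d z hz hz0 => exact1 _ hz hz0) hz hz0
    refine ⟨x, ?_, hxz⟩
    rwa [show iz i - (a + 1) - 1 = iz i - (a + 2) by ring] at hx

theorem r10 (a : ℤ) : Function.Exact (r1 n a) (r0 n a) := by
  apply colMap_exact
  · intro x
    exact Nmap_comp_zero _ _ (fun y => pi_D1 _ y) x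
  · intro i z hz hz0
    obtain ⟨x, hx, hxz⟩ := Nmap_exact (D1hom (rmat (bP n))) (piHom (bP n)) (c := 1)
      (fun d z hz hz0 => pi_exact _ hz hz0) hz hz0
    refine ⟨x, ?_, hxz⟩
    rwa [show iz i - a - 1 = iz i - (a + 1) by ring] at hx

theorem r0_surj (a : ℤ) : Function.Surjective (r0 n a) := by
  apply colMap_surjective
  intro i z hz
  have hs : ∀ (d : ℤ) (m : Pn (n + 1)), m ∈ FSl2.F d →
      ∃ y : Fin (n + 1) → S, y ∈ FSl2.F (d - 0) ∧ (piHom (bP n)).toLinearMap y = m := by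
    intro d m hm
    rw [sub_zero]
    by_cases hd : 0 ≤ d
    · exact pi_surj _ m hd
    · have hm0 : m = 0 := Pn_F_neg (by omega) hm
      exact ⟨0, Submodule.zero_mem _, by rw [map_zero, hm0]⟩
  obtain ⟨x, hx, hxz⟩ := Nmap_surj (piHom (bP n)) (c := 0) hs hz
  refine ⟨x, ?_, hxz⟩
  rwa [sub_zero] at hx

end

/-- `W n a` -/
abbrev Wm (n : ℕ) (a : ℤ) : ModuleCat.{0} A := ModuleCat.of A ((NNF (Pn (n + 1))).col a)

theorem projJ {J : Type} [Finite J] {a : ℤ} (h0 : 0 ≤ a) (h4 : a ≤ 4) :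
    Module.Projective A ((NNF (J → S)).col a) := proj_pi a (projS' h0 h4)

theorem proj3J {J : Type} [Finite J] {a : ℤ} (h0 : 0 ≤ a) (h4 : a ≤ 4) :
    Module.Projective A ((NNF (Fin 3 → J → S)).col a) := proj_pi a (projJ h0 h4)

theorem W_PD (n : ℕ) {a : ℤ} (h0 : 0 ≤ a) (h1 : a ≤ 1) : PD (Wm n a) 4 := by
  have p3 := projJ (J := Fin (n + 1)) (a := a + 3) (by omega) (by omega)
  have p2 := proj3J (J := Fin (n + 1)) (a := a + 2) (by omega) (by omega)
  have p1 := proj3J (J := Fin (n + 1)) (a := a + 1) (by omega) (by omega)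
  have p0 := projJ (J := Fin (n + 1)) (a := a) (by omega) (by omega)
  exact resol_PD (A3 := ModuleCat.of A ((NNF (Fin (n + 1) → S)).col (a + 3)))
    (A2 := ModuleCat.of A ((NNF (Fin 3 → Fin (n + 1) → S)).col (a + 2)))
    (A1 := ModuleCat.of A ((NNF (Fin 3 → Fin (n + 1) → S)).col (a + 1)))
    (A0 := ModuleCat.of A ((NNF (Fin (n + 1) → S)).col a))
    (W := Wm n a)
    (d3 := r3 n a) (d2 := r2 n a) (d1 := r1 n a) (p := r0 n a)
    (r3_inj a) (r32 a) (r21 a) (r10 a) (r0_surj a)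

/-- the simple module -/
abbrev Tm : ModuleCat.{0} A := ModuleCat.of A (triv.col 4)

theorem W0_extZ (n : ℕ) : ExtZ Tm (Wm n 0) 3 := by
  have p3 := projJ (J := Fin (n + 1)) (a := 0 + 3) (by omega) (by omega)
  have p2 := proj3J (J := Fin (n + 1)) (a := 0 + 2) (by omega) (by omega)
  have p1 := proj3J (J := Fin (n + 1)) (a := 0 + 1) (by omega) (by omega)
  have p0 := projJ (J := Fin (n + 1)) (a := 0) (by omega) (by omega)
  refine resol_extZ (A3 := ModuleCat.of A ((NNF (Fin (n + 1) → S)).col (0 + 3)))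
    (A2 := ModuleCat.of A ((NNF (Fin 3 → Fin (n + 1) → S)).col (0 + 2)))
    (A1 := ModuleCat.of A ((NNF (Fin 3 → Fin (n + 1) → S)).col (0 + 1)))
    (A0 := ModuleCat.of A ((NNF (Fin (n + 1) → S)).col 0))
    (W := Wm n 0)
    (d3 := r3 n 0) (d2 := r2 n 0) (d1 := r1 n 0) (p := r0 n 0)
    (r3_inj 0) (r32 0) (r21 0) (r10 0) (r0_surj 0) ?_
  exact hom_zero_pi _ (fun φ => homS' (by omega) (by omega) φ)

theorem W1_not_extZ (n : ℕ) : ¬ ExtZ Tm (Wm n 1) 3 := by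
  have p3 := projJ (J := Fin (n + 1)) (a := 1 + 3) (by omega) (by omega)
  have p2 := proj3J (J := Fin (n + 1)) (a := 1 + 2) (by omega) (by omega)
  have p1 := proj3J (J := Fin (n + 1)) (a := 1 + 1) (by omega) (by omega)
  have p0 := projJ (J := Fin (n + 1)) (a := 1) (by omega) (by omega)
  refine resol_not_extZ (A3 := ModuleCat.of A ((NNF (Fin (n + 1) → S)).col (1 + 3)))
    (A2 := ModuleCat.of A ((NNF (Fin 3 → Fin (n + 1) → S)).col (1 + 2)))
    (A1 := ModuleCat.of A ((NNF (Fin 3 → Fin (n + 1) → S)).col (1 + 1)))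
    (A0 := ModuleCat.of A ((NNF (Fin (n + 1) → S)).col 1))
    (W := Wm n 1)
    (d3 := r3 n 1) (d2 := r2 n 1) (d1 := r1 n 1) (p := r0 n 1)
    (r3_inj 1) (r32 1) (r21 1) (r10 1) (r0_surj 1) ?_ ?_
  · exact hom_zero_pi _ (fun φ => hom_zero_pi _ (fun φ => homS' (by omega) (by omega) φ) φ)
  · exact hom_ne (Fin (n + 1))

end

end Crest.Agent.R178U
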