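import Crest.Agent.R178U.PBW

/-!
# The degree filtration of `S`

PIECE SFILT.  `SF d` = polynomials all of whose monomials have total degree `≤ d` (`d : ℤ`).
All statements are elementary facts on degrees of polynomials: `tau s - s` has smaller degree
than `s` (check on monomials: `(h-2)^b - h^b` has degree `< b`), derivatives lower the degree.
Suggestion: reduce every statement to monomials (`SF d` is spanned by monomials
`monomial m 1`, `m.degree ≤ d`), e.g. `Submodule.span_induction` or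
`s = ∑ m ∈ s.support, monomial m (coeff m s)`.
-/

set_option autoImplicit false

namespace Crest.Agent.R178U

open MvPolynomial

noncomputable section

theorem SF_mono {d d' : ℤ} (h : d ≤ d') : SF d ≤ SF d' := by
  intro s hs
  rw [mem_SF] at hs ⊢
  exact fun m hm => (hs m hm).trans h

theorem SF_neg {d : ℤ} (hd : d < 0) {s : S} (hs : s ∈ SF d) : s = 0 := by
  rw [mem_SF] at hs
  rw [← MvPolynomial.support_eq_empty, Finset.eq_empty_iff_forall_notMem]
  intro m hm
  have := hs m hm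
  omega

theorem SF_zero {s : S} (hs : s ∈ SF 0) : ∃ c : ℂ, s = C c := by
  rw [mem_SF] at hs
  refine ⟨coeff 0 s, ?_⟩
  ext m
  rw [coeff_C]
  split_ifs with h
  · rw [← h]
  · by_contra hne
    have h1 := hs m (by rw [mem_support_iff]; exact hne)
    have h2 : m.degree = 0 := by omega
    exact h ((Finsupp.degree_eq_zero_iff m).1 h2).symm

theorem C_mem_SF {d : ℤ} (hd : 0 ≤ d) (c : ℂ) : (C c : S) ∈ SF d := by
  rw [mem_SF]
  intro m hm
  rw [mem_support_iff, coeff_C] at hm
  have h : m = 0 := by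
    by_contra hne
    exact hm (if_neg (fun h => hne h.symm))
  rw [h]
  simpa using hd

theorem SF_finite (d : ℤ) : FiniteDimensional ℂ (SF d) := by
  have hfin : {m : Fin 3 →₀ ℕ | (m.degree : ℤ) ≤ d}.Finite := by
    refine (Finsupp.finite_of_degree_le (σ := Fin 3) d.toNat).subset ?_
    intro m hm
    simp only [Set.mem_ofPred_eq] at hm ⊢
    omega
  have : Finite {m : Fin 3 →₀ ℕ | (m.degree : ℤ) ≤ d} := hfin
  exact Module.Finite.of_basis (basisRestrictSupport ℂ {m : Fin 3 →₀ ℕ | (m.degree : ℤ) ≤ d})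

theorem monomial_mem_SF {d : ℤ} (m : Fin 3 →₀ ℕ) (c : ℂ) (h : (m.degree : ℤ) ≤ d) :
    (monomial m c : S) ∈ SF d := by
  rw [mem_SF]
  intro m' hm'
  rw [mem_support_iff, coeff_monomial] at hm'
  have : m = m' := by
    by_contra hne
    exact hm' (if_neg hne)
  rw [← this]
  exact h

/-- A linear map raising the degree of monomials by at most `k` maps `SF d` to `SF (d + k)`. -/
theorem lin_mem (φ : S →ₗ[ℂ] S) (k : ℤ)
    (h : ∀ m : Fin 3 →₀ ℕ, φ (monomial m 1) ∈ SF ((m.degree : ℤ) + k)) {d : ℤ} {s : S}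
    (hs : s ∈ SF d) : φ s ∈ SF (d + k) := by
  rw [mem_SF] at hs
  rw [as_sum s, map_sum]
  refine Submodule.sum_mem _ fun m hm => ?_
  have h1 : (monomial m (coeff m s) : S) = coeff m s • monomial m 1 := by
    rw [smul_monomial, smul_eq_mul, mul_one]
  rw [h1, map_smul]
  exact Submodule.smul_mem _ _ (SF_mono (by have := hs m hm; omega) (h m))

theorem X_mul_mem (i : Fin 3) {d : ℤ} {s : S} (hs : s ∈ SF d) : X i * s ∈ SF (d + 1) := by
  refine lin_mem (mulS (X i)) 1 (fun m => ?_) hs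
  show (X i : S) * monomial m 1 ∈ _
  rw [X, monomial_mul, one_mul]
  refine monomial_mem_SF _ _ ?_
  rw [map_add, Finsupp.degree_single]
  push_cast
  omega

theorem pderiv_mem (i : Fin 3) {d : ℤ} {s : S} (hs : s ∈ SF d) : pderiv i s ∈ SF (d - 1) := by
  refine lin_mem (dS i) (-1) (fun m => ?_) hs
  show pderiv i (monomial m 1 : S) ∈ _
  rw [pderiv_monomial]
  rcases Nat.eq_zero_or_pos (m i) with h0 | h0
  · rw [h0]
    simp
  · refine monomial_mem_SF _ _ ?_
    have h1 : m - Finsupp.single i 1 + Finsupp.single i 1 = m := by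
      apply tsub_add_cancel_of_le
      rw [Finsupp.single_le_iff]
      exact h0
    have h2 : (m - Finsupp.single i 1).degree + 1 = m.degree := by
      conv_rhs => rw [← h1, map_add, Finsupp.degree_single]
    omega

theorem tau_sub_aux (i : Fin 3) : tau (X i) - X i ∈ SF 0 := by
  fin_cases i
  · simp
  · have : (-(C 2) : S) ∈ SF 0 := Submodule.neg_mem _ (C_mem_SF le_rfl 2)
    simpa using this
  · simp

theorem mul_mem_SF_zero {a b : S} {d : ℤ} (ha : a ∈ SF 0) (hb : b ∈ SF d) : a * b ∈ SF d := by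
  obtain ⟨c, rfl⟩ := SF_zero ha
  rw [← smul_eq_C_mul]
  exact Submodule.smul_mem _ _ hb

theorem tau_sub_monomial (n : ℕ) : ∀ m : Fin 3 →₀ ℕ, m.degree = n →
    tau (monomial m 1) - monomial m 1 ∈ SF ((m.degree : ℤ) - 1) := by
  induction n with
  | zero =>
    intro m hm
    have : m = 0 := (Finsupp.degree_eq_zero_iff m).1 hm
    subst this
    have h1 : (monomial (0 : Fin 3 →₀ ℕ) (1 : ℂ) : S) = 1 := rfl
    rw [h1, map_one, sub_self]
    exact Submodule.zero_mem _
  | succ n ih =>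
    intro m hm
    have hne : m ≠ 0 := by
      rintro rfl
      simp at hm
    obtain ⟨i, hi⟩ := Finsupp.ne_iff.1 hne
    have h0 : 0 < m i := Nat.pos_of_ne_zero hi
    have h1 : m - Finsupp.single i 1 + Finsupp.single i 1 = m := by
      apply tsub_add_cancel_of_le
      rw [Finsupp.single_le_iff]
      exact h0
    have h2 : (m - Finsupp.single i 1).degree = n := by
      have : (m - Finsupp.single i 1).degree + 1 = m.degree := by
        conv_rhs => rw [← h1, map_add, Finsupp.degree_single]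
      omega
    have h3 := ih _ h2
    set m' := m - Finsupp.single i 1 with hm'
    have h4 : (monomial m 1 : S) = X i * monomial m' 1 := by
      rw [X, monomial_mul, one_mul, add_comm, h1]
    have hp : (monomial m' 1 : S) ∈ SF (n : ℤ) := monomial_mem_SF _ _ (by rw [h2])
    have hd : (m.degree : ℤ) - 1 = n := by omega
    rw [hd, h4, map_mul]
    rw [h2] at h3
    have h5 : tau (X i) * tau (monomial m' 1) - X i * monomial m' 1 =
        X i * (tau (monomial m' 1) - monomial m' 1) +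
        (tau (X i) - X i) * ((tau (monomial m' 1) - monomial m' 1) + monomial m' 1) := by ring
    rw [h5]
    refine Submodule.add_mem _ ?_ (mul_mem_SF_zero (tau_sub_aux i) (Submodule.add_mem _ ?_ hp))
    · have := X_mul_mem i h3
      rwa [sub_add_cancel] at this
    · exact SF_mono (by omega) h3

theorem tau_sub_mem {d : ℤ} {s : S} (hs : s ∈ SF d) : tau s - s ∈ SF (d - 1) := by
  obtain ⟨φ, hφ⟩ : ∃ φ : S →ₗ[ℂ] S, ∀ s, φ s = tau s - s :=
    ⟨tau.toLinearMap - LinearMap.id, fun s => rfl⟩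
  have h1 : ∀ m : Fin 3 →₀ ℕ, φ (monomial m 1) ∈ SF ((m.degree : ℤ) + (-1)) := by
    intro m
    rw [hφ, ← sub_eq_add_neg]
    exact tau_sub_monomial _ m rfl
  have h2 := lin_mem φ (-1) h1 hs
  rw [hφ, ← sub_eq_add_neg] at h2
  exact h2

theorem tau_mem {d : ℤ} {s : S} (hs : s ∈ SF d) : tau s ∈ SF d := by
  have h1 : tau s = (tau s - s) + s := by ring
  rw [h1]
  exact Submodule.add_mem _ (SF_mono (by omega) (tau_sub_mem hs)) hs

theorem two_mul_mem {d : ℤ} {s : S} (hs : s ∈ SF d) : 2 * s ∈ SF d := by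
  rw [← two_smul']
  exact Submodule.smul_mem _ _ hs

theorem X_mul_pderiv_mem (i j : Fin 3) {d : ℤ} {s : S} (hs : s ∈ SF d) :
    X i * pderiv j s ∈ SF d := by
  have := X_mul_mem i (pderiv_mem j hs)
  rwa [sub_add_cancel] at this

/-- `Rf = X0 * _ + lower terms` -/
theorem Rf_low {d : ℤ} {s : S} (hs : s ∈ SF d) : Rf s - X 0 * s ∈ SF d := by
  rw [Rf_apply]
  have h1 : X 0 * tau s + X 1 * pderiv 2 s - X 2 * pderiv 2 (pderiv 2 s) - X 0 * s =
    X 0 * (tau s - s) + X 1 * pderiv 2 s - X 2 * pderiv 2 (pderiv 2 s) := by ring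
  rw [h1]
  refine Submodule.sub_mem _ (Submodule.add_mem _ ?_ (X_mul_pderiv_mem 1 2 hs)) ?_
  · have := X_mul_mem 0 (tau_sub_mem hs)
    rwa [sub_add_cancel] at this
  · exact SF_mono (by omega) (X_mul_pderiv_mem 2 2 (pderiv_mem 2 hs))

/-- `Rh = X1 * _ + lower terms` -/
theorem Rh_low {d : ℤ} {s : S} (hs : s ∈ SF d) : Rh s - X 1 * s ∈ SF d := by
  rw [Rh_apply]
  have h1 : X 1 * s - 2 * (X 2 * pderiv 2 s) - X 1 * s = -(2 * (X 2 * pderiv 2 s)) := by ring
  rw [h1]
  exact Submodule.neg_mem _ (two_mul_mem (X_mul_pderiv_mem 2 2 hs))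

theorem Lf_mem {d : ℤ} {s : S} (hs : s ∈ SF d) : Lf s ∈ SF (d + 1) := by
  rw [Lf_apply]
  exact X_mul_mem 0 hs

theorem Lh_mem {d : ℤ} {s : S} (hs : s ∈ SF d) : Lh s ∈ SF (d + 1) := by
  rw [Lh_apply]
  exact Submodule.sub_mem _ (X_mul_mem 1 hs)
    (SF_mono (by omega) (two_mul_mem (X_mul_pderiv_mem 0 0 hs)))

theorem Le_mem {d : ℤ} {s : S} (hs : s ∈ SF d) : Le s ∈ SF (d + 1) := by
  rw [Le_apply]
  refine Submodule.sub_mem _ (Submodule.add_mem _ (X_mul_mem 2 (tau_mem hs))
    (SF_mono (by omega) (X_mul_pderiv_mem 1 0 hs))) ?_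
  exact SF_mono (by omega) (X_mul_pderiv_mem 0 0 (pderiv_mem 0 hs))

instance : FSl2 S where
  F := SF
  mono _ := SF_mono (by lia)
  e_mem _ _ hy := Le_mem hy
  f_mem _ _ hy := Lf_mem hy
  h_mem _ _ hy := Lh_mem hy

theorem S_F (d : ℤ) : FSl2.F (Y := S) d = SF d := rfl

theorem F_mono_le {Y : Type} [AddCommGroup Y] [Module ℂ Y] [Sl2 Y] [FSl2 Y] {a b : ℤ}
    (h : a ≤ b) : FSl2.F (Y := Y) a ≤ FSl2.F (Y := Y) b := by
  induction b, h using Int.le_induction with
  | base => exact le_rfl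
  | succ b _ ih => exact ih.trans (FSl2.mono b)

theorem pow_raise {Y : Type} [AddCommGroup Y] [Module ℂ Y] [Sl2 Y] [FSl2 Y]
    (φ : Module.End ℂ Y)
    (hφ : ∀ (d : ℤ) (y : Y), y ∈ FSl2.F (Y := Y) d → φ y ∈ FSl2.F (Y := Y) (d + 1)) (n : ℕ) :
    ∀ (d : ℤ) (y : Y), y ∈ FSl2.F (Y := Y) d → (φ ^ n) y ∈ FSl2.F (Y := Y) (d + n) := by
  induction n with
  | zero =>
    intro d y hy
    simpa using hy
  | succ n ih =>
    intro d y hy
    rw [pow_succ']
    have h1 := hφ _ _ (ih d y hy)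
    have h2 : d + ((n + 1 : ℕ) : ℤ) = d + n + 1 := by push_cast; ring
    rw [h2]
    exact h1

/-- the action of `PBW s`, `s ∈ SF a`, on a filtered representation raises the filtration by
`a` -/
theorem PBW_rep_mem {Y : Type} [AddCommGroup Y] [Module ℂ Y] [Sl2 Y] [FSl2 Y] {a b : ℤ} {s : S}
    (hs : s ∈ SF a) {y : Y} (hy : y ∈ FSl2.F (Y := Y) b) :
    PBW (repTriple Y) s y ∈ FSl2.F (Y := Y) (a + b) := by
  rw [mem_SF] at hs
  rw [as_sum s, map_sum, LinearMap.sum_apply]
  refine Submodule.sum_mem _ fun m hm => ?_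
  rw [PBW_monomial, LinearMap.smul_apply]
  refine Submodule.smul_mem _ _ ?_
  have h1 := pow_raise (repTriple Y).e (fun d y hy => FSl2.e_mem d y hy) (m 2) b y hy
  have h2 := pow_raise (repTriple Y).h (fun d y hy => FSl2.h_mem d y hy) (m 1) _ _ h1
  have h3 := pow_raise (repTriple Y).f (fun d y hy => FSl2.f_mem d y hy) (m 0) _ _ h2
  refine F_mono_le ?_ h3
  have h4 := hs m hm
  have h5 : m.degree = m 0 + m 1 + m 2 := by
    rw [Finsupp.degree_eq_sum, Fin.sum_univ_three]
  rw [h5] at h4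
  push_cast at h4
  omega

/-- `Rx s` for `x = e, f, h` -/
theorem Re_mem {d : ℤ} {s : S} (hs : s ∈ SF d) : Re s ∈ SF (d + 1) := by
  rw [Re_apply]
  exact X_mul_mem 2 hs

theorem Rf_mem {d : ℤ} {s : S} (hs : s ∈ SF d) : Rf s ∈ SF (d + 1) := by
  have h1 : Rf s = (Rf s - X 0 * s) + X 0 * s := by ring
  rw [h1]
  exact Submodule.add_mem _ (SF_mono (by omega) (Rf_low hs)) (X_mul_mem 0 hs)

theorem Rh_mem {d : ℤ} {s : S} (hs : s ∈ SF d) : Rh s ∈ SF (d + 1) := by
  have h1 : Rh s = (Rh s - X 1 * s) + X 1 * s := by ring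
  rw [h1]
  exact Submodule.add_mem _ (SF_mono (by omega) (Rh_low hs)) (X_mul_mem 1 hs)

end

end Crest.Agent.R178U
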