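import Crest.Agent.R178U.Pn

/-!
# The `E`-modules `XN N`, `Inf N` and the maps
`0 → Inf N --ι--> NN (Pn (N+1)) --μ--> NN (Pn (N+1)) --κ--> XN N → 0`,
`0 → Inf N --jm--> XN N --qm--> Inf (N+1) → 0`.

PIECE SEQ (this file): the relations of `XTuple` (from `dx_e, ..., rel_vt, rel_wt` of `Pn.lean`) and
`E`-linearity of `ι, μ, κ, jm, qm`: check the six generators (`cases g`), `gen_t_smul` etc. of
`EMod.lean`, and for `XN, Inf`: `XN_smul_def`, `Inf_smul_def`, `lift_gen`;
for `μ`: `V1_shift`, `V2_shift`, `cmap_shift`, `De_Th`, ...; for `κ`: the relations `dx_e`, ..., and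
`V1 (single j y) = Θ^j (y,0)`, `Th_coker'` (so `dx (Θ^j z).1 + dy (Θ^j z).2 = N^j (...)`).
-/

set_option autoImplicit false
set_option linter.unusedSimpArgs false

namespace Crest.Agent.R178U

noncomputable section

/-! ### the modules -/

/-- `X_N = Pn (N+1) ⊕ Pn N`, `v, w` act as `∂_x, ∂_y : Pn (N+1) → Pn N` -/
def XN (N : ℕ) : Type := Pn (N + 1) × Pn N

instance (N : ℕ) : AddCommGroup (XN N) := inferInstanceAs (AddCommGroup (Pn (N + 1) × Pn N))
instance (N : ℕ) : Module ℂ (XN N) := inferInstanceAs (Module ℂ (Pn (N + 1) × Pn N))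

/-- operator of `v` -/
def XTv (N : ℕ) : Module.End ℂ (Pn (N + 1) × Pn N) :=
  LinearMap.inr ℂ (Pn (N + 1)) (Pn N) ∘ₗ dx N ∘ₗ LinearMap.fst ℂ (Pn (N + 1)) (Pn N)

/-- operator of `w` -/
def XTw (N : ℕ) : Module.End ℂ (Pn (N + 1) × Pn N) :=
  LinearMap.inr ℂ (Pn (N + 1)) (Pn N) ∘ₗ dy N ∘ₗ LinearMap.fst ℂ (Pn (N + 1)) (Pn N)

theorem XTv_apply (N : ℕ) (p : Pn (N + 1)) (q : Pn N) : XTv N (p, q) = (0, dx N p) := rfl
theorem XTw_apply (N : ℕ) (p : Pn (N + 1)) (q : Pn N) : XTw N (p, q) = (0, dy N p) := rfl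

/-- the six operators on `Pn (N+1) × Pn N` -/
def XTuple (N : ℕ) : ETuple (Module.End ℂ (Pn (N + 1) × Pn N)) where
  t := LinearMap.prodMap ((N : ℂ) • LinearMap.id) (((N : ℂ) - 1) • LinearMap.id)
  e := LinearMap.prodMap Sl2.e Sl2.e
  f := LinearMap.prodMap Sl2.f Sl2.f
  h := LinearMap.prodMap Sl2.h Sl2.h
  v := XTv N
  w := XTw N
  he := by
    refine LinearMap.ext fun x => ?_
    obtain ⟨p, q⟩ := x
    simp only [Module.End.mul_apply, LinearMap.prodMap_apply, LinearMap.add_apply, LinearMap.sub_apply, LinearMap.smul_apply, LinearMap.id_apply, XTv_apply, XTw_apply, Prod.mk_add_mk, Prod.mk_sub_mk, Prod.smul_mk, Sl2.he]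
  hf := by
    refine LinearMap.ext fun x => ?_
    obtain ⟨p, q⟩ := x
    simp only [Module.End.mul_apply, LinearMap.prodMap_apply, LinearMap.add_apply, LinearMap.sub_apply, LinearMap.smul_apply, LinearMap.id_apply, XTv_apply, XTw_apply, Prod.mk_add_mk, Prod.mk_sub_mk, Prod.smul_mk, Sl2.hf]
  ef := by
    refine LinearMap.ext fun x => ?_
    obtain ⟨p, q⟩ := x
    simp only [Module.End.mul_apply, LinearMap.prodMap_apply, LinearMap.add_apply, LinearMap.sub_apply, LinearMap.smul_apply, LinearMap.id_apply, XTv_apply, XTw_apply, Prod.mk_add_mk, Prod.mk_sub_mk, Prod.smul_mk, Sl2.ef]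
  te := by
    refine LinearMap.ext fun x => ?_
    obtain ⟨p, q⟩ := x
    simp only [Module.End.mul_apply, LinearMap.prodMap_apply, LinearMap.add_apply, LinearMap.sub_apply, LinearMap.smul_apply, LinearMap.id_apply, XTv_apply, XTw_apply, Prod.mk_add_mk, Prod.mk_sub_mk, Prod.smul_mk, map_smul]
  tf := by
    refine LinearMap.ext fun x => ?_
    obtain ⟨p, q⟩ := x
    simp only [Module.End.mul_apply, LinearMap.prodMap_apply, LinearMap.add_apply, LinearMap.sub_apply, LinearMap.smul_apply, LinearMap.id_apply, XTv_apply, XTw_apply, Prod.mk_add_mk, Prod.mk_sub_mk, Prod.smul_mk, map_smul]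
  th := by
    refine LinearMap.ext fun x => ?_
    obtain ⟨p, q⟩ := x
    simp only [Module.End.mul_apply, LinearMap.prodMap_apply, LinearMap.add_apply, LinearMap.sub_apply, LinearMap.smul_apply, LinearMap.id_apply, XTv_apply, XTw_apply, Prod.mk_add_mk, Prod.mk_sub_mk, Prod.smul_mk, map_smul]
  tv := by
    refine LinearMap.ext fun x => ?_
    obtain ⟨p, q⟩ := x
    simp only [Module.End.mul_apply, LinearMap.prodMap_apply, LinearMap.add_apply, LinearMap.sub_apply, LinearMap.smul_apply, LinearMap.id_apply, XTv_apply, XTw_apply, Prod.mk_add_mk, Prod.mk_sub_mk, Prod.smul_mk, map_smul, smul_zero, sub_zero]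
    congr 1
    module
  tw := by
    refine LinearMap.ext fun x => ?_
    obtain ⟨p, q⟩ := x
    simp only [Module.End.mul_apply, LinearMap.prodMap_apply, LinearMap.add_apply, LinearMap.sub_apply, LinearMap.smul_apply, LinearMap.id_apply, XTv_apply, XTw_apply, Prod.mk_add_mk, Prod.mk_sub_mk, Prod.smul_mk, map_smul, smul_zero, sub_zero]
    congr 1
    module
  ev := by
    refine LinearMap.ext fun x => ?_
    obtain ⟨p, q⟩ := x
    simp only [Module.End.mul_apply, LinearMap.prodMap_apply, LinearMap.add_apply, LinearMap.sub_apply, LinearMap.smul_apply, LinearMap.id_apply, XTv_apply, XTw_apply, Prod.mk_add_mk, Prod.mk_sub_mk, Prod.smul_mk, map_zero, dx_e, sub_zero, add_sub_cancel_right]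
  ew := by
    refine LinearMap.ext fun x => ?_
    obtain ⟨p, q⟩ := x
    simp only [Module.End.mul_apply, LinearMap.prodMap_apply, LinearMap.add_apply, LinearMap.sub_apply, LinearMap.smul_apply, LinearMap.id_apply, XTv_apply, XTw_apply, Prod.mk_add_mk, Prod.mk_sub_mk, Prod.smul_mk, map_zero, dy_e]
  fv := by
    refine LinearMap.ext fun x => ?_
    obtain ⟨p, q⟩ := x
    simp only [Module.End.mul_apply, LinearMap.prodMap_apply, LinearMap.add_apply, LinearMap.sub_apply, LinearMap.smul_apply, LinearMap.id_apply, XTv_apply, XTw_apply, Prod.mk_add_mk, Prod.mk_sub_mk, Prod.smul_mk, map_zero, dx_f]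
  fw := by
    refine LinearMap.ext fun x => ?_
    obtain ⟨p, q⟩ := x
    simp only [Module.End.mul_apply, LinearMap.prodMap_apply, LinearMap.add_apply, LinearMap.sub_apply, LinearMap.smul_apply, LinearMap.id_apply, XTv_apply, XTw_apply, Prod.mk_add_mk, Prod.mk_sub_mk, Prod.smul_mk, map_zero, dy_f, sub_zero, add_sub_cancel_right]
  hv := by
    refine LinearMap.ext fun x => ?_
    obtain ⟨p, q⟩ := x
    simp only [Module.End.mul_apply, LinearMap.prodMap_apply, LinearMap.add_apply, LinearMap.sub_apply, LinearMap.smul_apply, LinearMap.id_apply, XTv_apply, XTw_apply, Prod.mk_add_mk, Prod.mk_sub_mk, Prod.smul_mk, map_zero, dx_h, sub_zero, add_sub_cancel_right]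
  hw := by
    refine LinearMap.ext fun x => ?_
    obtain ⟨p, q⟩ := x
    simp only [Module.End.mul_apply, LinearMap.prodMap_apply, LinearMap.add_apply, LinearMap.sub_apply, LinearMap.smul_apply, LinearMap.id_apply, XTv_apply, XTw_apply, Prod.mk_add_mk, Prod.mk_sub_mk, Prod.smul_mk, map_zero, dy_h, add_zero, sub_add_cancel]
  vt := by
    refine LinearMap.ext fun x => ?_
    obtain ⟨p, q⟩ := x
    simp only [Module.End.mul_apply, LinearMap.prodMap_apply, LinearMap.add_apply, LinearMap.sub_apply, LinearMap.smul_apply, LinearMap.id_apply, XTv_apply, XTw_apply, Prod.mk_add_mk, Prod.mk_sub_mk, Prod.smul_mk, map_smul, smul_zero, sub_zero, add_zero]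
    rw [rel_vt]
  wt := by
    refine LinearMap.ext fun x => ?_
    obtain ⟨p, q⟩ := x
    simp only [Module.End.mul_apply, LinearMap.prodMap_apply, LinearMap.add_apply, LinearMap.sub_apply, LinearMap.smul_apply, LinearMap.id_apply, XTv_apply, XTw_apply, Prod.mk_add_mk, Prod.mk_sub_mk, Prod.smul_mk, map_smul, smul_zero, sub_zero]
    rw [rel_wt]
  vv := by
    refine LinearMap.ext fun x => ?_
    obtain ⟨p, q⟩ := x
    simp only [Module.End.mul_apply, XTv_apply, XTw_apply, map_zero, LinearMap.zero_apply]; rfl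
  vw := by
    refine LinearMap.ext fun x => ?_
    obtain ⟨p, q⟩ := x
    simp only [Module.End.mul_apply, XTv_apply, XTw_apply, map_zero, LinearMap.zero_apply]; rfl
  wv := by
    refine LinearMap.ext fun x => ?_
    obtain ⟨p, q⟩ := x
    simp only [Module.End.mul_apply, XTv_apply, XTw_apply, map_zero, LinearMap.zero_apply]; rfl
  ww := by
    refine LinearMap.ext fun x => ?_
    obtain ⟨p, q⟩ := x
    simp only [Module.End.mul_apply, XTv_apply, XTw_apply, map_zero, LinearMap.zero_apply]; rfl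

/-- same, on `XN N` -/
def XTuple' (N : ℕ) : ETuple (Module.End ℂ (XN N)) := XTuple N

instance (N : ℕ) : Module E (XN N) := Module.compHom (XN N) (XTuple' N).lift.toRingHom

theorem XN_smul_def {N : ℕ} (a : E) (x : XN N) : a • x = (XTuple' N).lift a x := rfl

instance (N : ℕ) : IsScalarTower ℂ E (XN N) where
  smul_assoc c a x := by
    rw [XN_smul_def, XN_smul_def, map_smul]; rfl

/-- constructor -/
def XN.mk {N : ℕ} (p : Pn (N + 1)) (q : Pn N) : XN N := ((p, q) : Pn (N + 1) × Pn N)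

theorem XN_gen_smul {N : ℕ} (g : EGen) (x : XN N) : gen g • x = (XTuple' N).assign g x := by
  rw [XN_smul_def, lift_gen]

theorem XN_t_smul {N : ℕ} (p : Pn (N + 1)) (q : Pn N) :
    gen .t • XN.mk p q = XN.mk ((N : ℂ) • p) (((N : ℂ) - 1) • q) := XN_gen_smul .t _
theorem XN_e_smul {N : ℕ} (p : Pn (N + 1)) (q : Pn N) :
    gen .e • XN.mk p q = XN.mk (Sl2.e p) (Sl2.e q) := XN_gen_smul .e _
theorem XN_f_smul {N : ℕ} (p : Pn (N + 1)) (q : Pn N) :
    gen .f • XN.mk p q = XN.mk (Sl2.f p) (Sl2.f q) := XN_gen_smul .f _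
theorem XN_h_smul {N : ℕ} (p : Pn (N + 1)) (q : Pn N) :
    gen .h • XN.mk p q = XN.mk (Sl2.h p) (Sl2.h q) := XN_gen_smul .h _
theorem XN_v_smul {N : ℕ} (p : Pn (N + 1)) (q : Pn N) :
    gen .v • XN.mk p q = XN.mk 0 (dx N p) := XN_gen_smul .v _
theorem XN_w_smul {N : ℕ} (p : Pn (N + 1)) (q : Pn N) :
    gen .w • XN.mk p q = XN.mk 0 (dy N p) := XN_gen_smul .w _

/-- `Inf N = Pn N` with `t = N - 1`, `v = w = 0` -/
def Inf (N : ℕ) : Type := Pn N

instance (N : ℕ) : AddCommGroup (Inf N) := inferInstanceAs (AddCommGroup (Pn N))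
instance (N : ℕ) : Module ℂ (Inf N) := inferInstanceAs (Module ℂ (Pn N))

/-- the six operators on `Pn N` -/
def ITuple (N : ℕ) : ETuple (Module.End ℂ (Pn N)) where
  t := ((N : ℂ) - 1) • LinearMap.id
  e := Sl2.e
  f := Sl2.f
  h := Sl2.h
  v := 0
  w := 0
  he := by ext y; simp [Sl2.he]
  hf := by ext y; simp [Sl2.hf]
  ef := by ext y; simp [Sl2.ef]
  te := by ext y; simp
  tf := by ext y; simp
  th := by ext y; simp
  tv := by simp
  tw := by simp
  ev := by simp
  ew := by simp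
  fv := by simp
  fw := by simp
  hv := by simp
  hw := by simp
  vt := by simp
  wt := by simp
  vv := by simp
  vw := by simp
  wv := by simp
  ww := by simp

/-- same, on `Inf N` -/
def ITuple' (N : ℕ) : ETuple (Module.End ℂ (Inf N)) := ITuple N

instance (N : ℕ) : Module E (Inf N) := Module.compHom (Inf N) (ITuple' N).lift.toRingHom

theorem Inf_smul_def {N : ℕ} (a : E) (x : Inf N) : a • x = (ITuple' N).lift a x := rfl

instance (N : ℕ) : IsScalarTower ℂ E (Inf N) where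
  smul_assoc c a x := by
    rw [Inf_smul_def, Inf_smul_def, map_smul]; rfl

instance (N : ℕ) : FiniteDimensional ℂ (Inf N) := inferInstanceAs (FiniteDimensional ℂ (Pn N))

/-- constructor -/
def Inf.mk {N : ℕ} (q : Pn N) : Inf N := q

theorem Inf_gen_smul {N : ℕ} (g : EGen) (x : Inf N) : gen g • x = (ITuple' N).assign g x := by
  rw [Inf_smul_def, lift_gen]

theorem Inf_t_smul {N : ℕ} (q : Pn N) :
    gen .t • Inf.mk q = Inf.mk (((N : ℂ) - 1) • q) := Inf_gen_smul .t _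
theorem Inf_e_smul {N : ℕ} (q : Pn N) : gen .e • Inf.mk q = Inf.mk (Sl2.e q) := Inf_gen_smul .e _
theorem Inf_f_smul {N : ℕ} (q : Pn N) : gen .f • Inf.mk q = Inf.mk (Sl2.f q) := Inf_gen_smul .f _
theorem Inf_h_smul {N : ℕ} (q : Pn N) : gen .h • Inf.mk q = Inf.mk (Sl2.h q) := Inf_gen_smul .h _
theorem Inf_v_smul {N : ℕ} (q : Pn N) : gen .v • Inf.mk q = Inf.mk 0 := Inf_gen_smul .v _
theorem Inf_w_smul {N : ℕ} (q : Pn N) : gen .w • Inf.mk q = Inf.mk 0 := Inf_gen_smul .w _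

/-! ### the maps -/

/-- underlying linear map of `ι` -/
def iotaLin (N : ℕ) : Inf N →ₗ[ℂ] NN (Pn (N + 1)) :=
  LinearMap.inr ℂ (ℕ →₀ Pn (N + 1)) (Pn (N + 1) × Pn (N + 1)) ∘ₗ LinearMap.prod (mx N) (my N)

theorem iotaLin_mk {N : ℕ} (q : Pn N) : iotaLin N (Inf.mk q) = NN.mk 0 (mx N q, my N q) := rfl

theorem iotaLin_gen (N : ℕ) (g : EGen) (x : Inf N) :
    iotaLin N (gen g • x) = gen g • iotaLin N x := by
  have hx : x = Inf.mk (show Pn N from x) := rfl
  rw [hx]
  generalize (show Pn N from x) = q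
  cases g with
  | t =>
    rw [Inf_t_smul, iotaLin_mk, iotaLin_mk, gen_t_smul, map_zero, Th_ker']
    congr 1
    simp only [map_smul]
    ext1
    · simp only [Prod.smul_mk, Prod.mk_sub_mk]
      module
    · simp only [Prod.smul_mk, Prod.mk_sub_mk]
      module
  | e =>
    rw [Inf_e_smul, iotaLin_mk, iotaLin_mk, gen_e_smul, map_zero, De_apply, mx_e, my_e]
  | f =>
    rw [Inf_f_smul, iotaLin_mk, iotaLin_mk, gen_f_smul, map_zero, Df_apply, mx_f, my_f]
  | h =>
    rw [Inf_h_smul, iotaLin_mk, iotaLin_mk, gen_h_smul, map_zero, Dh_apply, mx_h, my_h]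
  | v =>
    rw [Inf_v_smul, iotaLin_mk, iotaLin_mk, gen_v_smul, map_zero, map_zero, map_zero]
    rfl
  | w =>
    rw [Inf_w_smul, iotaLin_mk, iotaLin_mk, gen_w_smul, map_zero, map_zero, map_zero]
    rfl

/-- `ι : Inf N → NN (Pn (N+1))`, `q ↦ (0, (x q, y q))` -/
def iota (N : ℕ) : Inf N →ₗ[E] NN (Pn (N + 1)) := ELin (iotaLin N) (iotaLin_gen N)

theorem iota_apply {N : ℕ} (q : Inf N) : iota N q = NN.mk 0 (mx N q, my N q) := rfl

/-- underlying linear map of `μ` -/
def muLin (Y : Type) [AddCommGroup Y] [Module ℂ Y] [Sl2 Y] (c : ℂ) : NN Y →ₗ[ℂ] NN Y :=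
  LinearMap.prodMap (shift Y - c • LinearMap.id) (Th Y - c • LinearMap.id)

theorem muLin_mk {Y : Type} [AddCommGroup Y] [Module ℂ Y] [Sl2 Y] (c : ℂ) (p : ℕ →₀ Y)
    (z : Y × Y) : muLin Y c (NN.mk p z) = NN.mk (shift Y p - c • p) (Th Y z - c • z) := rfl

theorem muLin_gen (Y : Type) [AddCommGroup Y] [Module ℂ Y] [Sl2 Y] (c : ℂ) (g : EGen) (x : NN Y) :
    muLin Y c (gen g • x) = gen g • muLin Y c x := by
  have hx : x = NN.mk (NN.pol x) (NN.vec x) := rfl
  rw [hx]
  generalize NN.pol x = p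
  generalize NN.vec x = z
  cases g with
  | t =>
    rw [gen_t_smul, muLin_mk, muLin_mk, gen_t_smul]
    congr 1
    · rw [map_sub, map_smul]
    · rw [map_sub, map_sub, map_smul, smul_sub]; abel
  | e =>
    rw [gen_e_smul, muLin_mk, muLin_mk, gen_e_smul]
    congr 1
    · rw [map_sub, map_smul, cmap_shift]
    · rw [map_sub, map_smul, De_Th]
  | f =>
    rw [gen_f_smul, muLin_mk, muLin_mk, gen_f_smul]
    congr 1
    · rw [map_sub, map_smul, cmap_shift]
    · rw [map_sub, map_smul, Df_Th]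
  | h =>
    rw [gen_h_smul, muLin_mk, muLin_mk, gen_h_smul]
    congr 1
    · rw [map_sub, map_smul, cmap_shift]
    · rw [map_sub, map_smul, Dh_Th]
  | v =>
    rw [gen_v_smul, muLin_mk, muLin_mk, gen_v_smul]
    congr 1
    · rw [map_zero, smul_zero, sub_zero]
    · rw [map_sub, map_smul, V1_shift]
  | w =>
    rw [gen_w_smul, muLin_mk, muLin_mk, gen_w_smul]
    congr 1
    · rw [map_zero, smul_zero, sub_zero]
    · rw [map_sub, map_smul, V2_shift]

/-- `μ` = right multiplication by `t - c`: `(p, z) ↦ (t p - c p, Θ z - c z)` -/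
def mu (Y : Type) [AddCommGroup Y] [Module ℂ Y] [Sl2 Y] (c : ℂ) : NN Y →ₗ[E] NN Y :=
  ELin (muLin Y c) (muLin_gen Y c)

theorem mu_mk {Y : Type} [AddCommGroup Y] [Module ℂ Y] [Sl2 Y] (c : ℂ) (p : ℕ →₀ Y)
    (z : Y × Y) : mu Y c (NN.mk p z) = NN.mk (shift Y p - c • p) (Th Y z - c • z) := rfl

/-- evaluation `∑ y_j t^j ↦ ∑ c^j y_j` -/
def evalAt (Y : Type) [AddCommGroup Y] [Module ℂ Y] (c : ℂ) : (ℕ →₀ Y) →ₗ[ℂ] Y :=
  Finsupp.lsum ℂ (fun j => c ^ j • LinearMap.id)

/-- underlying linear map of `κ` -/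
def kappaLin (N : ℕ) : NN (Pn (N + 1)) →ₗ[ℂ] XN N :=
  LinearMap.prodMap (evalAt (Pn (N + 1)) (N : ℂ)) (LinearMap.coprod (dx N) (dy N))

theorem evalAt_single (Y : Type) [AddCommGroup Y] [Module ℂ Y] (c : ℂ) (j : ℕ) (y : Y) :
    evalAt Y c (Finsupp.single j y) = c ^ j • y := by
  rw [evalAt, Finsupp.lsum_single]; rfl

theorem evalAt_shift (Y : Type) [AddCommGroup Y] [Module ℂ Y] (c : ℂ) (p : ℕ →₀ Y) :
    evalAt Y c (shift Y p) = c • evalAt Y c p := by
  induction p using Finsupp.induction_linear with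
  | zero => simp
  | add p q hp hq => simp only [map_add, hp, hq, smul_add]
  | single j y =>
    rw [shift, Finsupp.lmapDomain_apply, Finsupp.mapDomain_single, evalAt_single, evalAt_single,
      smul_smul, pow_succ']

theorem evalAt_cmap {Y Z : Type} [AddCommGroup Y] [Module ℂ Y] [AddCommGroup Z] [Module ℂ Z]
    (φ : Y →ₗ[ℂ] Z) (c : ℂ) (p : ℕ →₀ Y) :
    evalAt Z c (cmap φ p) = φ (evalAt Y c p) := by
  induction p using Finsupp.induction_linear with
  | zero => simp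
  | add p q hp hq => simp only [map_add, hp, hq]
  | single j y =>
    rw [Finsupp.mapRange.linearMap_apply, Finsupp.mapRange_single, evalAt_single, evalAt_single,
      map_smul]

/-- `D z = ∂_x z₁ + ∂_y z₂` -/
def Dsum (N : ℕ) (z : Pn (N + 1) × Pn (N + 1)) : Pn N := dx N z.1 + dy N z.2

theorem kappaLin_mk {N : ℕ} (p : ℕ →₀ Pn (N + 1)) (z : Pn (N + 1) × Pn (N + 1)) :
    kappaLin N (NN.mk p z) = XN.mk (evalAt (Pn (N + 1)) (N : ℂ) p) (Dsum N z) := by
  rfl

theorem Dsum_Thpow {N : ℕ} (j : ℕ) (z : Pn (N + 1) × Pn (N + 1)) :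
    Dsum N (((Th (Pn (N + 1))) ^ j : Module.End ℂ (Pn (N + 1) × Pn (N + 1))) z)
      = (N : ℂ) ^ j • Dsum N z := by
  induction j with
  | zero => simp
  | succ j ih =>
    rw [Thpow_succ']
    have h := Th_coker' (((Th (Pn (N + 1))) ^ j : Module.End ℂ (Pn (N + 1) × Pn (N + 1))) z)
    have h2 : Dsum N (Th (Pn (N + 1)) (((Th (Pn (N + 1))) ^ j : Module.End ℂ (Pn (N + 1) × Pn (N + 1))) z))
        = (N : ℂ) • Dsum N (((Th (Pn (N + 1))) ^ j : Module.End ℂ (Pn (N + 1) × Pn (N + 1))) z) := h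
    rw [h2, ih, smul_smul, pow_succ']

theorem Dsum_add {N : ℕ} (z z' : Pn (N + 1) × Pn (N + 1)) : Dsum N (z + z') = Dsum N z + Dsum N z' := by
  unfold Dsum
  rw [Prod.fst_add, Prod.snd_add, map_add, map_add]
  abel

theorem Dsum_zero {N : ℕ} : Dsum N 0 = 0 := by
  unfold Dsum
  simp

theorem Dsum_V1 {N : ℕ} (p : ℕ →₀ Pn (N + 1)) :
    Dsum N (V1 (Pn (N + 1)) p) = dx N (evalAt (Pn (N + 1)) (N : ℂ) p) := by
  induction p using Finsupp.induction_linear with
  | zero => rw [map_zero, map_zero, map_zero, Dsum_zero]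
  | add p q hp hq => rw [map_add, Dsum_add, hp, hq, map_add, map_add]
  | single j y =>
    rw [V1_single, Dsum_Thpow, evalAt_single, map_smul]
    congr 1
    unfold Dsum
    simp

theorem Dsum_V2 {N : ℕ} (p : ℕ →₀ Pn (N + 1)) :
    Dsum N (V2 (Pn (N + 1)) p) = dy N (evalAt (Pn (N + 1)) (N : ℂ) p) := by
  induction p using Finsupp.induction_linear with
  | zero => rw [map_zero, map_zero, map_zero, Dsum_zero]
  | add p q hp hq => rw [map_add, Dsum_add, hp, hq, map_add, map_add]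
  | single j y =>
    rw [V2_single, Dsum_Thpow, evalAt_single, map_smul]
    congr 1
    unfold Dsum
    simp

theorem Dsum_Th {N : ℕ} (z : Pn (N + 1) × Pn (N + 1)) :
    Dsum N (Th (Pn (N + 1)) z - z) = ((N : ℂ) - 1) • Dsum N z := by
  have h : Dsum N (Th (Pn (N + 1)) z) = (N : ℂ) • Dsum N z := Th_coker' z
  have h2 : Dsum N (Th (Pn (N + 1)) z - z) = Dsum N (Th (Pn (N + 1)) z) - Dsum N z := by
    unfold Dsum
    rw [Prod.fst_sub, Prod.snd_sub, map_sub, map_sub]
    abel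
  rw [h2, h]
  module

theorem kappaLin_gen (N : ℕ) (g : EGen) (x : NN (Pn (N + 1))) :
    kappaLin N (gen g • x) = gen g • kappaLin N x := by
  have hx : x = NN.mk (NN.pol x) (NN.vec x) := rfl
  rw [hx]
  generalize NN.pol x = p
  generalize NN.vec x = z
  cases g with
  | t =>
    rw [gen_t_smul, kappaLin_mk, kappaLin_mk, XN_t_smul, evalAt_shift, Dsum_Th]
  | e =>
    rw [gen_e_smul, kappaLin_mk, kappaLin_mk, XN_e_smul, evalAt_cmap]
    congr 1
    unfold Dsum
    rw [De_apply, map_sub, dx_e, dy_e, map_add]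
    abel
  | f =>
    rw [gen_f_smul, kappaLin_mk, kappaLin_mk, XN_f_smul, evalAt_cmap]
    congr 1
    unfold Dsum
    rw [Df_apply, map_sub, dx_f, dy_f, map_add]
    abel
  | h =>
    rw [gen_h_smul, kappaLin_mk, kappaLin_mk, XN_h_smul, evalAt_cmap]
    congr 1
    unfold Dsum
    rw [Dh_apply, map_sub, map_add, dx_h, dy_h, map_add]
    abel
  | v =>
    rw [gen_v_smul, kappaLin_mk, kappaLin_mk, XN_v_smul, Dsum_V1, map_zero]
  | w =>
    rw [gen_w_smul, kappaLin_mk, kappaLin_mk, XN_w_smul, Dsum_V2, map_zero]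

/-- `κ : NN (Pn (N+1)) → XN N`, `(p, z) ↦ (p(N), ∂_x z₁ + ∂_y z₂)` -/
def kappa (N : ℕ) : NN (Pn (N + 1)) →ₗ[E] XN N := ELin (kappaLin N) (kappaLin_gen N)

/-- underlying linear map of `jm` -/
def jmLin (N : ℕ) : Inf N →ₗ[ℂ] XN N := LinearMap.inr ℂ (Pn (N + 1)) (Pn N)

theorem jmLin_mk {N : ℕ} (q : Pn N) : jmLin N (Inf.mk q) = XN.mk 0 q := rfl

theorem jmLin_gen (N : ℕ) (g : EGen) (x : Inf N) : jmLin N (gen g • x) = gen g • jmLin N x := by
  have hx : x = Inf.mk (show Pn N from x) := rfl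
  rw [hx]
  generalize (show Pn N from x) = q
  cases g with
  | t => rw [Inf_t_smul, jmLin_mk, jmLin_mk, XN_t_smul, smul_zero]
  | e => rw [Inf_e_smul, jmLin_mk, jmLin_mk, XN_e_smul, map_zero]
  | f => rw [Inf_f_smul, jmLin_mk, jmLin_mk, XN_f_smul, map_zero]
  | h => rw [Inf_h_smul, jmLin_mk, jmLin_mk, XN_h_smul, map_zero]
  | v => rw [Inf_v_smul, jmLin_mk, jmLin_mk, XN_v_smul, map_zero]
  | w => rw [Inf_w_smul, jmLin_mk, jmLin_mk, XN_w_smul, map_zero]

/-- `jm : Inf N → XN N`, `q ↦ (0, q)` -/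
def jm (N : ℕ) : Inf N →ₗ[E] XN N := ELin (jmLin N) (jmLin_gen N)

/-- underlying linear map of `qm` -/
def qmLin (N : ℕ) : XN N →ₗ[ℂ] Inf (N + 1) := LinearMap.fst ℂ (Pn (N + 1)) (Pn N)

theorem qmLin_mk {N : ℕ} (p : Pn (N + 1)) (q : Pn N) : qmLin N (XN.mk p q) = Inf.mk p := rfl

theorem qmLin_gen (N : ℕ) (g : EGen) (x : XN N) : qmLin N (gen g • x) = gen g • qmLin N x := by
  obtain ⟨p, q, hx⟩ : ∃ (p : Pn (N + 1)) (q : Pn N), x = XN.mk p q :=
    ⟨(show Pn (N + 1) × Pn N from x).1, (show Pn (N + 1) × Pn N from x).2, rfl⟩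
  rw [hx]
  cases g with
  | t =>
    rw [XN_t_smul, qmLin_mk, qmLin_mk, Inf_t_smul]
    congr 2
    push_cast
    ring
  | e => rw [XN_e_smul, qmLin_mk, qmLin_mk, Inf_e_smul]
  | f => rw [XN_f_smul, qmLin_mk, qmLin_mk, Inf_f_smul]
  | h => rw [XN_h_smul, qmLin_mk, qmLin_mk, Inf_h_smul]
  | v => rw [XN_v_smul, qmLin_mk, qmLin_mk, Inf_v_smul]
  | w => rw [XN_w_smul, qmLin_mk, qmLin_mk, Inf_w_smul]

/-- `qm : XN N → Inf (N+1)`, `(p, q) ↦ p` -/
def qm (N : ℕ) : XN N →ₗ[E] Inf (N + 1) := ELin (qmLin N) (qmLin_gen N)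

end

end Crest.Agent.R178U
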